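import Crest.Agent.StreamLB.Learner
set_option autoImplicit false

open MeasureTheory ProbabilityTheory
open scoped ENNReal BigOperators

namespace Crest.Agent.StreamLB

open Crest.StreamLearn (Sphere sphereUniform RLearner)

variable {d T M : ℕ}

theorem lout_unit (L : RLearner d T M) (ω : L.Ω) (v : L.St × Fin (T + 2)) : ‖lout L ω v‖ = 1 :=
  L.out_unit _ _ _

/-- Regime 1: too few samples. -/
theorem regime1 (hd : 1 ≤ d) (L : RLearner d T M) (ε : ℝ) (hε : 0 < ε) (hε1 : ε ≤ 1 / 10)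
    (hT : (T : ℝ) ≤ 3 / 10 * d) : L.successProb ε ≤ 66 / 100 := by
  letI := L.mΩ
  have hp2 := sphereUniform_isProb d hd
  have h := successProb_le hd L ε (ENNReal.ofReal (66 / 100)) ENNReal.ofReal_ne_top ?_
  · rwa [ENNReal.toReal_ofReal (by norm_num)] at h
  intro ω
  have hS := succSet_meas L ε
  have hm : Measurable fun p : Sphere d × (Fin T → Eu d) => (p.1, (ω, p.2)) := by fun_prop
  have hSω : MeasurableSet {p : Sphere d × (Fin T → Eu d) |
      Real.arccos (inner ℝ (L.output ω p.1 p.2) (p.1 : Eu d)) ≤ ε} := hm hS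
  have e1 : ∫⁻ s, (gamB d T) {xs | Real.arccos (inner ℝ (L.output ω s xs) (s : Eu d)) ≤ ε}
      ∂(sphereUniform d) = ∫⁻ xs, (sphereUniform d)
        {s | Real.arccos (inner ℝ (L.output ω s xs) (s : Eu d)) ≤ ε} ∂(gamB d T) := by
    have h1 := Measure.prod_apply (μ := sphereUniform d) (ν := gamB d T) hSω
    have h2 := Measure.prod_apply_symm (μ := sphereUniform d) (ν := gamB d T) hSω
    exact h1.symm.trans h2
  rw [e1]
  calc _ ≤ ∫⁻ _ : Fin T → Eu d, ENNReal.ofReal (66 / 100) ∂(gamB d T) := by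
        apply lintegral_mono
        intro xs
        have hmx : MeasurableSet {s : Sphere d |
            Real.arccos (inner ℝ (L.output ω s xs) (s : Eu d)) ≤ ε} :=
          measurable_prodMk_right hSω
        have := few_samples hd xs (fun y => lout L ω (rrun (lstep L ω) (linit L ω) xs y))
          (fun y => lout_unit L ω _) ε hε hε1 hT (by
            simp only [← output_eq]; exact hmx)
        simp only [← output_eq] at this
        exact this
    _ = ENNReal.ofReal (66 / 100) := by rw [lintegral_const, measure_univ, mul_one]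

/-- Regime 3: counting outputs. -/
theorem regime3 (hd : 1 ≤ d) (L : RLearner d T M) (ε : ℝ) (hε : 0 < ε) (hε1 : ε ≤ 1 / 10) :
    L.successProb ε ≤ ((T + 2) * 2 ^ M) * ((1 / ε + 1) * (2 * ε) ^ d) := by
  letI := L.mΩ
  letI := L.fin
  have hp2 := sphereUniform_isProb d hd
  have hpos : 0 ≤ ((T + 2 : ℝ) * 2 ^ M) * ((1 / ε + 1) * (2 * ε) ^ d) := by positivity
  have h := successProb_le hd L ε
    (ENNReal.ofReal (((T + 2) * 2 ^ M) * ((1 / ε + 1) * (2 * ε) ^ d))) ENNReal.ofReal_ne_top ?_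
  · rwa [ENNReal.toReal_ofReal hpos] at h
  intro ω
  have hsub : ∀ s : Sphere d, (gamB d T) {xs | Real.arccos (inner ℝ (L.output ω s xs) (s : Eu d)) ≤ ε} ≤
      Set.indicator (⋃ v : L.St × Fin (T + 2), {s : Sphere d | ‖(s : Eu d) - lout L ω v‖ ≤ ε})
        (fun _ => (1 : ℝ≥0∞)) s := by
    intro s
    by_cases hs : s ∈ ⋃ v : L.St × Fin (T + 2), {s : Sphere d | ‖(s : Eu d) - lout L ω v‖ ≤ ε}
    · rw [Set.indicator_of_mem hs]; exact prob_le_one
    · have : {xs | Real.arccos (inner ℝ (L.output ω s xs) (s : Eu d)) ≤ ε} = ∅ := by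
        ext xs
        simp only [Set.mem_ofPred_eq, Set.mem_empty_iff_false, iff_false]
        intro h
        apply hs
        rw [output_eq] at h
        exact Set.mem_iUnion.mpr ⟨_, norm_sub_le_of_arccos _ _ (lout_unit L ω _) (by simp) ε hε.le
          hε1 h⟩
      rw [this]; simp
  have hballm : ∀ v : L.St × Fin (T + 2),
      MeasurableSet {s : Sphere d | ‖(s : Eu d) - lout L ω v‖ ≤ ε} := by
    intro v
    have : Continuous fun s : Sphere d => ‖(s : Eu d) - lout L ω v‖ := by fun_prop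
    exact measurableSet_le this.measurable measurable_const
  calc _ ≤ ∫⁻ s, Set.indicator (⋃ v : L.St × Fin (T + 2),
        {s : Sphere d | ‖(s : Eu d) - lout L ω v‖ ≤ ε}) (fun _ => (1 : ℝ≥0∞)) s
        ∂(sphereUniform d) := lintegral_mono hsub
    _ = (sphereUniform d) (⋃ v : L.St × Fin (T + 2),
        {s : Sphere d | ‖(s : Eu d) - lout L ω v‖ ≤ ε}) := by
        rw [lintegral_indicator (MeasurableSet.iUnion fun v => hballm v)]; simp
    _ ≤ ∑ v : L.St × Fin (T + 2), (sphereUniform d) {s : Sphere d | ‖(s : Eu d) - lout L ω v‖ ≤ ε} :=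
        measure_iUnion_fintype_le _ _
    _ ≤ ∑ _v : L.St × Fin (T + 2), ENNReal.ofReal ((1 / ε + 1) * (2 * ε) ^ d) :=
        Finset.sum_le_sum fun v _ => sphereUniform_cap d hd _ (lout_unit L ω v) ε hε
    _ = (Fintype.card (L.St × Fin (T + 2)) : ℝ≥0∞) * ENNReal.ofReal ((1 / ε + 1) * (2 * ε) ^ d) := by
        rw [Finset.sum_const, Finset.card_univ, nsmul_eq_mul]
    _ ≤ ENNReal.ofReal ((T + 2) * 2 ^ M) * ENNReal.ofReal ((1 / ε + 1) * (2 * ε) ^ d) := by
        gcongr
        rw [← ENNReal.ofReal_natCast]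
        apply ENNReal.ofReal_le_ofReal
        rw [Fintype.card_prod, Fintype.card_fin]
        push_cast
        have : (Fintype.card L.St : ℝ) ≤ 2 ^ M := by exact_mod_cast L.card_le
        have h2 : (0 : ℝ) ≤ (T : ℝ) + 2 := by positivity
        nlinarith
    _ = _ := by rw [← ENNReal.ofReal_mul (by positivity)]

/-- Regime 2: the main bound. -/
theorem regime2 (hd : 2 ≤ d) (L : RLearner d T M) {N q e x w ℓ a' i0 J : ℕ}
    (hdq : 3 * q + e + 1 = d) (hq1 : 1 ≤ q) (he : 1 ≤ e) (hTN : T ≤ N * q)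
    (hcard : 2 ^ M * (T + 2) ≤ 2 ^ w)
    (hn1 : 2 * q + 1 + 8 * q + q * a' + x + 1 ≤ ℓ)
    (hn2 : 2 * q + 1 + 8 * q + q + 7 * q + 10 * d + q + 1 + x + 1 ≤ e * a')
    (hn3 : 2 * q + 1 + w ≤ x * q)
    (hJ : N * (ℓ + 1 + q) < q * (J + 1))
    (ε : ℝ) (hε0 : 0 < ε) (hε1 : ε ≤ 1 / 10)
    (hε : ε ≤ 3 * (1 / 2) ^ (J + i0)) (hi0 : 10 * d + q + 3 ≤ (2 * q + e) * i0)
    (hNJ : N * (J + 9) * 8 ≤ 2 ^ q) : L.successProb ε ≤ 1 / 2 := by
  letI := L.mΩ
  letI := L.fin
  have h := successProb_le (by omega) L ε (1 / 2) (by norm_num) ?_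
  · simpa using h
  intro ω
  have hc : (Fintype.card (L.St × Fin (T + 2)) : ℝ≥0∞) ≤ tw w := by
    rw [tw_natCast]
    have : Fintype.card (L.St × Fin (T + 2)) ≤ 2 ^ w := by
      rw [Fintype.card_prod, Fintype.card_fin]
      exact (Nat.mul_le_mul_right _ L.card_le).trans hcard
    exact_mod_cast this
  have hmb := machine_bound hd hdq hq1 he hTN hc hn1 hn2 hn3 hJ ε hε hi0 hNJ (lstep L ω)
    (fun t v v' => lstep_meas L ω t v v') (linit L ω) (lout L ω)
  refine le_trans (lintegral_mono fun s => ?_) hmb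
  apply measure_mono
  intro xs hxs
  simp only [Set.mem_ofPred_eq] at hxs ⊢
  rw [output_eq] at hxs
  exact norm_sub_le_of_arccos _ _ (lout_unit L ω _) (by simp) ε hε0.le hε1 hxs

theorem cube_le_two_pow (n : ℕ) (hn : 10 ≤ n) : n ^ 3 ≤ 2 ^ n := by
  induction n, hn using Nat.le_induction with
  | base => norm_num
  | succ n hn ih =>
    rw [pow_succ 2 n]
    nlinarith [ih, sq_nonneg (n : ℤ), Nat.pow_le_pow_left hn 2, Nat.pow_le_pow_left hn 3]

theorem poly_le (C : ℕ) : ∃ d₀ : ℕ, 160 ≤ d₀ ∧ ∀ d ≥ d₀, C * d ^ 2 ≤ 2 ^ (d / 40) := by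
  refine ⟨40 * (6400 * C + 16), by omega, ?_⟩
  intro d hd
  set q := d / 40 with hq
  have hq1 : 6400 * C + 16 ≤ q := by
    rw [hq, Nat.le_div_iff_mul_le (by norm_num)]; linarith
  have hdq : d ≤ 80 * q := by omega
  calc C * d ^ 2 ≤ C * (80 * q) ^ 2 := by gcongr
    _ = (6400 * C) * q ^ 2 := by ring
    _ ≤ q * q ^ 2 := by gcongr; omega
    _ = q ^ 3 := by ring
    _ ≤ 2 ^ q := cube_le_two_pow q (by omega)

end Crest.Agent.StreamLB
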