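import Crest.Agent.StreamLB.Cells
set_option autoImplicit false

open MeasureTheory ProbabilityTheory
open scoped ENNReal BigOperators symmDiff

namespace Crest.Agent.StreamLB

/-- sets measurable with respect to `(x, ⌊y 2^n⌋)` at a fixed level `n` -/
def lev (d n : ℕ) (F : ℤ → Set (Eu d)) : Set (Eu d × ℝ) :=
  {p | p.1 ∈ F ⌊p.2 / (1 / 2) ^ n⌋}

/-- the ring of all such sets -/
def ringC (d : ℕ) : Set (Set (Eu d × ℝ)) :=
  {A | ∃ (n : ℕ) (F : ℤ → Set (Eu d)), (∀ z, MeasurableSet (F z)) ∧ A = lev d n F}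

theorem floor_div_pow (y : ℝ) (n k : ℕ) :
    ⌊y / (1 / 2) ^ n⌋ = ⌊y / (1 / 2) ^ (n + k)⌋ / ((2 : ℤ) ^ k) := by
  have h1 : y / (1 / 2) ^ n = (y / (1 / 2) ^ (n + k)) / ((2 ^ k : ℕ) : ℝ) := by
    push_cast
    rw [pow_add, one_div_pow, one_div_pow]
    field_simp
  rw [h1]
  have := Int.floor_div_natCast (y / (1 / 2) ^ (n + k)) (2 ^ k)
  rw [this]
  push_cast
  rfl

theorem lev_refine (d n k : ℕ) (F : ℤ → Set (Eu d)) :
    lev d n F = lev d (n + k) (fun z => F (z / (2 : ℤ) ^ k)) := by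
  ext p
  simp only [lev, Set.mem_ofPred_eq]
  rw [floor_div_pow p.2 n k]

theorem lev_to (d n N : ℕ) (h : n ≤ N) (F : ℤ → Set (Eu d)) (hF : ∀ z, MeasurableSet (F z)) :
    ∃ G : ℤ → Set (Eu d), (∀ z, MeasurableSet (G z)) ∧ lev d n F = lev d N G := by
  obtain ⟨k, rfl⟩ := Nat.exists_eq_add_of_le h
  exact ⟨_, fun z => hF _, lev_refine d n k F⟩

theorem isSetRing_ringC (d : ℕ) : IsSetRing (ringC d) where
  empty_mem := ⟨0, fun _ => ∅, fun _ => MeasurableSet.empty, by ext p; simp [lev]⟩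
  union_mem := by
    rintro A B ⟨n, F, hF, rfl⟩ ⟨n', F', hF', rfl⟩
    obtain ⟨G, hG, e⟩ := lev_to d n (max n n') (le_max_left _ _) F hF
    obtain ⟨G', hG', e'⟩ := lev_to d n' (max n n') (le_max_right _ _) F' hF'
    refine ⟨max n n', fun z => G z ∪ G' z, fun z => (hG z).union (hG' z), ?_⟩
    rw [e, e']; rfl
  sdiff_mem := by
    rintro A B ⟨n, F, hF, rfl⟩ ⟨n', F', hF', rfl⟩
    obtain ⟨G, hG, e⟩ := lev_to d n (max n n') (le_max_left _ _) F hF
    obtain ⟨G', hG', e'⟩ := lev_to d n' (max n n') (le_max_right _ _) F' hF'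
    refine ⟨max n n', fun z => G z \ G' z, fun z => (hG z).diff (hG' z), ?_⟩
    rw [e, e']; rfl

theorem measurableSet_lev (d n : ℕ) (F : ℤ → Set (Eu d)) (hF : ∀ z, MeasurableSet (F z)) :
    MeasurableSet (lev d n F) := by
  have : lev d n F = ⋃ z : ℤ, (Prod.fst ⁻¹' F z) ∩ (fun p : Eu d × ℝ => ⌊p.2 / (1 / 2) ^ n⌋) ⁻¹' {z} := by
    ext p; simp [lev]
  rw [this]
  refine MeasurableSet.iUnion fun z => (measurable_fst (hF z)).inter ?_
  have hm : Measurable fun p : Eu d × ℝ => ⌊p.2 / (1 / 2) ^ n⌋ :=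
    Int.measurable_floor.comp (by fun_prop)
  exact hm (measurableSet_singleton z)

theorem generate_ringC (d : ℕ) :
    (inferInstance : MeasurableSpace (Eu d × ℝ)) = MeasurableSpace.generateFrom (ringC d) := by
  apply le_antisymm
  · refine sup_le ?_ ?_
    · rintro _ ⟨U, hU, rfl⟩
      apply MeasurableSpace.measurableSet_generateFrom
      exact ⟨0, fun _ => U, fun _ => hU, rfl⟩
    · have hb : (inferInstance : MeasurableSpace ℝ) = MeasurableSpace.generateFrom (Set.range Set.Iio) := by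
        rw [← borel_eq_generateFrom_Iio]
        exact BorelSpace.measurable_eq
      rw [show (Real.measurableSpace : MeasurableSpace ℝ) = MeasurableSpace.generateFrom (Set.range Set.Iio) from hb]
      rw [MeasurableSpace.comap_generateFrom]
      apply MeasurableSpace.generateFrom_le
      rintro _ ⟨_, ⟨q, rfl⟩, rfl⟩
      have : Prod.snd ⁻¹' (Set.Iio q) = ⋃ n : ℕ, lev d n (fun z => {_x | (z : ℝ) + 1 ≤ q / (1 / 2) ^ n}) := by
        ext p
        simp only [Set.mem_preimage, Set.mem_Iio, Set.mem_iUnion, lev, Set.mem_ofPred_eq]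
        constructor
        · intro h
          obtain ⟨n, hn⟩ := exists_pow_lt_of_lt_one (sub_pos.mpr h) (by norm_num : (1 / 2 : ℝ) < 1)
          refine ⟨n, ?_⟩
          have hp : (0 : ℝ) < (1 / 2) ^ n := by positivity
          have h1 := Int.floor_le (p.2 / (1 / 2) ^ n)
          have h2 : p.2 / (1 / 2) ^ n + 1 ≤ q / (1 / 2) ^ n := by
            rw [div_add_one hp.ne', div_le_div_iff_of_pos_right hp]
            linarith
          linarith
        · rintro ⟨n, hn⟩
          have hp : (0 : ℝ) < (1 / 2) ^ n := by positivity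
          have h1 := Int.lt_floor_add_one (p.2 / (1 / 2) ^ n)
          have h2 : p.2 / (1 / 2) ^ n < q / (1 / 2) ^ n := lt_of_lt_of_le h1 hn
          rwa [div_lt_div_iff_of_pos_right hp] at h2
      rw [this]
      refine MeasurableSet.iUnion fun n => ?_
      apply MeasurableSpace.measurableSet_generateFrom
      refine ⟨n, _, fun z => ?_, rfl⟩
      by_cases h : (z : ℝ) + 1 ≤ q / (1 / 2) ^ n
      · simp [h]
      · simp [h]
  · apply MeasurableSpace.generateFrom_le
    rintro _ ⟨n, F, hF, rfl⟩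
    exact measurableSet_lev d n F hF

/-- Lemma E: discretisation of the measurement. -/
theorem approx_discrete {V : Type} [Fintype V] [Nonempty V] (d : ℕ) (f : Eu d × ℝ → V)
    (hf : ∀ v, MeasurableSet {p | f p = v}) (ρ : Measure (Eu d × ℝ)) [IsFiniteMeasure ρ]
    (ε : ℝ≥0∞) (hε : 0 < ε) (n₀ : ℕ) :
    ∃ n ≥ n₀, ∃ f' : Eu d → ℤ → V, (∀ z v, MeasurableSet {x | f' x z = v}) ∧
      ρ {p | f p ≠ f' p.1 ⌊p.2 / (1 / 2) ^ n⌋} ≤ ε := by
  classical
  set c : ℝ≥0∞ := ε / Fintype.card V with hc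
  have hc0 : 0 < c := ENNReal.div_pos hε.ne' (by simp)
  have hex : ∀ v : V, ∃ t ∈ ringC d, ρ (t ∆ {p | f p = v}) < c := by
    intro v
    apply exists_measure_symmDiff_lt_of_generateFrom_isSetRing (isSetRing_ringC d) _
      (generate_ringC d) (hf v) hc0
    refine ⟨{Set.univ}, by simp, ?_, by simp⟩
    rw [Set.singleton_subset_iff]
    exact ⟨0, fun _ => Set.univ, fun _ => MeasurableSet.univ, by ext p; simp [lev]⟩
  choose t ht htε using hex
  choose n F hF hFt using ht
  set N := max n₀ (Finset.univ.sup n) with hN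
  have hnN : ∀ v, n v ≤ N := fun v => le_max_of_le_right (Finset.le_sup (Finset.mem_univ v))
  have hex2 : ∀ v, ∃ G : ℤ → Set (Eu d), (∀ z, MeasurableSet (G z)) ∧ t v = lev d N G := by
    intro v
    obtain ⟨G, hG, e⟩ := lev_to d (n v) N (hnN v) (F v) (hF v)
    exact ⟨G, hG, (hFt v).trans e⟩
  choose G hG hGt using hex2
  -- selection from a pattern
  set sel : Set V → V := fun P => if h : P.Nonempty then h.some else Classical.arbitrary V with hsel
  have hsel1 : ∀ v : V, sel {v} = v := by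
    intro v
    have h : ({v} : Set V).Nonempty := ⟨v, rfl⟩
    simp only [hsel, h, dif_pos]
    exact h.some_mem
  set f' : Eu d → ℤ → V := fun x z => sel {v | x ∈ G v z} with hf'
  refine ⟨N, le_max_left _ _, f', ?_, ?_⟩
  · intro z v
    have : {x | f' x z = v} = ⋃ P ∈ {P : Set V | sel P = v}, {x | {v | x ∈ G v z} = P} := by
      ext x
      simp [hf']
    rw [this]
    refine MeasurableSet.biUnion (Set.to_countable _) fun P _ => ?_
    have : {x | {v | x ∈ G v z} = P} = ⋂ v, {x | x ∈ G v z ↔ v ∈ P} := by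
      ext x
      simp [Set.ext_iff]
    rw [this]
    refine MeasurableSet.iInter fun v => ?_
    by_cases hv : v ∈ P
    · simpa [hv] using hG v z
    · have : {x | x ∈ G v z ↔ v ∈ P} = (G v z)ᶜ := by ext x; simp [hv]
      rw [this]; exact (hG v z).compl
  · have hsub : {p : Eu d × ℝ | f p ≠ f' p.1 ⌊p.2 / (1 / 2) ^ N⌋} ⊆ ⋃ v, t v ∆ {p | f p = v} := by
      intro p hp
      by_contra hcon
      apply hp
      simp only [Set.mem_iUnion, not_exists] at hcon
      have hiff : ∀ v, p ∈ t v ↔ f p = v := by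
        intro v
        have := hcon v
        rw [Set.mem_symmDiff] at this
        simp only [Set.mem_ofPred_eq] at this
        tauto
      have : {v | p.1 ∈ G v ⌊p.2 / (1 / 2) ^ N⌋} = {f p} := by
        ext v
        have h1 : p ∈ t v ↔ p.1 ∈ G v ⌊p.2 / (1 / 2) ^ N⌋ := by rw [hGt v]; rfl
        simp only [Set.mem_ofPred_eq, Set.mem_singleton_iff]
        rw [← h1, hiff v, eq_comm]
      simp only [hf']
      rw [this, hsel1]
    calc ρ {p : Eu d × ℝ | f p ≠ f' p.1 ⌊p.2 / (1 / 2) ^ N⌋} ≤ ρ (⋃ v, t v ∆ {p | f p = v}) :=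
          measure_mono hsub
      _ ≤ ∑ v, ρ (t v ∆ {p | f p = v}) := measure_iUnion_fintype_le _ _
      _ ≤ ∑ _v : V, c := Finset.sum_le_sum fun v _ => (htε v).le
      _ = Fintype.card V * c := by rw [Finset.sum_const, Finset.card_univ, nsmul_eq_mul]
      _ ≤ ε := by
          rw [hc]
          exact ENNReal.mul_div_le

end Crest.Agent.StreamLB
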