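import Crest.Agent.StreamLB.Machine
set_option autoImplicit false

open MeasureTheory ProbabilityTheory
open scoped ENNReal BigOperators

namespace Crest.Agent.StreamLB

open Crest.StreamLearn (Sphere sphereUniform)

variable {d : ℕ} {V : Type}

theorem measurable_yb_left {r' : ℕ} (δ : ℝ) (s : Eu d) :
    Measurable fun X : Fin r' → Eu d => yb δ X s := by
  unfold yb
  apply measurable_pi_lambda
  intro t
  apply Int.measurable_floor.comp
  have : Continuous fun X : Fin r' → Eu d => (inner ℝ (X t) s : ℝ) / δ := by fun_prop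
  exact this.measurable

theorem measurableSet_brun [Fintype V] (stp : ℕ → V → Eu d → ℤ → V) (h : StepMeas stp)
    {r : ℕ} (k : ℕ) (v v' : V) (δ : ℝ) (s : Eu d) :
    MeasurableSet {X : Fin r → Eu d | brun stp k v X (yb δ X s) = v'} := by
  have : {X : Fin r → Eu d | brun stp k v X (yb δ X s) = v'} =
      ⋃ y : Fin r → ℤ, ((fun X => yb δ X s) ⁻¹' {y}) ∩ {X | brun stp k v X y = v'} := by
    ext X
    simp only [Set.mem_ofPred_eq, Set.mem_iUnion, Set.mem_inter_iff, Set.mem_preimage,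
      Set.mem_singleton_iff]
    constructor
    · intro hx; exact ⟨_, rfl, hx⟩
    · rintro ⟨z, rfl, hx⟩; exact hx
  rw [this]
  exact MeasurableSet.iUnion fun y => ((measurable_yb_left δ s) (measurableSet_singleton y)).inter
    (brun_meas stp h _ k v y v')

theorem sum_brun_ind [Fintype V] (stp : ℕ → V → Eu d → ℤ → V) (h : StepMeas stp)
    (T : ℕ) (v0 : V) (δ : ℝ) (a : V → Eu d) (ε : ℝ) (s : Eu d) :
    ∑ v', (gamB d T) {X | brun stp 0 v0 X (yb δ X s) = v'} *
      Set.indicator {s | ‖s - a v'‖ ≤ ε} (fun _ => (1 : ℝ≥0∞)) s =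
    (gamB d T) {X | ‖s - a (brun stp 0 v0 X (yb δ X s))‖ ≤ ε} := by
  classical
  have e1 : {X : Fin T → Eu d | ‖s - a (brun stp 0 v0 X (yb δ X s))‖ ≤ ε} =
      ⋃ v' ∈ Finset.univ.filter (fun v' : V => ‖s - a v'‖ ≤ ε),
        {X | brun stp 0 v0 X (yb δ X s) = v'} := by
    ext X
    simp
  rw [e1, measure_biUnion_finset]
  · rw [Finset.sum_filter]
    apply Finset.sum_congr rfl
    intro v' _
    by_cases hv : ‖s - a v'‖ ≤ ε
    · rw [Set.indicator_of_mem (by exact hv), if_pos hv, mul_one]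
    · rw [Set.indicator_of_notMem (by exact hv), if_neg hv, mul_zero]
  · intro v' _ v'' _ hvv
    rw [Function.onFun, Set.disjoint_left]
    rintro X hX hX'
    exact hvv (hX.symm.trans hX')
  · intro v' _
    exact measurableSet_brun stp h 0 v0 v' δ s

theorem Wr_eq_prob [Fintype V] (stp : ℕ → V → Eu d → ℤ → V) (h : StepMeas stp)
    (T : ℕ) (v0 : V) (δ : ℝ) (a : V → Eu d) (ε : ℝ) (s : Eu d) :
    Wr stp δ a ε 0 T v0 s = (gamB d T) {X | ‖s - a (brun stp 0 v0 X (yb δ X s))‖ ≤ ε} := by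
  have h1 := Wr_block stp h δ a ε s T 0 0 v0
  rw [add_zero] at h1
  rw [h1, ← sum_brun_ind stp h T v0 δ a ε s]
  rfl

theorem Wr_pad [Fintype V] (stp : ℕ → V → Eu d → ℤ → V) (h : StepMeas stp)
    (T L : ℕ) (hTL : T ≤ L) (hid : ∀ k ≥ T, ∀ v x z, stp k v x z = v)
    (v0 : V) (δ : ℝ) (a : V → Eu d) (ε : ℝ) (s : Eu d) :
    Wr stp δ a ε 0 L v0 s = Wr stp δ a ε 0 T v0 s := by
  obtain ⟨r, rfl⟩ := Nat.exists_eq_add_of_le hTL
  have h1 := Wr_block stp h δ a ε s T 0 r v0
  have h2 := Wr_block stp h δ a ε s T 0 0 v0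
  rw [add_zero] at h2
  rw [h1, h2]
  apply Finset.sum_congr rfl
  intro v' _
  rw [Wr_idle stp δ a ε T hid s r (0 + T) v' (by omega)]
  rfl

theorem U_eq_Wr [Fintype V] (B N : ℕ) (stp : ℕ → V → Eu d → ℤ → V) (h : StepMeas stp)
    (δ : ℝ) (a : V → Eu d) (ε : ℝ) (s : Eu d) : ∀ (n : ℕ) (v : V), n ≤ N →
    U δ (fun n v (X : Fin B → Eu d) y => brun stp ((N - 1 - n) * B) v X y) a ε n v s =
      Wr stp δ a ε ((N - n) * B) (n * B) v s := by
  intro n
  induction n with
  | zero => intro v _; simp only [zero_mul]; rfl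
  | succ n ih =>
    intro v hn
    have e1 : (n + 1) * B = B + n * B := by ring
    rw [e1, Wr_block stp h δ a ε s B ((N - (n + 1)) * B) (n * B) v]
    have e2 : U δ (fun n v (X : Fin B → Eu d) y => brun stp ((N - 1 - n) * B) v X y) a ε (n + 1) v s =
      ∑ v', gk δ (fun (X : Fin B → Eu d) y => brun stp ((N - 1 - n) * B) v X y) v' s *
        U δ (fun n v (X : Fin B → Eu d) y => brun stp ((N - 1 - n) * B) v X y) a ε n v' s := rfl
    rw [e2]
    apply Finset.sum_congr rfl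
    intro v' _
    rw [ih v' (by omega)]
    have e3 : N - 1 - n = N - (n + 1) := by omega
    have e4 : (N - (n + 1)) * B + B = (N - n) * B := by
      have : N - n = (N - (n + 1)) + 1 := by omega
      rw [this]; ring
    rw [e4]
    unfold gk
    rw [e3]

/-- The lower bound for discretised machines. -/
theorem disc_bound [Fintype V] (hd : 2 ≤ d) {N T q e x w ℓ a' i0 J nδ : ℕ}
    (hdq : 3 * q + e + 1 = d) (hq1 : 1 ≤ q) (he : 1 ≤ e) (hTN : T ≤ N * q)
    (hcard : (Fintype.card V : ℝ≥0∞) ≤ tw w)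
    (hn1 : 2 * q + 1 + 8 * q + q * a' + x + 1 ≤ ℓ)
    (hn2 : 2 * q + 1 + 8 * q + q + 7 * q + 10 * d + q + 1 + x + 1 ≤ e * a')
    (hn3 : 2 * q + 1 + w ≤ x * q)
    (hJ : N * (ℓ + 1 + q) < q * (J + 1)) (hJδ : J ≤ nδ)
    (ε : ℝ) (hε : ε ≤ 3 * (1 / 2) ^ (J + i0)) (hi0 : 10 * d + q + 3 ≤ (2 * q + e) * i0)
    (hNJ : N * (J + 9) * 8 ≤ 2 ^ q)
    (stp : ℕ → V → Eu d → ℤ → V) (h : StepMeas stp)
    (hid : ∀ k ≥ T, ∀ v x z, stp k v x z = v) (v0 : V) (a : V → Eu d) :
    ∫⁻ s, (gamB d T) {X | ‖(s : Eu d) - a (brun stp 0 v0 X (yb ((1 / 2) ^ nδ) X (s : Eu d)))‖ ≤ ε}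
      ∂(sphereUniform d) ≤ 1 / 4 := by
  set δ : ℝ := (1 / 2) ^ nδ with hδ
  set Φ : ℕ → V → (Fin q → Eu d) → (Fin q → ℤ) → V :=
    fun n v X y => brun stp ((N - 1 - n) * q) v X y with hΦdef
  have hΦ : ∀ n v y v', MeasurableSet {X | Φ n v X y = v'} := fun n v y v' =>
    brun_meas stp h q _ v y v'
  have hU := induct (m := q) (a' := a') (κ := 2 * q + e) (e := e) (w := w) (x := x) (ℓ := ℓ)
    (i0 := i0) nδ q J (N * (ℓ + 1 + q) : ℤ) (by omega : 1 ≤ d) Φ hΦ a ε rfl hq1 he (by ring) hcard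
    (by omega) (by omega) hn3 (by exact_mod_cast hJ) hJδ hε (by exact_mod_cast hi0) N v0 (sigE d) 0 0
    (node_sigE hd q (2 * q + e) (by omega)) (by push_cast; linarith)
  have e1 : ∫⁻ s, (gamB d T) {X | ‖(s : Eu d) - a (brun stp 0 v0 X (yb δ X (s : Eu d)))‖ ≤ ε}
      ∂(sphereUniform d) = ∫⁻ s, U δ Φ a ε N v0 s ∂(sigE d) := by
    unfold sigE
    rw [lintegral_map (U_measurable δ Φ hΦ a ε N v0) measurable_subtype_coe]
    apply lintegral_congr
    intro s
    rw [hΦdef, U_eq_Wr q N stp h δ a ε s N v0 le_rfl, Nat.sub_self, zero_mul,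
      Wr_pad stp h T (N * q) hTN hid v0 δ a ε s, Wr_eq_prob stp h T v0 δ a ε s]
  rw [e1]
  refine hU.trans ?_
  have h8 : (N : ℝ≥0∞) * ((J + 9) * tw (-q)) ≤ tw (-3) := by
    have h9 : ((N * (J + 9) * 8 : ℕ) : ℝ≥0∞) ≤ tw q := by
      rw [tw_natCast]; exact_mod_cast hNJ
    calc (N : ℝ≥0∞) * ((J + 9) * tw (-q)) = (((N * (J + 9) * 8 : ℕ) : ℝ≥0∞)) * (tw (-3) * tw (-q)) := by
          have h10 : (8 : ℝ≥0∞) * tw (-3) = 1 := by
            have : (8 : ℝ≥0∞) = tw 3 := by rw [show (3 : ℤ) = ((3 : ℕ) : ℤ) by norm_num, tw_natCast]; norm_num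
            rw [this]; exact tw_mul_neg 3
          push_cast
          calc (N : ℝ≥0∞) * ((J + 9) * tw (-q)) = (N : ℝ≥0∞) * ((J + 9) * tw (-q)) * 1 := by rw [mul_one]
            _ = (N : ℝ≥0∞) * ((J + 9) * tw (-q)) * (8 * tw (-3)) := by rw [h10]
            _ = _ := by ring
      _ ≤ tw q * (tw (-3) * tw (-q)) := by gcongr
      _ = tw (-3) := by rw [← tw_add, ← tw_add]; congr 1; ring
  calc tw (-3) + (N : ℝ≥0∞) * ((J + 9) * tw (-q)) ≤ tw (-3) + tw (-3) := by gcongr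
    _ = tw (-2) := by
        rw [← two_mul, ← tw_one, ← tw_add]; norm_num
    _ = 1 / 4 := by
        rw [show (-2 : ℤ) = -((2 : ℕ) : ℤ) by norm_num, tw_neg, tw_natCast, one_div]
        norm_num

/-- run of a machine reading real measurements -/
def rrun {T : ℕ} (st : Fin T → V → Eu d → ℝ → V) (v : V) (xs : Fin T → Eu d) (y : Fin T → ℝ) : V :=
  (List.finRange T).foldl (fun v (t : Fin T) => st t v (xs t) (y t)) v

/-- The lower bound for machines. -/
theorem machine_bound [Fintype V] (hd : 2 ≤ d) {N T q e x w ℓ a' i0 J : ℕ}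
    (hdq : 3 * q + e + 1 = d) (hq1 : 1 ≤ q) (he : 1 ≤ e) (hTN : T ≤ N * q)
    (hcard : (Fintype.card V : ℝ≥0∞) ≤ tw w)
    (hn1 : 2 * q + 1 + 8 * q + q * a' + x + 1 ≤ ℓ)
    (hn2 : 2 * q + 1 + 8 * q + q + 7 * q + 10 * d + q + 1 + x + 1 ≤ e * a')
    (hn3 : 2 * q + 1 + w ≤ x * q)
    (hJ : N * (ℓ + 1 + q) < q * (J + 1))
    (ε : ℝ) (hε : ε ≤ 3 * (1 / 2) ^ (J + i0)) (hi0 : 10 * d + q + 3 ≤ (2 * q + e) * i0)
    (hNJ : N * (J + 9) * 8 ≤ 2 ^ q)
    (st : Fin T → V → Eu d → ℝ → V)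
    (hst : ∀ t v v', MeasurableSet {p : Eu d × ℝ | st t v p.1 p.2 = v'})
    (v0 : V) (a : V → Eu d) :
    ∫⁻ s, (gamB d T) {xs | ‖(s : Eu d) - a (rrun st v0 xs fun t => inner ℝ (xs t) (s : Eu d))‖ ≤ ε}
      ∂(sphereUniform d) ≤ 1 / 2 := by
  classical
  have hprob := sphereUniform_isProb d (by omega)
  have hne : Nonempty V := ⟨v0⟩
  set f : Eu d × ℝ → (Fin T → V → V) := fun p t v => st t v p.1 p.2 with hf
  have hfm : ∀ g, MeasurableSet {p | f p = g} := by
    intro g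
    have : {p | f p = g} = ⋂ t, ⋂ v, {p : Eu d × ℝ | st t v p.1 p.2 = g t v} := by
      ext p
      simp only [Set.mem_ofPred_eq, Set.mem_iInter, hf]
      constructor
      · intro h t v; rw [← h]
      · intro h; funext t v; exact h t v
    rw [this]
    exact MeasurableSet.iInter fun t => MeasurableSet.iInter fun v => hst t v _
  have hpm : Measurable fun p : Sphere d × Eu d => (p.2, (inner ℝ p.2 (p.1 : Eu d) : ℝ)) := by
    have : Continuous fun p : Sphere d × Eu d => (p.2, (inner ℝ p.2 (p.1 : Eu d) : ℝ)) := by fun_prop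
    exact this.measurable
  set ρ0 : Measure (Eu d × ℝ) := ((sphereUniform d).prod (stdGaussian (Eu d))).map
    (fun p : Sphere d × Eu d => (p.2, (inner ℝ p.2 (p.1 : Eu d) : ℝ))) with hρ0
  have hρfin : IsFiniteMeasure ρ0 := by
    rw [hρ0]; infer_instance
  set ε' : ℝ≥0∞ := (4 * (T + 1))⁻¹ with hε'
  have hε'0 : 0 < ε' := by
    rw [hε', ENNReal.inv_pos]
    exact ENNReal.mul_ne_top (by norm_num) (ENNReal.add_ne_top.mpr ⟨by simp, by simp⟩)
  obtain ⟨n, hnJ, f', hf'm, hf'⟩ := approx_discrete (V := Fin T → V → V) d f hfm ρ0 ε' hε'0 J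
  set δ : ℝ := (1 / 2) ^ n with hδ
  set stp : ℕ → V → Eu d → ℤ → V := fun k v x z => if h : k < T then f' x z ⟨k, h⟩ v else v with hstp
  have hSM : StepMeas stp := by
    intro k v z v'
    by_cases hk : k < T
    · have : {x | stp k v x z = v'} = ⋃ g ∈ {g : Fin T → V → V | g ⟨k, hk⟩ v = v'},
          {x | f' x z = g} := by
        ext x
        simp [hstp, hk]
      rw [this]
      exact MeasurableSet.biUnion (Set.to_countable _) fun g _ => hf'm z g
    · by_cases hv : v = v'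
      · simp [hstp, hk, hv]
      · simp [hstp, hk, hv]
  have hid : ∀ k ≥ T, ∀ v x z, stp k v x z = v := by
    intro k hk v x z
    simp [hstp, not_lt.mpr hk]
  -- mismatch sets
  set Mis : Set (Eu d × ℝ) := {p | f p ≠ f' p.1 ⌊p.2 / δ⌋} with hMis
  have hMism : MeasurableSet Mis := by
    have : Mis = (⋃ g : Fin T → V → V, {p | f p = g} ∩ lev d n (fun z => {x | f' x z = g}))ᶜ := by
      ext p
      simp only [hMis, Set.mem_ofPred_eq, Set.mem_compl_iff, Set.mem_iUnion, Set.mem_inter_iff, lev,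
        not_exists, not_and]
      constructor
      · rintro h g rfl h2
        exact h h2.symm
      · intro h h2
        exact h _ rfl h2.symm
    rw [this]
    refine (MeasurableSet.iUnion fun g => ?_).compl
    exact (hfm g).inter (measurableSet_lev d n _ fun z => hf'm z g)
  have hmis1 : ∀ (s : Sphere d) (t : Fin T),
      (gamB d T) {xs | (xs t, (inner ℝ (xs t) (s : Eu d) : ℝ)) ∈ Mis} =
        (stdGaussian (Eu d)) {x | (x, (inner ℝ x (s : Eu d) : ℝ)) ∈ Mis} := by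
    intro s t
    have hm : Measurable fun x : Eu d => (x, (inner ℝ x (s : Eu d) : ℝ)) := by
      have : Continuous fun x : Eu d => (x, (inner ℝ x (s : Eu d) : ℝ)) := by fun_prop
      exact this.measurable
    have hmp := measurePreserving_eval (fun _ : Fin T => stdGaussian (Eu d)) t
    exact hmp.measure_preimage (hm hMism).nullMeasurableSet
  have hmis2 : ∫⁻ s, (stdGaussian (Eu d)) {x | (x, (inner ℝ x (s : Eu d) : ℝ)) ∈ Mis}
      ∂(sphereUniform d) ≤ ε' := by
    refine le_trans (le_of_eq ?_) hf'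
    rw [hρ0, Measure.map_apply hpm hMism, Measure.prod_apply (hpm hMism)]
    rfl
  have hpoint : ∀ s : Sphere d, (gamB d T) {xs | ‖(s : Eu d) - a (rrun st v0 xs fun t =>
      inner ℝ (xs t) (s : Eu d))‖ ≤ ε} ≤
      (gamB d T) {X | ‖(s : Eu d) - a (brun stp 0 v0 X (yb δ X (s : Eu d)))‖ ≤ ε} +
        T * (stdGaussian (Eu d)) {x | (x, (inner ℝ x (s : Eu d) : ℝ)) ∈ Mis} := by
    intro s
    have hsub : {xs : Fin T → Eu d | ‖(s : Eu d) - a (rrun st v0 xs fun t =>
        inner ℝ (xs t) (s : Eu d))‖ ≤ ε} ⊆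
        {X | ‖(s : Eu d) - a (brun stp 0 v0 X (yb δ X (s : Eu d)))‖ ≤ ε} ∪
          ⋃ t, {xs | (xs t, (inner ℝ (xs t) (s : Eu d) : ℝ)) ∈ Mis} := by
      intro xs hxs
      by_cases hm : ∃ t, (xs t, (inner ℝ (xs t) (s : Eu d) : ℝ)) ∈ Mis
      · right; simpa using hm
      · left
        push Not at hm
        have heq : rrun st v0 xs (fun t => inner ℝ (xs t) (s : Eu d)) =
            brun stp 0 v0 xs (yb δ xs (s : Eu d)) := by
          unfold rrun brun
          apply List.foldl_ext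
          intro v t _
          have h1 : f (xs t, inner ℝ (xs t) (s : Eu d)) =
              f' (xs t) ⌊(inner ℝ (xs t) (s : Eu d) : ℝ) / δ⌋ := by
            by_contra hc
            exact hm t hc
          have h2 : st t v (xs t) (inner ℝ (xs t) (s : Eu d)) =
              f' (xs t) ⌊(inner ℝ (xs t) (s : Eu d) : ℝ) / δ⌋ t v := by
            rw [← h1]
          rw [h2]
          have h3 : (0 + t.val) < T := by simp
          simp only [hstp, h3, dif_pos, yb]
          congr 1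
          exact Fin.ext (by simp)
        simp only [Set.mem_ofPred_eq] at hxs ⊢
        rw [← heq]; exact hxs
    calc _ ≤ (gamB d T) ({X | ‖(s : Eu d) - a (brun stp 0 v0 X (yb δ X (s : Eu d)))‖ ≤ ε} ∪
          ⋃ t, {xs | (xs t, (inner ℝ (xs t) (s : Eu d) : ℝ)) ∈ Mis}) := measure_mono hsub
      _ ≤ (gamB d T) {X | ‖(s : Eu d) - a (brun stp 0 v0 X (yb δ X (s : Eu d)))‖ ≤ ε} +
          ∑ t, (gamB d T) {xs | (xs t, (inner ℝ (xs t) (s : Eu d) : ℝ)) ∈ Mis} := by
          refine (measure_union_le _ _).trans ?_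
          gcongr
          exact measure_iUnion_fintype_le _ _
      _ = _ := by
          simp_rw [hmis1]
          rw [Finset.sum_const, Finset.card_univ, Fintype.card_fin, nsmul_eq_mul]
  have hdisc := disc_bound (nδ := n) hd hdq hq1 he hTN hcard hn1 hn2 hn3 hJ hnJ ε hε hi0 hNJ stp hSM hid
    v0 a
  have hmeas1 : Measurable fun s : Sphere d =>
      (stdGaussian (Eu d)) {x | (x, (inner ℝ x (s : Eu d) : ℝ)) ∈ Mis} :=
    measurable_measure_prodMk_left (hpm hMism)
  have hmeas2 : Measurable fun s : Sphere d =>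
      (T : ℝ≥0∞) * (stdGaussian (Eu d)) {x | (x, (inner ℝ x (s : Eu d) : ℝ)) ∈ Mis} :=
    hmeas1.const_mul _
  calc _ ≤ ∫⁻ s, ((gamB d T) {X | ‖(s : Eu d) - a (brun stp 0 v0 X (yb δ X (s : Eu d)))‖ ≤ ε} +
        T * (stdGaussian (Eu d)) {x | (x, (inner ℝ x (s : Eu d) : ℝ)) ∈ Mis}) ∂(sphereUniform d) :=
        lintegral_mono hpoint
    _ = ∫⁻ s, (gamB d T) {X | ‖(s : Eu d) - a (brun stp 0 v0 X (yb δ X (s : Eu d)))‖ ≤ ε}
          ∂(sphereUniform d) +
        T * ∫⁻ s, (stdGaussian (Eu d)) {x | (x, (inner ℝ x (s : Eu d) : ℝ)) ∈ Mis}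
          ∂(sphereUniform d) := by
        rw [lintegral_add_right _ hmeas2, lintegral_const_mul _ hmeas1]
    _ ≤ 1 / 4 + T * ε' := by gcongr
    _ ≤ 1 / 4 + 1 / 4 := by
        gcongr
        rw [hε', one_div, ENNReal.mul_inv (Or.inl (by norm_num)) (Or.inl (by norm_num)),
          mul_left_comm]
        calc (4 : ℝ≥0∞)⁻¹ * (T * (T + 1 : ℝ≥0∞)⁻¹) ≤ 4⁻¹ * 1 := by
              gcongr
              rw [← div_eq_mul_inv]
              apply ENNReal.div_le_of_le_mul
              rw [one_mul]; exact le_self_add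
          _ = 4⁻¹ := mul_one _
    _ = 1 / 2 := by
        rw [← two_mul, one_div, one_div]
        have : (4 : ℝ≥0∞) = 2 * 2 := by norm_num
        rw [this, ENNReal.mul_inv (Or.inl (by norm_num)) (Or.inl (by norm_num)), ← mul_assoc,
          ENNReal.mul_inv_cancel (by norm_num) (by norm_num), one_mul]

end Crest.Agent.StreamLB
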