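import Crest.Agent.StreamLB.Lattice
set_option autoImplicit false

open MeasureTheory ProbabilityTheory
open scoped ENNReal BigOperators

namespace Crest.Agent.StreamLB

theorem floor_eq_of_floor_mul_eq {x x' : ℝ} {p : ℕ} (hp : 0 < p) (h : ⌊x * p⌋ = ⌊x' * p⌋) :
    ⌊x⌋ = ⌊x'⌋ := by
  have key : ∀ y y' : ℝ, ⌊y * p⌋ = ⌊y' * p⌋ → ⌊y⌋ ≤ ⌊y'⌋ := by
    intro y y' h
    have hp' : (0 : ℝ) < p := by exact_mod_cast hp
    have h1 : ((⌊y⌋ * p : ℤ) : ℝ) ≤ y * p := by
      push_cast
      have := Int.floor_le y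
      nlinarith
    have h2 : ⌊y⌋ * p ≤ ⌊y * p⌋ := Int.le_floor.mpr h1
    rw [h] at h2
    have h3 : ((⌊y⌋ * p : ℤ) : ℝ) ≤ y' * p := Int.le_floor.mp h2
    push_cast at h3
    have h4 : (⌊y⌋ : ℝ) ≤ y' := le_of_mul_le_mul_right h3 hp'
    exact Int.le_floor.mpr h4
  exact le_antisymm (key x x' h) (key x' x h.symm)

theorem cid_zero (d : ℕ) (s : Eu d) : cid d 0 s = 0 := by simp [cid]

theorem cid_nested {d i i' : ℕ} (h : i ≤ i') {s s' : Eu d} (hc : cid d i' s = cid d i' s') :
    cid d i s = cid d i s' := by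
  by_cases hi : i = 0
  · simp [cid, hi]
  · have hi' : i' ≠ 0 := by omega
    simp only [cid, hi, hi', if_false] at hc ⊢
    funext a
    have ha := congrFun hc a
    obtain ⟨l, rfl⟩ := Nat.exists_eq_add_of_le h
    have e : ∀ x : ℝ, x * (2 ^ (i + l + 3) * Real.sqrt d) = (x * (2 ^ (i + 3) * Real.sqrt d)) * ((2 ^ l : ℕ) : ℝ) := by
      intro x; push_cast; ring
    rw [e, e] at ha
    exact floor_eq_of_floor_mul_eq (by positivity) ha

theorem measurable_cid (d i : ℕ) : Measurable (cid d i) := by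
  unfold cid
  by_cases hi : i = 0
  · simp only [hi, if_true]; exact measurable_const
  · simp only [hi, if_false]
    apply measurable_pi_lambda
    intro a
    apply Int.measurable_floor.comp
    exact (by fun_prop : Measurable fun s : Eu d => s a * (2 ^ (i + 3) * Real.sqrt d))

theorem measurableSet_cid (d i : ℕ) (z : Fin d → ℤ) : MeasurableSet {s : Eu d | cid d i s = z} :=
  measurable_cid d i (measurableSet_singleton z)

theorem abs_sub_lt_one_of_floor_eq {x y : ℝ} (h : ⌊x⌋ = ⌊y⌋) : |x - y| < 1 := by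
  exact Int.abs_sub_lt_one_of_floor_eq_floor h

theorem cid_diam {d i : ℕ} (hd : 1 ≤ d) {s s' : Eu d} (hs : ‖s‖ = 1) (hs' : ‖s'‖ = 1)
    (hc : cid d i s = cid d i s') : ‖s - s'‖ ≤ 2 * (1 / 2) ^ i := by
  by_cases hi : i = 0
  · subst hi
    calc ‖s - s'‖ ≤ ‖s‖ + ‖s'‖ := norm_sub_le _ _
      _ = 2 * (1 / 2) ^ 0 := by rw [hs, hs']; norm_num
  · have hd0 : (0 : ℝ) < Real.sqrt d := Real.sqrt_pos.mpr (by exact_mod_cast hd)
    have hlam : (0 : ℝ) < 2 ^ (i + 3) * Real.sqrt d := by positivity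
    unfold cid at hc
    simp only [hi, if_false] at hc
    have hcoord : ∀ a, (s a - s' a) ^ 2 ≤ (1 / (2 ^ (i + 3) * Real.sqrt d)) ^ 2 := by
      intro a
      have ha := abs_sub_lt_one_of_floor_eq (congrFun hc a)
      rw [← sub_mul, abs_mul, abs_of_pos hlam] at ha
      have h1 : |s a - s' a| ≤ 1 / (2 ^ (i + 3) * Real.sqrt d) := by
        rw [le_div_iff₀ hlam]; exact ha.le
      rw [← sq_abs]
      exact pow_le_pow_left₀ (abs_nonneg _) h1 2
    have hnorm : ‖s - s'‖ ^ 2 ≤ (2 * (1 / 2) ^ i) ^ 2 := by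
      rw [EuclideanSpace.norm_sq_eq]
      calc ∑ a, ‖(s - s') a‖ ^ 2 ≤ ∑ a : Fin d, (1 / (2 ^ (i + 3) * Real.sqrt d)) ^ 2 := by
            apply Finset.sum_le_sum
            intro a _
            rw [Real.norm_eq_abs, sq_abs]
            exact hcoord a
        _ = d * (1 / (2 ^ (i + 3) * Real.sqrt d)) ^ 2 := by
            rw [Finset.sum_const, Finset.card_univ, Fintype.card_fin, nsmul_eq_mul]
        _ = (1 / 2 ^ (i + 3)) ^ 2 := by
            have hsq : Real.sqrt d ^ 2 = d := Real.sq_sqrt (by positivity)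
            have hd0' : (d : ℝ) ≠ 0 := by positivity
            rw [div_pow, div_pow, mul_pow, hsq]
            field_simp
        _ ≤ (2 * (1 / 2) ^ i) ^ 2 := by
            apply pow_le_pow_left₀ (by positivity)
            rw [one_div_pow, pow_add]
            rw [div_le_iff₀ (by positivity)]
            have : (0:ℝ) < 2 ^ i := by positivity
            field_simp
            norm_num
    exact (pow_le_pow_iff_left₀ (norm_nonneg _) (by positivity) (by norm_num)).mp hnorm

/-- the cells meeting a ball -/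
theorem cells_of_ball {d i : ℕ} (a : Eu d) :
    ∃ Z : Finset (Fin d → ℤ), Z.card ≤ 2 ^ (10 * d) ∧
      ∀ s : Eu d, ‖s - a‖ ≤ 3 * (1 / 2) ^ i → cid d i s ∈ Z := by
  classical
  by_cases hi : i = 0
  · refine ⟨{0}, ?_, ?_⟩
    · simp only [Finset.card_singleton]; exact Nat.one_le_two_pow
    · intro s _; simp [cid, hi]
  · set lam : ℝ := 2 ^ (i + 3) * Real.sqrt d with hlam
    obtain ⟨hfin, hcard⟩ := lattice_count d (fun b => a b * lam) 34 (by norm_num)
    refine ⟨hfin.toFinset, ?_, ?_⟩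
    · rw [← Set.ncard_eq_toFinset_card _ hfin]
      have : ((({z : Fin d → ℤ | ∑ b, ((z b : ℝ) - a b * lam) ^ 2 ≤ d * 34 ^ 2}).ncard : ℕ) : ℝ) ≤
          ((2 ^ (10 * d) : ℕ) : ℝ) := by
        refine hcard.trans ?_
        push_cast
        rw [pow_mul]
        apply pow_le_pow_left₀ (by norm_num)
        norm_num
      exact_mod_cast this
    · intro s hs
      rw [Set.Finite.mem_toFinset]
      simp only [Set.mem_ofPred_eq, cid, hi, if_false]
      have hterm : ∀ b, ((⌊s b * lam⌋ : ℝ) - a b * lam) ^ 2 ≤ 2 * ((s b - a b) ^ 2 * lam ^ 2) + 2 := by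
        intro b
        have h1 := Int.floor_le (s b * lam)
        have h2 := Int.lt_floor_add_one (s b * lam)
        set f : ℝ := (⌊s b * lam⌋ : ℝ)
        have e : f - a b * lam = (s b - a b) * lam - (s b * lam - f) := by ring
        rw [e]
        have h3 : 0 ≤ s b * lam - f := by linarith
        have h4 : s b * lam - f ≤ 1 := by linarith
        nlinarith [sq_nonneg ((s b - a b) * lam + (s b * lam - f))]
      calc ∑ b, ((⌊s b * lam⌋ : ℝ) - a b * lam) ^ 2
          ≤ ∑ b, (2 * ((s b - a b) ^ 2 * lam ^ 2) + 2) := Finset.sum_le_sum fun b _ => hterm b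
        _ = 2 * lam ^ 2 * ‖s - a‖ ^ 2 + 2 * d := by
            rw [EuclideanSpace.norm_sq_eq, Finset.sum_add_distrib, Finset.mul_sum]
            simp only [Finset.sum_const, Finset.card_univ, Fintype.card_fin, nsmul_eq_mul,
              Real.norm_eq_abs, sq_abs]
            congr 1
            · apply Finset.sum_congr rfl
              intro b _
              simp only [PiLp.sub_apply]; ring
            · ring
        _ ≤ 2 * lam ^ 2 * (3 * (1 / 2) ^ i) ^ 2 + 2 * d := by gcongr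
        _ = d * (2 * 64 * 9 + 2) := by
            have hsq : Real.sqrt d ^ 2 = d := Real.sq_sqrt (by positivity)
            rw [hlam, mul_pow, hsq, mul_pow, pow_add, mul_pow, ← pow_mul, ← pow_mul, one_div_pow]
            have : (0:ℝ) < 2 ^ (i * 2) := by positivity
            have e2 : ((2:ℝ) ^ i) ^ 2 = 2 ^ (i * 2) := by rw [← pow_mul]
            field_simp
            rw [e2]
            ring
        _ ≤ d * 34 ^ 2 := by gcongr; norm_num

theorem ball_bound {d i : ℕ} (μ : Measure (Eu d)) (K : ℝ≥0∞)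
    (hK : ∀ z, μ {s | cid d i s = z} ≤ K) (a : Eu d) :
    μ {s | ‖s - a‖ ≤ 3 * (1 / 2) ^ i} ≤ 2 ^ (10 * d) * K := by
  classical
  obtain ⟨Z, hZ, hcov⟩ := cells_of_ball (i := i) a
  calc μ {s | ‖s - a‖ ≤ 3 * (1 / 2) ^ i} ≤ μ (⋃ z ∈ Z, {s | cid d i s = z}) := by
        apply measure_mono
        intro s hs
        simp only [Set.mem_iUnion, Set.mem_ofPred_eq, exists_prop, exists_eq_right']
        exact hcov s hs
    _ ≤ ∑ z ∈ Z, μ {s | cid d i s = z} := measure_biUnion_finset_le _ _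
    _ ≤ ∑ z ∈ Z, K := Finset.sum_le_sum fun z _ => hK z
    _ = Z.card * K := by rw [Finset.sum_const, nsmul_eq_mul]
    _ ≤ 2 ^ (10 * d) * K := by
        gcongr
        exact_mod_cast hZ

theorem tube_bound {d i j k : ℕ} (hij : j ≤ i) (μ : Measure (Eu d)) (K : ℝ≥0∞)
    (hK : ∀ z, μ {s | cid d i s = z} ≤ K) (sQ s1 : Eu d)
    (hQ : ∀ᵐ s ∂μ, ‖s - sQ‖ ≤ 2 * (1 / 2) ^ j) (W : Submodule ℝ (Eu d))
    (hW : Module.finrank ℝ W ≤ k) :
    μ {s | ‖Wᗮ.starProjection (s - s1)‖ ≤ (1 / 2) ^ i} ≤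
      2 ^ ((7 + (i - j)) * k) * (2 ^ (10 * d) * K) := by
  classical
  set w := Module.finrank ℝ W with hw
  set b := stdOrthonormalBasis ℝ W with hb
  set lam : ℝ := Real.sqrt w * 2 ^ i with hlam
  set zf : Eu d → Fin w → ℤ := fun s l => ⌊(inner ℝ (b l : Eu d) s : ℝ) * lam⌋ with hzf
  obtain ⟨hfin, hcard⟩ := lattice_count w (fun l => (inner ℝ (b l : Eu d) sQ : ℝ) * lam)
    (4 * 2 ^ (i - j)) (by positivity)
  set Z := hfin.toFinset with hZ
  have hbess : ∀ v : Eu d, ∑ l, (inner ℝ (b l : Eu d) v : ℝ) ^ 2 = ‖W.starProjection v‖ ^ 2 := by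
    intro v
    have h1 := b.sum_sq_norm_inner_right (W.orthogonalProjectionOnto v)
    have h2 : ‖W.starProjection v‖ = ‖W.orthogonalProjectionOnto v‖ := rfl
    rw [h2, ← h1]
    apply Finset.sum_congr rfl
    intro l _
    rw [Real.norm_eq_abs, sq_abs]
    congr 1
    simp
  -- covering
  have hcov : ∀ s : Eu d, ‖s - sQ‖ ≤ 2 * (1 / 2) ^ j → zf s ∈ Z := by
    intro s hs
    rw [hZ, Set.Finite.mem_toFinset]
    simp only [Set.mem_ofPred_eq]
    have hterm : ∀ l, ((zf s l : ℝ) - (inner ℝ (b l : Eu d) sQ : ℝ) * lam) ^ 2 ≤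
        2 * ((inner ℝ (b l : Eu d) (s - sQ) : ℝ) ^ 2 * lam ^ 2) + 2 := by
      intro l
      simp only [hzf]
      rw [inner_sub_right]
      set x : ℝ := inner ℝ (b l : Eu d) s
      set x' : ℝ := inner ℝ (b l : Eu d) sQ
      have h1 := Int.floor_le (x * lam)
      have h2 := Int.lt_floor_add_one (x * lam)
      set f : ℝ := (⌊x * lam⌋ : ℝ)
      have e : f - x' * lam = (x - x') * lam - (x * lam - f) := by ring
      rw [e]
      have h3 : 0 ≤ x * lam - f := by linarith
      have h4 : x * lam - f ≤ 1 := by linarith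
      nlinarith [sq_nonneg ((x - x') * lam + (x * lam - f))]
    calc ∑ l, ((zf s l : ℝ) - (inner ℝ (b l : Eu d) sQ : ℝ) * lam) ^ 2
        ≤ ∑ l, (2 * ((inner ℝ (b l : Eu d) (s - sQ) : ℝ) ^ 2 * lam ^ 2) + 2) :=
          Finset.sum_le_sum fun l _ => hterm l
      _ = 2 * lam ^ 2 * (∑ l, (inner ℝ (b l : Eu d) (s - sQ) : ℝ) ^ 2) + 2 * w := by
          rw [Finset.sum_add_distrib, Finset.mul_sum]
          simp only [Finset.sum_const, Finset.card_univ, Fintype.card_fin, nsmul_eq_mul]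
          congr 1
          · apply Finset.sum_congr rfl
            intro l _
            ring
          · ring
      _ ≤ 2 * lam ^ 2 * (2 * (1 / 2) ^ j) ^ 2 + 2 * w := by
          gcongr
          rw [hbess]
          apply pow_le_pow_left₀ (norm_nonneg _)
          exact (Submodule.norm_starProjection_apply_le W _).trans hs
      _ = w * (8 * (2 ^ (i - j)) ^ 2 + 2) := by
          have hsq : Real.sqrt w ^ 2 = w := Real.sq_sqrt (by positivity)
          obtain ⟨l, rfl⟩ := Nat.exists_eq_add_of_le hij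
          rw [hlam, mul_pow, hsq, mul_pow, Nat.add_sub_cancel_left, one_div_pow, pow_add]
          have : (0:ℝ) < 2 ^ j := by positivity
          field_simp
          ring
      _ ≤ w * (4 * 2 ^ (i - j)) ^ 2 := by
          gcongr
          have : (1:ℝ) ≤ 2 ^ (i - j) := one_le_pow₀ (by norm_num)
          nlinarith
  have hZcard : (Z.card : ℝ≥0∞) ≤ 2 ^ ((7 + (i - j)) * k) := by
    have h1 : Z.card ≤ 2 ^ ((7 + (i - j)) * w) := by
      rw [hZ, ← Set.ncard_eq_toFinset_card _ hfin]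
      have : (((({z : Fin w → ℤ | ∑ l, ((z l : ℝ) - (inner ℝ (b l : Eu d) sQ : ℝ) * lam) ^ 2 ≤
          w * (4 * 2 ^ (i - j)) ^ 2}).ncard : ℕ)) : ℝ) ≤ ((2 ^ ((7 + (i - j)) * w) : ℕ) : ℝ) := by
        refine hcard.trans ?_
        push_cast
        rw [pow_mul]
        apply pow_le_pow_left₀ (by positivity)
        rw [pow_add]
        have : (1:ℝ) ≤ 2 ^ (i - j) := one_le_pow₀ (by norm_num)
        nlinarith
      exact_mod_cast this
    calc (Z.card : ℝ≥0∞) ≤ ((2 ^ ((7 + (i - j)) * w) : ℕ) : ℝ≥0∞) := by exact_mod_cast h1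
      _ ≤ ((2 ^ ((7 + (i - j)) * k) : ℕ) : ℝ≥0∞) := by
          exact_mod_cast Nat.pow_le_pow_right (by norm_num) (Nat.mul_le_mul_left _ hW)
      _ = 2 ^ ((7 + (i - j)) * k) := by push_cast; rfl
  set T := {s : Eu d | ‖Wᗮ.starProjection (s - s1)‖ ≤ (1 / 2) ^ i} with hT
  -- each piece lies in a ball
  have hpiece : ∀ z, μ {s | s ∈ T ∧ zf s = z} ≤ 2 ^ (10 * d) * K := by
    intro z
    by_cases hne : ∃ s0, s0 ∈ T ∧ zf s0 = z
    · obtain ⟨s0, hs0, hz0⟩ := hne
      refine le_trans (measure_mono ?_) (ball_bound (i := i) μ K hK s0)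
      rintro s ⟨hs, hz⟩
      simp only [Set.mem_ofPred_eq]
      have hperp : ‖Wᗮ.starProjection (s - s0)‖ ≤ 2 * (1 / 2) ^ i := by
        have e : s - s0 = (s - s1) - (s0 - s1) := by abel
        rw [e, map_sub]
        calc _ ≤ ‖Wᗮ.starProjection (s - s1)‖ + ‖Wᗮ.starProjection (s0 - s1)‖ := norm_sub_le _ _
          _ ≤ (1 / 2) ^ i + (1 / 2) ^ i := add_le_add hs hs0
          _ = 2 * (1 / 2) ^ i := by ring
      have hpar : ‖W.starProjection (s - s0)‖ ^ 2 ≤ ((1 / 2) ^ i) ^ 2 := by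
        rw [← hbess]
        by_cases hw0 : w = 0
        · have : ∑ l : Fin w, (inner ℝ (b l : Eu d) (s - s0) : ℝ) ^ 2 = 0 := by
            apply Finset.sum_eq_zero
            intro l _
            exact absurd l.2 (by omega)
          rw [this]; positivity
        · have hw1 : (0 : ℝ) < w := by exact_mod_cast Nat.pos_of_ne_zero hw0
          have hsw : 0 < Real.sqrt w := Real.sqrt_pos.mpr hw1
          have hlam0 : 0 < lam := by positivity
          have hl : ∀ l, (inner ℝ (b l : Eu d) (s - s0) : ℝ) ^ 2 ≤ (1 / lam) ^ 2 := by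
            intro l
            have h1 : zf s l = zf s0 l := by rw [hz, hz0]
            have h2 := abs_sub_lt_one_of_floor_eq h1
            rw [← sub_mul, ← inner_sub_right, abs_mul, abs_of_pos hlam0] at h2
            rw [← sq_abs]
            apply pow_le_pow_left₀ (abs_nonneg _)
            rw [le_div_iff₀ hlam0]; exact h2.le
          calc ∑ l, (inner ℝ (b l : Eu d) (s - s0) : ℝ) ^ 2 ≤ ∑ l : Fin w, (1 / lam) ^ 2 :=
                Finset.sum_le_sum fun l _ => hl l
            _ = w * (1 / lam) ^ 2 := by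
                rw [Finset.sum_const, Finset.card_univ, Fintype.card_fin, nsmul_eq_mul]
            _ = ((1 / 2) ^ i) ^ 2 := by
                have hsq : Real.sqrt w ^ 2 = w := Real.sq_sqrt (by positivity)
                rw [hlam, div_pow, mul_pow, hsq, one_div_pow]
                field_simp
      have hpar' : ‖W.starProjection (s - s0)‖ ≤ (1 / 2) ^ i :=
        (pow_le_pow_iff_left₀ (norm_nonneg _) (by positivity) (by norm_num)).mp hpar
      have hdec : s - s0 = W.starProjection (s - s0) + Wᗮ.starProjection (s - s0) :=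
        (W.starProjection_add_starProjection_orthogonal (s - s0)).symm
      calc ‖s - s0‖ = ‖W.starProjection (s - s0) + Wᗮ.starProjection (s - s0)‖ := by rw [← hdec]
        _ ≤ ‖W.starProjection (s - s0)‖ + ‖Wᗮ.starProjection (s - s0)‖ := norm_add_le _ _
        _ ≤ (1 / 2) ^ i + 2 * (1 / 2) ^ i := add_le_add hpar' hperp
        _ = 3 * (1 / 2) ^ i := by ring
    · have : {s | s ∈ T ∧ zf s = z} = ∅ := by
        ext s; simp only [Set.mem_ofPred_eq, Set.mem_empty_iff_false, iff_false]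
        intro h; exact hne ⟨s, h⟩
      rw [this]; simp
  calc μ T ≤ μ (⋃ z ∈ Z, {s | s ∈ T ∧ zf s = z}) := by
        apply measure_mono_ae
        filter_upwards [hQ] with s hs hsT
        refine Set.mem_iUnion₂.mpr ⟨zf s, hcov s hs, hsT, rfl⟩
    _ ≤ ∑ z ∈ Z, μ {s | s ∈ T ∧ zf s = z} := measure_biUnion_finset_le _ _
    _ ≤ ∑ z ∈ Z, 2 ^ (10 * d) * K := Finset.sum_le_sum fun z _ => hpiece z
    _ = Z.card * (2 ^ (10 * d) * K) := by rw [Finset.sum_const, nsmul_eq_mul]
    _ ≤ 2 ^ ((7 + (i - j)) * k) * (2 ^ (10 * d) * K) := by gcongr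

end Crest.Agent.StreamLB
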