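import Mathlib
import Crest.Prelude.Def_StreamLearn

/-!
Common definitions for the memory-sample lower bound (S0499).
-/
set_option autoImplicit false

open MeasureTheory ProbabilityTheory
open scoped ENNReal

namespace Crest.Agent.StreamLB

/-- Euclidean `d`-space. -/
abbrev Eu (d : ℕ) := EuclideanSpace ℝ (Fin d)

/-- the standard Gaussian law -/
noncomputable abbrev gam (d : ℕ) : Measure (Eu d) := stdGaussian (Eu d)

/-- product Gaussian law of a block of `B` samples -/
noncomputable abbrev gamB (d B : ℕ) : Measure (Fin B → Eu d) := Measure.pi (fun _ : Fin B => stdGaussian (Eu d))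

/-- cell index at level `i` -/
noncomputable def cid (d i : ℕ) (s : Eu d) : Fin d → ℤ :=
  if i = 0 then 0 else fun a => ⌊s a * (2 ^ (i + 3) * Real.sqrt d)⌋

/-- discretised measurements -/
noncomputable def yb {d B : ℕ} (δ : ℝ) (X : Fin B → Eu d) (s : Eu d) : Fin B → ℤ :=
  fun t => ⌊(inner ℝ (X t) s : ℝ) / δ⌋

end Crest.Agent.StreamLB
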