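import Crest.Agent.StreamLB.Defs
set_option autoImplicit false

open MeasureTheory ProbabilityTheory
open scoped ENNReal BigOperators

namespace Crest.Agent.StreamLB

theorem gauss_interval (ρ c δ : ℝ) (hρ : 0 < ρ) :
    gaussianReal 0 1 {z | |z * ρ + c| < δ} ≤ ENNReal.ofReal δ / ENNReal.ofReal ρ := by
  have hpi : (2 : ℝ) ≤ Real.sqrt (2 * Real.pi) := by
    rw [Real.le_sqrt (by norm_num) (by positivity)]
    nlinarith [Real.pi_gt_three]
  have hset : {z : ℝ | |z * ρ + c| < δ} = Set.Ioo ((-δ - c) / ρ) ((δ - c) / ρ) := by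
    ext z
    simp only [Set.mem_ofPred_eq, Set.mem_Ioo, abs_lt, div_lt_iff₀ hρ, lt_div_iff₀ hρ]
    constructor
    · rintro ⟨h1, h2⟩; constructor <;> linarith
    · rintro ⟨h1, h2⟩; constructor <;> linarith
  rw [hset, gaussianReal_apply 0 (by norm_num)]
  calc ∫⁻ x in Set.Ioo ((-δ - c) / ρ) ((δ - c) / ρ), gaussianPDF 0 1 x
      ≤ ∫⁻ _ in Set.Ioo ((-δ - c) / ρ) ((δ - c) / ρ), ENNReal.ofReal (1 / 2) := by
        apply lintegral_mono
        intro x
        simp only [gaussianPDF]
        apply ENNReal.ofReal_le_ofReal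
        rw [gaussianPDFReal_def]
        simp only [NNReal.coe_one, mul_one, sub_zero]
        have h1 : Real.exp (-x ^ 2 / 2) ≤ 1 := by
          rw [Real.exp_le_one_iff]; nlinarith [sq_nonneg x]
        have h2 : (Real.sqrt (2 * Real.pi))⁻¹ ≤ 1 / 2 := by
          rw [one_div]; exact inv_anti₀ (by norm_num) hpi
        calc (Real.sqrt (2 * Real.pi))⁻¹ * Real.exp (-x ^ 2 / 2) ≤ (1 / 2) * 1 := by
              apply mul_le_mul h2 h1 (Real.exp_pos _).le (by norm_num)
          _ = 1 / 2 := by norm_num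
    _ = ENNReal.ofReal (1 / 2) * ENNReal.ofReal ((δ - c) / ρ - (-δ - c) / ρ) := by
        rw [lintegral_const, Measure.restrict_apply_univ, Real.volume_Ioo]
    _ = ENNReal.ofReal δ / ENNReal.ofReal ρ := by
        rw [← ENNReal.ofReal_mul (by norm_num), ← ENNReal.ofReal_div_of_pos hρ]
        congr 1
        field_simp
        ring

theorem gaussian_slab {d : ℕ} (A : Set (Eu d)) (hA : MeasurableSet A) (e w : Eu d) (he : ‖e‖ = 1)
    (hinv : ∀ (x : Eu d) (t : ℝ), t • e + x ∈ A ↔ x ∈ A) (ρ : ℝ) (hρ : 0 < ρ)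
    (hew : (inner ℝ e w : ℝ) = ρ) (δ : ℝ) :
    stdGaussian (Eu d) (A ∩ {x | |(inner ℝ x w : ℝ)| < δ}) ≤
      ENNReal.ofReal δ / ENNReal.ofReal ρ * stdGaussian (Eu d) A := by
  cases d with
  | zero =>
    exfalso
    have : e = 0 := Subsingleton.elim _ _
    rw [this, norm_zero] at he
    exact zero_ne_one he
  | succ d =>
    have hort : Orthonormal ℝ (({0} : Set (Fin (d + 1))).domRestrict (fun _ : Fin (d + 1) => e)) := by
      constructor
      · intro i; exact he
      · rintro ⟨i, hi⟩ ⟨j, hj⟩ hij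
        exfalso; apply hij
        rw [Set.mem_singleton_iff] at hi hj
        subst hi; subst hj; rfl
    obtain ⟨b, hb⟩ := hort.exists_orthonormalBasis_extension_of_card_eq (by simp)
    have hb0 : b 0 = e := hb 0 (by simp)
    set T : (Fin (d + 1) → ℝ) → Eu (d + 1) := fun x => ∑ i, x i • b i with hT
    have hTm : Measurable T := by
      have : Continuous T := by rw [hT]; fun_prop
      exact this.measurable
    have hstd : stdGaussian (Eu (d + 1)) = (Measure.pi fun _ : Fin (d + 1) => gaussianReal 0 1).map T :=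
      stdGaussian_eq_map_pi_orthonormalBasis b
    have hmp := measurePreserving_piFinSuccAbove (fun _ : Fin (d + 1) => gaussianReal 0 1) 0
    set T' : (Fin d → ℝ) → Eu (d + 1) := fun z => ∑ i, z i • b i.succ with hT'
    have hT'm : Measurable T' := by
      have : Continuous T' := by rw [hT']; fun_prop
      exact this.measurable
    have hTsplit : ∀ (p : ℝ × (Fin d → ℝ)),
        T ((MeasurableEquiv.piFinSuccAbove (fun _ : Fin (d + 1) => ℝ) 0).symm p) =
          p.1 • e + T' p.2 := by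
      intro p
      simp only [hT, hT']
      rw [Fin.sum_univ_succ, hb0]
      simp [MeasurableEquiv.piFinSuccAbove, Fin.insertNthEquiv]
    have hmeasγ : ∀ C : Set (Eu (d + 1)), MeasurableSet C → stdGaussian (Eu (d + 1)) C =
        ((gaussianReal 0 1).prod (Measure.pi fun _ : Fin d => gaussianReal 0 1))
          ((fun p : ℝ × (Fin d → ℝ) => p.1 • e + T' p.2) ⁻¹' C) := by
      intro C hC
      rw [hstd, Measure.map_apply hTm hC, ← hmp.symm.measure_preimage (hTm hC).nullMeasurableSet]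
      congr 1
      ext p
      simp only [Set.mem_preimage, hTsplit]
    have hsm : MeasurableSet {x : Eu (d + 1) | |(inner ℝ x w : ℝ)| < δ} := by
      have : Continuous fun x : Eu (d + 1) => |(inner ℝ x w : ℝ)| := by fun_prop
      exact measurableSet_lt this.measurable measurable_const
    have hpm : Measurable fun p : ℝ × (Fin d → ℝ) => p.1 • e + T' p.2 := by fun_prop
    rw [hmeasγ _ (hA.inter hsm), hmeasγ _ hA]
    rw [Measure.prod_apply_symm (hpm (hA.inter hsm)), Measure.prod_apply_symm (hpm hA)]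
    rw [← lintegral_const_mul _ (measurable_measure_prodMk_right (hpm hA))]
    apply lintegral_mono
    intro z
    simp only
    by_cases hz : T' z ∈ A
    · have h1 : ((fun x : ℝ => (x, z)) ⁻¹' ((fun p : ℝ × (Fin d → ℝ) => p.1 • e + T' p.2) ⁻¹' A)) = Set.univ := by
        ext t; simp [hinv, hz]
      have h2 : ((fun x : ℝ => (x, z)) ⁻¹' ((fun p : ℝ × (Fin d → ℝ) => p.1 • e + T' p.2) ⁻¹'
          (A ∩ {x | |(inner ℝ x w : ℝ)| < δ}))) ⊆ {t | |t * ρ + (inner ℝ (T' z) w : ℝ)| < δ} := by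
        intro t ht
        have := ht.2
        simp only [Set.mem_ofPred_eq, inner_add_left, inner_smul_left, hew] at this ⊢
        simpa using this
      calc _ ≤ gaussianReal 0 1 {t | |t * ρ + (inner ℝ (T' z) w : ℝ)| < δ} := measure_mono h2
        _ ≤ ENNReal.ofReal δ / ENNReal.ofReal ρ := gauss_interval ρ _ δ hρ
        _ = ENNReal.ofReal δ / ENNReal.ofReal ρ * gaussianReal 0 1 Set.univ := by
            rw [measure_univ, mul_one]
        _ = _ := by rw [← h1]
    · have h2 : ((fun x : ℝ => (x, z)) ⁻¹' ((fun p : ℝ × (Fin d → ℝ) => p.1 • e + T' p.2) ⁻¹'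
          (A ∩ {x | |(inner ℝ x w : ℝ)| < δ}))) = ∅ := by
        ext t
        simp only [Set.mem_preimage, Set.mem_inter_iff, hinv, hz, false_and, Set.mem_empty_iff_false]
      have : gaussianReal 0 1 ((fun x : ℝ => (x, z)) ⁻¹' ((fun p : ℝ × (Fin d → ℝ) => p.1 • e + T' p.2) ⁻¹'
          (A ∩ {x | |(inner ℝ x w : ℝ)| < δ}))) = 0 := by rw [h2]; simp
      exact le_trans (le_of_eq this) zero_le

/-- Lemma B: adding one slab constraint to a standard Gaussian. -/
theorem gaussian_step {d m : ℕ} (u : Fin m → Eu d) (w : Eu d) (δ : ℝ) (hδ : 0 < δ) :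
    stdGaussian (Eu d) {x | (∀ i, |(inner ℝ x (u i) : ℝ)| < δ) ∧ |(inner ℝ x w : ℝ)| < δ} ≤
      ENNReal.ofReal δ / ENNReal.ofReal ‖(Submodule.span ℝ (Set.range u))ᗮ.starProjection w‖ *
        stdGaussian (Eu d) {x | ∀ i, |(inner ℝ x (u i) : ℝ)| < δ} := by
  set W := Submodule.span ℝ (Set.range u) with hW
  set p := Wᗮ.starProjection w with hp
  set A : Set (Eu d) := {x | ∀ i, |(inner ℝ x (u i) : ℝ)| < δ} with hA
  have hAm : MeasurableSet A := by
    have : A = ⋂ i, {x | |(inner ℝ x (u i) : ℝ)| < δ} := by ext x; simp [hA]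
    rw [this]
    refine MeasurableSet.iInter fun i => ?_
    have : Continuous fun x : Eu d => |(inner ℝ x (u i) : ℝ)| := by fun_prop
    exact measurableSet_lt this.measurable measurable_const
  have hset : {x | (∀ i, |(inner ℝ x (u i) : ℝ)| < δ) ∧ |(inner ℝ x w : ℝ)| < δ} =
      A ∩ {x | |(inner ℝ x w : ℝ)| < δ} := rfl
  rw [hset]
  rcases (norm_nonneg p).eq_or_lt with h0 | h0
  · rw [← h0, ENNReal.ofReal_zero]
    by_cases hz : stdGaussian (Eu d) A = 0
    · have : stdGaussian (Eu d) (A ∩ {x | |(inner ℝ x w : ℝ)| < δ}) = 0 :=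
        measure_mono_null Set.inter_subset_left hz
      rw [this]; exact zero_le
    · rw [ENNReal.div_zero (by simpa using hδ), ENNReal.top_mul hz]
      exact le_top
  · -- main case
    have hpW : p ∈ Wᗮ := Submodule.starProjection_apply_mem _ _
    have hpw : (inner ℝ p w : ℝ) = ‖p‖ ^ 2 := by
      have h1 : w = W.starProjection w + p := (W.starProjection_add_starProjection_orthogonal w).symm
      have h2 : (inner ℝ p (W.starProjection w) : ℝ) = 0 :=
        Submodule.inner_left_of_mem_orthogonal (Submodule.starProjection_apply_mem _ _) hpW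
      calc (inner ℝ p w : ℝ) = inner ℝ p (W.starProjection w + p) := by rw [← h1]
        _ = ‖p‖ ^ 2 := by rw [inner_add_right, h2, zero_add, real_inner_self_eq_norm_sq]
    have hpu : ∀ i, (inner ℝ p (u i) : ℝ) = 0 := by
      intro i
      exact Submodule.inner_left_of_mem_orthogonal (Submodule.subset_span (Set.mem_range_self i)) hpW
    apply gaussian_slab A hAm (‖p‖⁻¹ • p) w
    · rw [norm_smul, norm_inv, norm_norm, inv_mul_cancel₀ h0.ne']
    · intro x t
      simp only [hA, Set.mem_ofPred_eq, inner_add_left, inner_smul_left, hpu, mul_zero, zero_add]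
    · exact h0
    · rw [inner_smul_left, hpw]
      simp only [conj_trivial]
      field_simp

/-- product formula for iid integrals -/
theorem lintegral_pi_prod_const {α : Type} [MeasurableSpace α] (ν : Measure α) [SigmaFinite ν]
    (F : α → ℝ≥0∞) (hF : Measurable F) (B : ℕ) :
    ∫⁻ X, ∏ t, F (X t) ∂(Measure.pi fun _ : Fin B => ν) = (∫⁻ x, F x ∂ν) ^ B := by
  induction B with
  | zero => simp
  | succ B ih =>
    have hmp := measurePreserving_piFinSuccAbove (fun _ : Fin (B + 1) => ν) 0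
    have hm : Measurable fun X : Fin (B + 1) → α => ∏ t, F (X t) :=
      Finset.measurable_prod _ fun t _ => hF.comp (measurable_pi_apply t)
    rw [← hmp.symm.lintegral_comp hm]
    have e : ∀ p : α × (Fin B → α), ∏ t, F (((MeasurableEquiv.piFinSuccAbove
        (fun _ : Fin (B + 1) => α) 0).symm p) t) = F p.1 * ∏ t, F (p.2 t) := by
      intro p
      rw [Fin.prod_univ_succ]
      simp [MeasurableEquiv.piFinSuccAbove, Fin.insertNthEquiv]
    simp_rw [e]
    have hm' : Measurable fun X : Fin B → α => ∏ t, F (X t) :=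
      Finset.measurable_prod _ fun t _ => hF.comp (measurable_pi_apply t)
    rw [lintegral_prod_mul hF.aemeasurable hm'.aemeasurable, ih, pow_succ, mul_comm]

theorem gauss_exp_sq : ∫⁻ z, ENNReal.ofReal (Real.exp (z ^ 2 / 4)) ∂(gaussianReal 0 1) ≤
    ENNReal.ofReal (3 / 2) := by
  have hmexp : Measurable fun z : ℝ => ENNReal.ofReal (Real.exp (z ^ 2 / 4)) := by fun_prop
  rw [gaussianReal_of_var_ne_zero 0 (by norm_num)]
  rw [lintegral_withDensity_eq_lintegral_mul _ (measurable_gaussianPDF 0 1) hmexp]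
  have e : ∀ z : ℝ, (gaussianPDF 0 1 * fun z => ENNReal.ofReal (Real.exp (z ^ 2 / 4))) z =
      ENNReal.ofReal ((Real.sqrt (2 * Real.pi))⁻¹ * Real.exp (-(1 / 4) * z ^ 2)) := by
    intro z
    simp only [Pi.mul_apply, gaussianPDF, gaussianPDFReal_def, NNReal.coe_one, mul_one, sub_zero]
    rw [← ENNReal.ofReal_mul (by positivity), mul_assoc, ← Real.exp_add]
    congr 3
    ring
  simp_rw [e]
  have hint : Integrable fun z : ℝ => (Real.sqrt (2 * Real.pi))⁻¹ * Real.exp (-(1 / 4) * z ^ 2) :=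
    (integrable_exp_neg_mul_sq (by norm_num)).const_mul _
  rw [← ofReal_integral_eq_lintegral_ofReal hint (Filter.Eventually.of_forall fun z => by positivity)]
  apply ENNReal.ofReal_le_ofReal
  rw [integral_const_mul, integral_gaussian]
  have h1 : Real.sqrt (Real.pi / (1 / 4)) = Real.sqrt (2 * Real.pi) * Real.sqrt 2 := by
    rw [← Real.sqrt_mul (by positivity)]; congr 1; ring
  rw [h1]
  have h2 : Real.sqrt (2 * Real.pi) ≠ 0 := by positivity
  have h3 : Real.sqrt 2 ≤ 3 / 2 := by
    rw [Real.sqrt_le_left (by norm_num)]; norm_num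
  calc (Real.sqrt (2 * Real.pi))⁻¹ * (Real.sqrt (2 * Real.pi) * Real.sqrt 2) = Real.sqrt 2 := by
        field_simp
    _ ≤ 3 / 2 := h3

theorem map_inner_stdGaussian {d : ℕ} (e : Eu d) (he : ‖e‖ = 1) :
    (stdGaussian (Eu d)).map (fun x => (inner ℝ e x : ℝ)) = gaussianReal 0 1 := by
  have h := IsGaussian.map_eq_gaussianReal (μ := stdGaussian (Eu d)) (innerSL ℝ e)
  have h1 : (stdGaussian (Eu d))[(innerSL ℝ e : Eu d → ℝ)] = 0 :=
    integral_strongDual_stdGaussian _
  have h2 : Var[(innerSL ℝ e : Eu d → ℝ); stdGaussian (Eu d)] = 1 := by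
    have := variance_dual_stdGaussian (E := Eu d) (innerSL ℝ e)
    rw [this, innerSL_apply_norm, he]; norm_num
  rw [h1, h2] at h
  simpa using h

/-- Lemma C: chi-square tail. -/
theorem chi_tail {d B : ℕ} (w : Eu d) (r : ℝ) (hw : ‖w‖ ≤ r) (hr : 0 < r) :
    Measure.pi (fun _ : Fin B => stdGaussian (Eu d))
      {X | 8 * B * r ^ 2 < ∑ t, (inner ℝ (X t) w : ℝ) ^ 2} ≤ (2⁻¹ : ℝ≥0∞) ^ B := by
  rcases (norm_nonneg w).eq_or_lt with h0 | h0
  · have hw0 : w = 0 := norm_eq_zero.mp h0.symm
    have : {X : Fin B → Eu d | 8 * B * r ^ 2 < ∑ t, (inner ℝ (X t) w : ℝ) ^ 2} = ∅ := by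
      ext X
      simp only [hw0, inner_zero_right, Set.mem_ofPred_eq, Set.mem_empty_iff_false, iff_false, not_lt]
      simp only [ne_eq, OfNat.ofNat_ne_zero, not_false_eq_true, zero_pow, Finset.sum_const_zero]
      positivity
    rw [this]; simp
  · set e : Eu d := ‖w‖⁻¹ • w with he
    have hen : ‖e‖ = 1 := by rw [he, norm_smul, norm_inv, norm_norm, inv_mul_cancel₀ h0.ne']
    set F : Eu d → ℝ≥0∞ := fun x => ENNReal.ofReal (Real.exp ((inner ℝ e x : ℝ) ^ 2 / 4)) with hF
    have hFm : Measurable F := by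
      have : Continuous fun x : Eu d => Real.exp ((inner ℝ e x : ℝ) ^ 2 / 4) := by fun_prop
      exact this.measurable.ennreal_ofReal
    have hrow : ∫⁻ x, F x ∂(stdGaussian (Eu d)) ≤ ENNReal.ofReal (3 / 2) := by
      have hm : Measurable fun x : Eu d => (inner ℝ e x : ℝ) := by fun_prop
      have hm2 : Measurable fun z : ℝ => ENNReal.ofReal (Real.exp (z ^ 2 / 4)) := by fun_prop
      have : ∫⁻ x, F x ∂(stdGaussian (Eu d)) = ∫⁻ z, ENNReal.ofReal (Real.exp (z ^ 2 / 4))
          ∂((stdGaussian (Eu d)).map (fun x => (inner ℝ e x : ℝ))) := by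
        rw [lintegral_map hm2 hm]
      rw [this, map_inner_stdGaussian e hen]
      exact gauss_exp_sq
    have hprod := lintegral_pi_prod_const (stdGaussian (Eu d)) F hFm B
    have hmP : Measurable fun X : Fin B → Eu d => ∏ t, F (X t) :=
      Finset.measurable_prod _ fun t _ => hFm.comp (measurable_pi_apply t)
    have hmark := mul_meas_ge_le_lintegral (μ := Measure.pi (fun _ : Fin B => stdGaussian (Eu d)))
      hmP (ENNReal.ofReal (Real.exp (2 * B)))
    have hsub : {X : Fin B → Eu d | 8 * B * r ^ 2 < ∑ t, (inner ℝ (X t) w : ℝ) ^ 2} ⊆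
        {X | ENNReal.ofReal (Real.exp (2 * B)) ≤ ∏ t, F (X t)} := by
      intro X hX
      simp only [Set.mem_ofPred_eq] at hX ⊢
      simp only [hF]
      rw [← ENNReal.ofReal_prod_of_nonneg (fun _ _ => (Real.exp_pos _).le)]
      apply ENNReal.ofReal_le_ofReal
      rw [← Real.exp_sum]
      apply Real.exp_le_exp.mpr
      have hterm : ∀ t, (inner ℝ e (X t) : ℝ) ^ 2 / 4 = (inner ℝ (X t) w : ℝ) ^ 2 / (4 * ‖w‖ ^ 2) := by
        intro t
        rw [he, inner_smul_left, real_inner_comm]
        simp only [conj_trivial]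
        field_simp
      simp_rw [hterm]
      rw [← Finset.sum_div, le_div_iff₀ (by positivity)]
      have h1 : ‖w‖ ^ 2 ≤ r ^ 2 := pow_le_pow_left₀ (norm_nonneg _) hw 2
      have h2 : (0 : ℝ) ≤ B := Nat.cast_nonneg B
      nlinarith
    set P := Measure.pi (fun _ : Fin B => stdGaussian (Eu d))
      {X | 8 * B * r ^ 2 < ∑ t, (inner ℝ (X t) w : ℝ) ^ 2} with hP
    have h1 : ENNReal.ofReal (Real.exp (2 * B)) * P ≤ ENNReal.ofReal ((3 / 2) ^ B) := by
      calc ENNReal.ofReal (Real.exp (2 * B)) * P ≤ _ := by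
            gcongr
            exact measure_mono hsub
        _ ≤ _ := hmark
        _ = (∫⁻ x, F x ∂(stdGaussian (Eu d))) ^ B := hprod
        _ ≤ (ENNReal.ofReal (3 / 2)) ^ B := by gcongr
        _ = ENNReal.ofReal ((3 / 2) ^ B) := by rw [ENNReal.ofReal_pow (by norm_num)]
    have h2 : P ≤ ENNReal.ofReal ((3 / 2) ^ B) / ENNReal.ofReal (Real.exp (2 * B)) := by
      rw [ENNReal.le_div_iff_mul_le (Or.inl (by simp [Real.exp_pos])) (Or.inl (by simp))]
      rw [mul_comm]; exact h1
    refine h2.trans ?_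
    rw [← ENNReal.ofReal_div_of_pos (Real.exp_pos _)]
    have e3 : (2⁻¹ : ℝ≥0∞) ^ B = ENNReal.ofReal ((1 / 2) ^ B) := by
      rw [ENNReal.ofReal_pow (by norm_num)]
      congr 1
      rw [one_div, ENNReal.ofReal_inv_of_pos (by norm_num)]
      simp
    rw [e3]
    apply ENNReal.ofReal_le_ofReal
    rw [div_le_iff₀ (Real.exp_pos _), ← mul_comm (Real.exp _)]
    have e4 : Real.exp (2 * B) = (Real.exp 2) ^ B := by
      rw [← Real.exp_nat_mul]; congr 1; ring
    rw [e4, ← mul_pow]
    apply pow_le_pow_left₀ (by norm_num)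
    have := Real.add_one_le_exp (2 : ℝ)
    linarith

end Crest.Agent.StreamLB
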