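import Crest.Agent.StreamLB.Gauss
set_option autoImplicit false

open MeasureTheory ProbabilityTheory
open scoped ENNReal BigOperators

namespace Crest.Agent.StreamLB

/-- probability that one Gaussian sample is nearly orthogonal to all `u i - s1`. -/
noncomputable def rho {d m : ℕ} (δ : ℝ) (s1 : Eu d) (u : Fin m → Eu d) : ℝ≥0∞ :=
  stdGaussian (Eu d) {x | ∀ i, |(inner ℝ x (u i - s1) : ℝ)| < δ}

theorem measurableSet_rho {d m : ℕ} (δ : ℝ) (s1 : Eu d) :
    MeasurableSet {p : (Fin m → Eu d) × Eu d | ∀ i, |(inner ℝ p.2 (p.1 i - s1) : ℝ)| < δ} := by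
  rw [show {p : (Fin m → Eu d) × Eu d | ∀ i, |(inner ℝ p.2 (p.1 i - s1) : ℝ)| < δ} =
    ⋂ i, {p : (Fin m → Eu d) × Eu d | |(inner ℝ p.2 (p.1 i - s1) : ℝ)| < δ} by
      ext p; simp]
  refine MeasurableSet.iInter fun i => ?_
  apply measurableSet_lt
  · fun_prop
  · exact measurable_const

theorem measurable_rho {d m : ℕ} (δ : ℝ) (s1 : Eu d) : Measurable (rho (m := m) δ s1) :=
  measurable_measure_prodMk_left (measurableSet_rho δ s1)

theorem rho_succ_le {d m : ℕ} (δ : ℝ) (hδ : 0 < δ) (s1 : Eu d) (f : Fin (m + 1) → Eu d) :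
    rho δ s1 f ≤ ENNReal.ofReal δ / ENNReal.ofReal
      ‖(Submodule.span ℝ (Set.range fun j : Fin m => f j.castSucc - s1))ᗮ.starProjection
        (f (Fin.last m) - s1)‖ * rho δ s1 (fun j : Fin m => f j.castSucc) := by
  unfold rho
  refine le_trans (measure_mono ?_) (gaussian_step (fun j : Fin m => f j.castSucc - s1)
    (f (Fin.last m) - s1) δ hδ)
  intro x hx
  exact ⟨fun i => hx _, hx _⟩

theorem finrank_span_le {d m : ℕ} (u : Fin m → Eu d) :
    Module.finrank ℝ (Submodule.span ℝ (Set.range u)) ≤ m := by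
  have := finrank_range_le_card (R := ℝ) u
  simpa [Set.finrank] using this

theorem iter_bound {d B : ℕ} (δ : ℝ) (hδ : 0 < δ) (μ : Measure (Eu d)) [IsFiniteMeasure μ]
    (I : ℝ≥0∞) (s1 : Eu d) (m : ℕ)
    (hI : ∀ (W : Submodule ℝ (Eu d)), Module.finrank ℝ W ≤ m →
      ∫⁻ s, (ENNReal.ofReal ‖Wᗮ.starProjection (s - s1)‖)⁻¹ ^ B ∂μ ≤ I) :
    ∀ m' ≤ m, ∫⁻ u, (rho δ s1 u) ^ B ∂(Measure.pi fun _ : Fin m' => μ) ≤
      (ENNReal.ofReal δ ^ B * I) ^ m' := by
  intro m'
  induction m' with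
  | zero =>
    intro _
    simp only [pow_zero]
    have h1 : ∀ u : Fin 0 → Eu d, (rho δ s1 u) ^ B ≤ 1 := by
      intro u
      exact pow_le_one₀ (by positivity) prob_le_one
    calc ∫⁻ u, (rho δ s1 u) ^ B ∂(Measure.pi fun _ : Fin 0 => μ)
        ≤ ∫⁻ u, 1 ∂(Measure.pi fun _ : Fin 0 => μ) := lintegral_mono h1
      _ = 1 := by simp
  | succ n ih =>
    intro hn
    have ih' := ih (by omega)
    have hmp := measurePreserving_piFinSuccAbove (fun _ : Fin (n + 1) => μ) (Fin.last n)
    have hmeas : Measurable fun u : Fin (n + 1) → Eu d => (rho δ s1 u) ^ B :=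
      (measurable_rho δ s1).pow_const B
    have e1 : ∫⁻ u, (rho δ s1 u) ^ B ∂(Measure.pi fun _ : Fin (n + 1) => μ) =
        ∫⁻ p : Eu d × (Fin n → Eu d), (rho δ s1
          ((MeasurableEquiv.piFinSuccAbove (fun _ : Fin (n + 1) => Eu d) (Fin.last n)).symm p)) ^ B
          ∂(μ.prod (Measure.pi fun _ : Fin n => μ)) := by
      rw [← hmp.symm.lintegral_comp hmeas]
    rw [e1, lintegral_prod_symm]
    swap
    · exact (hmeas.comp (MeasurableEquiv.measurable _)).aemeasurable
    calc ∫⁻ u : Fin n → Eu d, ∫⁻ w : Eu d, (rho δ s1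
          ((MeasurableEquiv.piFinSuccAbove (fun _ : Fin (n + 1) => Eu d) (Fin.last n)).symm
            (w, u))) ^ B ∂μ ∂(Measure.pi fun _ : Fin n => μ)
        ≤ ∫⁻ u : Fin n → Eu d, (rho δ s1 u) ^ B * (ENNReal.ofReal δ ^ B * I)
          ∂(Measure.pi fun _ : Fin n => μ) := by
          apply lintegral_mono
          intro u
          simp only
          set W := Submodule.span ℝ (Set.range fun j : Fin n => u j - s1) with hW
          have hstep : ∀ w : Eu d, (rho δ s1
              ((MeasurableEquiv.piFinSuccAbove (fun _ : Fin (n + 1) => Eu d) (Fin.last n)).symm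
                (w, u))) ^ B ≤ ((rho δ s1 u) ^ B * ENNReal.ofReal δ ^ B) *
                (ENNReal.ofReal ‖Wᗮ.starProjection (w - s1)‖)⁻¹ ^ B := by
            intro w
            have h := rho_succ_le δ hδ s1
              ((MeasurableEquiv.piFinSuccAbove (fun _ : Fin (n + 1) => Eu d) (Fin.last n)).symm
                (w, u))
            have e2 : ∀ j : Fin n, ((MeasurableEquiv.piFinSuccAbove (fun _ : Fin (n + 1) => Eu d)
                (Fin.last n)).symm (w, u)) j.castSucc = u j := by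
              intro j
              simp [MeasurableEquiv.piFinSuccAbove, Fin.insertNthEquiv]
            have e3 : ((MeasurableEquiv.piFinSuccAbove (fun _ : Fin (n + 1) => Eu d)
                (Fin.last n)).symm (w, u)) (Fin.last n) = w := by
              simp [MeasurableEquiv.piFinSuccAbove, Fin.insertNthEquiv]
            simp only [e2, e3] at h
            calc _ ≤ (ENNReal.ofReal δ / ENNReal.ofReal ‖Wᗮ.starProjection (w - s1)‖ *
                  rho δ s1 u) ^ B := pow_le_pow_left₀ (by positivity) h B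
              _ = _ := by
                  rw [div_eq_mul_inv, mul_pow, mul_pow]; ring
          have hWr : Module.finrank ℝ W ≤ m := (finrank_span_le _).trans (by omega)
          have hmw : Measurable fun w : Eu d =>
              (ENNReal.ofReal ‖Wᗮ.starProjection (w - s1)‖)⁻¹ ^ B := by
            have hc : Continuous fun w : Eu d => ‖Wᗮ.starProjection (w - s1)‖ := by fun_prop
            exact (hc.measurable.ennreal_ofReal.inv).pow_const B
          calc _ ≤ ∫⁻ w : Eu d, ((rho δ s1 u) ^ B * ENNReal.ofReal δ ^ B) *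
                (ENNReal.ofReal ‖Wᗮ.starProjection (w - s1)‖)⁻¹ ^ B ∂μ := lintegral_mono hstep
            _ = ((rho δ s1 u) ^ B * ENNReal.ofReal δ ^ B) * ∫⁻ w : Eu d,
                (ENNReal.ofReal ‖Wᗮ.starProjection (w - s1)‖)⁻¹ ^ B ∂μ := by
                rw [lintegral_const_mul _ hmw]
            _ ≤ ((rho δ s1 u) ^ B * ENNReal.ofReal δ ^ B) * I := by gcongr; exact hI W hWr
            _ = _ := by ring
      _ = (∫⁻ u : Fin n → Eu d, (rho δ s1 u) ^ B ∂(Measure.pi fun _ : Fin n => μ)) *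
          (ENNReal.ofReal δ ^ B * I) := by
          rw [lintegral_mul_const _ ((measurable_rho δ s1).pow_const B)]
      _ ≤ (ENNReal.ofReal δ ^ B * I) ^ n * (ENNReal.ofReal δ ^ B * I) := by gcongr
      _ = (ENNReal.ofReal δ ^ B * I) ^ (n + 1) := by rw [pow_succ]

theorem measurable_yb {d B : ℕ} (δ : ℝ) :
    Measurable fun p : (Fin B → Eu d) × Eu d => yb δ p.1 p.2 := by
  unfold yb
  apply measurable_pi_lambda
  intro t
  apply Int.measurable_floor.comp
  have : Continuous fun p : (Fin B → Eu d) × Eu d => (inner ℝ (p.1 t) p.2 : ℝ) / δ := by fun_prop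
  exact this.measurable

theorem measurable_yb_right {d B : ℕ} (δ : ℝ) (X : Fin B → Eu d) :
    Measurable fun s : Eu d => yb δ X s := by
  unfold yb
  apply measurable_pi_lambda
  intro t
  apply Int.measurable_floor.comp
  have : Continuous fun s : Eu d => (inner ℝ (X t) s : ℝ) / δ := by fun_prop
  exact this.measurable

/-- points seen as close by the block `X` -/
def nearX {d B : ℕ} (δ : ℝ) (X : Fin B → Eu d) (s1 : Eu d) : Set (Eu d) :=
  {s | ∀ t, |(inner ℝ (X t) (s - s1) : ℝ)| < δ}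

theorem yb_eq_subset {d B : ℕ} (δ : ℝ) (hδ : 0 < δ) (X : Fin B → Eu d) (s1 : Eu d) :
    {s | yb δ X s = yb δ X s1} ⊆ nearX δ X s1 := by
  intro s hs t
  have h := congrFun hs t
  have h2 := Int.abs_sub_lt_one_of_floor_eq_floor h
  rw [← sub_div, ← inner_sub_right, abs_div, abs_of_pos hδ, div_lt_one hδ] at h2
  exact h2

theorem measurableSet_nearX3 {d B : ℕ} (δ : ℝ) :
    MeasurableSet {p : ((Fin B → Eu d) × Eu d) × Eu d | p.2 ∈ nearX δ p.1.1 p.1.2} := by
  unfold nearX
  rw [show {p : ((Fin B → Eu d) × Eu d) × Eu d | p.2 ∈ {s | ∀ t, |(inner ℝ (p.1.1 t) (s - p.1.2) : ℝ)| < δ}} =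
    ⋂ t, {p : ((Fin B → Eu d) × Eu d) × Eu d | |(inner ℝ (p.1.1 t) (p.2 - p.1.2) : ℝ)| < δ} by
      ext p; simp]
  refine MeasurableSet.iInter fun i => ?_
  apply measurableSet_lt
  · fun_prop
  · exact measurable_const

/-- the replica moment bound. -/
theorem moment_bound {d B m : ℕ} (δ : ℝ) (hδ : 0 < δ) (μ : Measure (Eu d)) [IsFiniteMeasure μ]
    (I : ℝ≥0∞)
    (hI : ∀ (s1 : Eu d) (W : Submodule ℝ (Eu d)), Module.finrank ℝ W ≤ m →
      ∫⁻ s, (ENNReal.ofReal ‖Wᗮ.starProjection (s - s1)‖)⁻¹ ^ B ∂μ ≤ I) :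
    ∫⁻ X, ∑' y : Fin B → ℤ, (μ {s | yb δ X s = y}) ^ (m + 1) ∂(gamB d B) ≤
      μ Set.univ * (ENNReal.ofReal δ ^ B * I) ^ m := by
  -- step 1
  have h1 : ∀ X : Fin B → Eu d, ∑' y : Fin B → ℤ, (μ {s | yb δ X s = y}) ^ (m + 1) ≤
      ∫⁻ s1, (μ (nearX δ X s1)) ^ m ∂μ := by
    intro X
    have hm := measurable_yb_right δ X
    have e1 : ∫⁻ s1, (μ {s | yb δ X s = yb δ X s1}) ^ m ∂μ =
        ∑' y : Fin B → ℤ, (μ {s | yb δ X s = y}) ^ (m + 1) := by
      have e2 : ∫⁻ s1, (μ {s | yb δ X s = yb δ X s1}) ^ m ∂μ =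
          ∫⁻ y, (μ {s | yb δ X s = y}) ^ m ∂(μ.map fun s => yb δ X s) := by
        rw [lintegral_map (measurable_of_countable _) hm]
      rw [e2, lintegral_countable']
      apply tsum_congr
      intro y
      rw [Measure.map_apply hm (measurableSet_singleton y), pow_succ]
      rfl
    rw [← e1]
    apply lintegral_mono
    intro s1
    simp only
    gcongr
    exact yb_eq_subset δ hδ X s1
  have hmeas1 : Measurable fun p : (Fin B → Eu d) × Eu d => (μ (nearX δ p.1 p.2)) ^ m :=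
    (measurable_measure_prodMk_left (measurableSet_nearX3 δ)).pow_const m
  calc ∫⁻ X, ∑' y : Fin B → ℤ, (μ {s | yb δ X s = y}) ^ (m + 1) ∂(gamB d B)
      ≤ ∫⁻ X, ∫⁻ s1, (μ (nearX δ X s1)) ^ m ∂μ ∂(gamB d B) := lintegral_mono h1
    _ = ∫⁻ s1, ∫⁻ X, (μ (nearX δ X s1)) ^ m ∂(gamB d B) ∂μ := by
        rw [lintegral_lintegral_swap]
        exact hmeas1.aemeasurable
    _ ≤ ∫⁻ s1, (ENNReal.ofReal δ ^ B * I) ^ m ∂μ := by
        apply lintegral_mono
        intro s1
        simp only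
        have hT : MeasurableSet {p : (Fin B → Eu d) × (Fin m → Eu d) |
            ∀ t, ∀ i, |(inner ℝ (p.1 t) (p.2 i - s1) : ℝ)| < δ} := by
          rw [show {p : (Fin B → Eu d) × (Fin m → Eu d) |
            ∀ t, ∀ i, |(inner ℝ (p.1 t) (p.2 i - s1) : ℝ)| < δ} = ⋂ t, ⋂ i,
              {p : (Fin B → Eu d) × (Fin m → Eu d) | |(inner ℝ (p.1 t) (p.2 i - s1) : ℝ)| < δ} by
              ext p; simp]
          refine MeasurableSet.iInter fun t => MeasurableSet.iInter fun i => ?_
          apply measurableSet_lt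
          · fun_prop
          · exact measurable_const
        have e3 : ∀ X : Fin B → Eu d, (μ (nearX δ X s1)) ^ m =
            (Measure.pi fun _ : Fin m => μ) {u | ∀ t, ∀ i, |(inner ℝ (X t) (u i - s1) : ℝ)| < δ} := by
          intro X
          have : {u : Fin m → Eu d | ∀ t, ∀ i, |(inner ℝ (X t) (u i - s1) : ℝ)| < δ} =
              Set.pi Set.univ (fun _ : Fin m => nearX δ X s1) := by
            ext u; simp only [Set.mem_ofPred_eq, Set.mem_pi, Set.mem_univ, true_imp_iff, nearX]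
            exact forall_comm
          rw [this, Measure.pi_pi]
          simp
        have e4 : ∀ u : Fin m → Eu d, (gamB d B) {X | ∀ t, ∀ i, |(inner ℝ (X t) (u i - s1) : ℝ)| < δ} =
            (rho δ s1 u) ^ B := by
          intro u
          have : {X : Fin B → Eu d | ∀ t, ∀ i, |(inner ℝ (X t) (u i - s1) : ℝ)| < δ} =
              Set.pi Set.univ (fun _ : Fin B => {x | ∀ i, |(inner ℝ x (u i - s1) : ℝ)| < δ}) := by
            ext X; simp [Set.mem_pi]
          rw [this, Measure.pi_pi]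
          simp [rho]
        calc ∫⁻ X, (μ (nearX δ X s1)) ^ m ∂(gamB d B)
            = ∫⁻ X, (Measure.pi fun _ : Fin m => μ)
              {u | ∀ t, ∀ i, |(inner ℝ (X t) (u i - s1) : ℝ)| < δ} ∂(gamB d B) := by
              simp_rw [e3]
          _ = ((gamB d B).prod (Measure.pi fun _ : Fin m => μ))
              {p : (Fin B → Eu d) × (Fin m → Eu d) |
                ∀ t, ∀ i, |(inner ℝ (p.1 t) (p.2 i - s1) : ℝ)| < δ} := by
              rw [Measure.prod_apply hT]; rfl
          _ = ∫⁻ u, (gamB d B) {X | ∀ t, ∀ i, |(inner ℝ (X t) (u i - s1) : ℝ)| < δ}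
              ∂(Measure.pi fun _ : Fin m => μ) := by
              rw [Measure.prod_apply_symm hT]; rfl
          _ = ∫⁻ u, (rho δ s1 u) ^ B ∂(Measure.pi fun _ : Fin m => μ) := by simp_rw [e4]
          _ ≤ (ENNReal.ofReal δ ^ B * I) ^ m := iter_bound δ hδ μ I s1 m (hI s1) m le_rfl
    _ = μ Set.univ * (ENNReal.ofReal δ ^ B * I) ^ m := by
        rw [lintegral_const, mul_comm]

end Crest.Agent.StreamLB
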