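import Crest.Agent.StreamLB.Defs
set_option autoImplicit false

open scoped ENNReal BigOperators

namespace Crest.Agent.StreamLB

/-- powers of two in `ℝ≥0∞` -/
noncomputable def tw (n : ℤ) : ℝ≥0∞ := (2 : ℝ≥0∞) ^ n

theorem tw_ne_zero (n : ℤ) : tw n ≠ 0 := (ENNReal.zpow_pos (by norm_num) (by norm_num) n).ne'
theorem tw_ne_top (n : ℤ) : tw n ≠ ⊤ := (ENNReal.zpow_lt_top (by norm_num) (by norm_num) n).ne
theorem tw_pos (n : ℤ) : 0 < tw n := ENNReal.zpow_pos (by norm_num) (by norm_num) n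
theorem tw_lt_top (n : ℤ) : tw n < ⊤ := ENNReal.zpow_lt_top (by norm_num) (by norm_num) n

theorem tw_add (a b : ℤ) : tw (a + b) = tw a * tw b :=
  ENNReal.zpow_add (by norm_num) (by norm_num) a b

theorem tw_zero : tw 0 = 1 := by simp [tw]
theorem tw_one : tw 1 = 2 := by simp [tw]

theorem tw_mono {a b : ℤ} (h : a ≤ b) : tw a ≤ tw b :=
  ENNReal.zpow_le_of_le (by norm_num) h

theorem tw_natCast (n : ℕ) : tw n = 2 ^ n := by simp [tw]

theorem tw_mul_neg (a : ℤ) : tw a * tw (-a) = 1 := by rw [← tw_add]; simp [tw_zero]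

theorem tw_neg (a : ℤ) : tw (-a) = (tw a)⁻¹ := by
  apply ENNReal.eq_inv_of_mul_eq_one_left
  rw [mul_comm]; exact tw_mul_neg a

theorem tw_pow (a : ℤ) (n : ℕ) : tw a ^ n = tw (a * n) := by
  induction n with
  | zero => simp [tw_zero]
  | succ n ih => rw [pow_succ, ih, ← tw_add]; congr 1; push_cast; ring

theorem tw_neg_natCast (n : ℕ) : tw (-(n : ℤ)) = 2⁻¹ ^ n := by
  rw [tw_neg, tw_natCast, ENNReal.inv_pow]

theorem ofReal_half_pow (n : ℕ) : ENNReal.ofReal ((1 / 2) ^ n) = tw (-(n : ℤ)) := by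
  rw [tw_neg_natCast, ENNReal.ofReal_pow (by norm_num)]
  congr 1
  rw [one_div, ENNReal.ofReal_inv_of_pos (by norm_num)]
  simp

theorem tsum_tw_geom (e : ℕ) (he : 1 ≤ e) (a : ℤ) : ∑' l : ℕ, tw (a - e * l) ≤ tw (a + 1) := by
  have h1 : ∀ l : ℕ, tw (a - e * l) ≤ tw a * 2⁻¹ ^ l := by
    intro l
    rw [← tw_neg_natCast, ← tw_add]
    apply tw_mono
    have : (l : ℤ) ≤ e * l := by
      have : (1 : ℤ) ≤ e := by exact_mod_cast he
      nlinarith [Int.natCast_nonneg l]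
    linarith
  calc ∑' l : ℕ, tw (a - e * l) ≤ ∑' l : ℕ, tw a * 2⁻¹ ^ l := ENNReal.tsum_le_tsum h1
    _ = tw a * 2 := by
        rw [ENNReal.tsum_mul_left, ENNReal.tsum_geometric, ENNReal.one_sub_inv_two, inv_inv]
    _ = tw (a + 1) := by rw [tw_add, tw_one]

end Crest.Agent.StreamLB
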