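import Crest.Agent.StreamLB.Cells
import Crest.Agent.StreamLB.Moment
import Crest.Agent.StreamLB.Tw
set_option autoImplicit false

open MeasureTheory ProbabilityTheory
open scoped ENNReal BigOperators

namespace Crest.Agent.StreamLB

/-- pointwise dyadic bound for `D⁻¹ ^ B`. -/
theorem inv_pow_le_dyadic (D : ℝ) (hD : 0 ≤ D) (B : ℕ) (hB : 1 ≤ B) (c : ℕ) :
    (ENNReal.ofReal D)⁻¹ ^ B ≤ tw (B * c) +
      ∑' l : ℕ, tw (B * (c + l + 1)) * Set.indicator {x : ℝ | x ≤ (1 / 2) ^ (c + l)} (fun _ => (1 : ℝ≥0∞)) D := by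
  rcases hD.eq_or_lt with h0 | h0
  · -- D = 0
    subst h0
    have : ∑' l : ℕ, tw (B * (c + l + 1)) * Set.indicator {x : ℝ | x ≤ (1 / 2) ^ (c + l)}
        (fun _ => (1 : ℝ≥0∞)) 0 = ⊤ := by
      have h1 : ∀ l : ℕ, (1 : ℝ≥0∞) ≤ tw (B * (c + l + 1)) * Set.indicator {x : ℝ | x ≤ (1 / 2) ^ (c + l)}
          (fun _ => (1 : ℝ≥0∞)) 0 := by
        intro l
        rw [Set.indicator_of_mem (by simp), mul_one, ← tw_zero]
        apply tw_mono; positivity
      refine top_le_iff.mp ?_
      calc (⊤ : ℝ≥0∞) = ∑' _ : ℕ, (1 : ℝ≥0∞) := by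
            rw [ENNReal.tsum_const_eq_top_of_ne_zero one_ne_zero]
        _ ≤ _ := ENNReal.tsum_le_tsum h1
    rw [this]; simp
  · -- D > 0
    by_cases hbig : (1 / 2 : ℝ) ^ c < D
    · apply le_add_right
      calc (ENNReal.ofReal D)⁻¹ ^ B ≤ (ENNReal.ofReal ((1 / 2) ^ c))⁻¹ ^ B := by
            gcongr
        _ = tw (B * c) := by
            rw [ofReal_half_pow, tw_neg, inv_inv, tw_pow]; congr 1; ring
    · push_neg at hbig
      apply le_add_left
      -- find l with 2^{-(c+l+1)} < D ≤ 2^{-(c+l)}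
      have hex : ∃ n : ℕ, (1 / 2 : ℝ) ^ (c + n) < D := by
        obtain ⟨n, hn⟩ := exists_pow_lt_of_lt_one h0 (by norm_num : (1 / 2 : ℝ) < 1)
        refine ⟨n, lt_of_le_of_lt ?_ hn⟩
        apply pow_le_pow_of_le_one (by norm_num) (by norm_num); omega
      classical
      set n := Nat.find hex with hn
      have hn1 : (1 / 2 : ℝ) ^ (c + n) < D := Nat.find_spec hex
      have hn0 : n ≠ 0 := by
        intro h
        rw [h, add_zero] at hn1
        linarith
      obtain ⟨l, hl⟩ := Nat.exists_eq_succ_of_ne_zero hn0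
      have hl2 : ¬ (1 / 2 : ℝ) ^ (c + l) < D := Nat.find_min hex (by omega)
      push_neg at hl2
      refine le_trans ?_ (ENNReal.le_tsum l)
      rw [Set.indicator_of_mem (by exact hl2), mul_one]
      calc (ENNReal.ofReal D)⁻¹ ^ B ≤ (ENNReal.ofReal ((1 / 2) ^ (c + n)))⁻¹ ^ B := by
            gcongr
        _ = tw (B * (c + l + 1)) := by
            rw [ofReal_half_pow, tw_neg, inv_inv, tw_pow]; congr 1; rw [hl]; push_cast; ring

/-- Frostman-type bound for the negative moments of distances to subspaces. -/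
theorem I_bound {d j k B a κ e : ℕ} (μ : Measure (Eu d)) [IsFiniteMeasure μ] (S : Set (Eu d))
    (hS : MeasurableSet S) (K : ℤ)
    (hfrost : ∀ i ≥ j, ∀ z, μ {s | cid d i s = z} ≤ tw (K - κ * (i - j)))
    (sQ : Eu d) (hQ : ∀ᵐ s ∂μ, ‖s - sQ‖ ≤ 2 * (1 / 2) ^ j) (s1 : Eu d)
    (W : Submodule ℝ (Eu d)) (hW : Module.finrank ℝ W ≤ k) (hB : 1 ≤ B) (he : 1 ≤ e)
    (hκ : κ = k + B + e) :
    ∫⁻ s in S, (ENNReal.ofReal ‖Wᗮ.starProjection (s - s1)‖)⁻¹ ^ B ∂μ ≤
      tw (B * (j + a)) * μ S + tw (B * j + B + 7 * k + 10 * d + K + 1 - e * a) := by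
  set D : Eu d → ℝ := fun s => ‖Wᗮ.starProjection (s - s1)‖ with hD
  have hDc : Continuous D := by rw [hD]; fun_prop
  have hDm : Measurable D := hDc.measurable
  calc ∫⁻ s in S, (ENNReal.ofReal (D s))⁻¹ ^ B ∂μ
      ≤ ∫⁻ s in S, (tw (B * (j + a : ℕ)) + ∑' l : ℕ, tw (B * ((j + a : ℕ) + l + 1)) *
          Set.indicator {x : ℝ | x ≤ (1 / 2) ^ (j + a + l)} (fun _ => (1 : ℝ≥0∞)) (D s)) ∂μ := by
        apply lintegral_mono
        intro s
        exact inv_pow_le_dyadic (D s) (norm_nonneg _) B hB (j + a)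
    _ = tw (B * (j + a : ℕ)) * μ S + ∑' l : ℕ, tw (B * ((j + a : ℕ) + l + 1)) *
          (μ.restrict S) {s | D s ≤ (1 / 2) ^ (j + a + l)} := by
        rw [lintegral_add_left measurable_const, lintegral_const, Measure.restrict_apply_univ]
        congr 1
        rw [lintegral_tsum]
        · apply tsum_congr
          intro l
          rw [lintegral_const_mul]
          · congr 1
            have : (fun s => Set.indicator {x : ℝ | x ≤ (1 / 2) ^ (j + a + l)}
                (fun _ => (1 : ℝ≥0∞)) (D s)) =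
                Set.indicator {s | D s ≤ (1 / 2) ^ (j + a + l)} (fun _ => (1 : ℝ≥0∞)) := by
              funext s; rfl
            rw [this, lintegral_indicator (measurableSet_le hDm measurable_const)]
            simp
          · exact (measurable_const.indicator measurableSet_Iic).comp hDm
        · intro l
          exact (((measurable_const.indicator measurableSet_Iic).comp hDm).const_mul _).aemeasurable
    _ ≤ tw (B * (j + a : ℕ)) * μ S + ∑' l : ℕ,
          tw ((B * j + B + 7 * k + 10 * d + K - e * a) - e * l) := by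
        gcongr with l
        have h1 : (μ.restrict S) {s | D s ≤ (1 / 2) ^ (j + a + l)} ≤
            μ {s | D s ≤ (1 / 2) ^ (j + a + l)} := Measure.restrict_apply_le _ _
        have h2 := tube_bound (d := d) (i := j + a + l) (j := j) (k := k) (by omega) μ
          (tw (K - κ * ((j + a + l : ℕ) - j))) (fun z => by
            have := hfrost (j + a + l) (by omega) z
            exact_mod_cast this) sQ s1 hQ W hW
        have h3 := h1.trans h2
        calc tw (B * ((j + a : ℕ) + l + 1)) * (μ.restrict S) {s | D s ≤ (1 / 2) ^ (j + a + l)}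
            ≤ tw (B * ((j + a : ℕ) + l + 1)) * (2 ^ ((7 + (j + a + l - j)) * k) *
              (2 ^ (10 * d) * tw (K - κ * ((j + a + l : ℕ) - j)))) := by gcongr
          _ = tw ((B * j + B + 7 * k + 10 * d + K - e * a) - e * l) := by
              rw [← tw_natCast, ← tw_natCast, ← tw_add, ← tw_add, ← tw_add]
              congr 1
              have : j + a + l - j = a + l := by omega
              rw [this, hκ]
              push_cast
              ring
    _ ≤ tw (B * (j + a)) * μ S + tw (B * j + B + 7 * k + 10 * d + K + 1 - e * a) := by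
        have h := tsum_tw_geom e he (B * j + B + 7 * k + 10 * d + K - e * a)
        gcongr
        · push_cast; rfl
        · refine h.trans (le_of_eq ?_)
          congr 1; ring

end Crest.Agent.StreamLB
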