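import Crest.Agent.StreamLB.Sel
set_option autoImplicit false

open MeasureTheory ProbabilityTheory
open scoped ENNReal BigOperators

namespace Crest.Agent.StreamLB

variable {d B : ℕ} {V : Type}

/-- success probability with `n` blocks remaining -/
noncomputable def U [Fintype V] (δ : ℝ) (Φ : ℕ → V → (Fin B → Eu d) → (Fin B → ℤ) → V)
    (a : V → Eu d) (ε : ℝ) : ℕ → V → Eu d → ℝ≥0∞
  | 0, v, s => Set.indicator {s | ‖s - a v‖ ≤ ε} (fun _ => 1) s
  | n + 1, v, s => ∑ v', gk δ (Φ n v) v' s * U δ Φ a ε n v' s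

theorem U_measurable [Fintype V] (δ : ℝ) (Φ : ℕ → V → (Fin B → Eu d) → (Fin B → ℤ) → V)
    (hΦ : ∀ n v y v', MeasurableSet {X | Φ n v X y = v'})
    (a : V → Eu d) (ε : ℝ) : ∀ n v, Measurable (U δ Φ a ε n v) := by
  intro n
  induction n with
  | zero =>
    intro v
    have hc : Continuous fun s : Eu d => ‖s - a v‖ := by fun_prop
    exact measurable_const.indicator (measurableSet_le hc.measurable measurable_const)
  | succ n ih =>
    intro v
    have : U δ Φ a ε (n + 1) v = fun s => ∑ v', gk δ (Φ n v) v' s * U δ Φ a ε n v' s := rfl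
    rw [this]
    exact Finset.measurable_sum _ fun v' _ =>
      (measurable_gk δ (Φ n v) (hΦ n v) v').mul (ih v')

theorem U_le_one [Fintype V] (δ : ℝ) (Φ : ℕ → V → (Fin B → Eu d) → (Fin B → ℤ) → V)
    (hΦ : ∀ n v y v', MeasurableSet {X | Φ n v X y = v'})
    (a : V → Eu d) (ε : ℝ) : ∀ n v s, U δ Φ a ε n v s ≤ 1 := by
  intro n
  induction n with
  | zero =>
    intro v s
    exact Set.indicator_le_self' (fun _ _ => by simp) _ |>.trans (by simp)
  | succ n ih =>
    intro v s
    calc U δ Φ a ε (n + 1) v s = ∑ v', gk δ (Φ n v) v' s * U δ Φ a ε n v' s := rfl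
      _ ≤ ∑ v', gk δ (Φ n v) v' s * 1 := by
          apply Finset.sum_le_sum; intro v' _; gcongr; exact ih v' s
      _ = 1 := by simp_rw [mul_one]; exact sum_gk δ (Φ n v) (hΦ n v) s

theorem Node.psi_nonneg {j q κ : ℕ} {ψ : ℤ} {μ : Measure (Eu d)} (h : Node d j q κ ψ μ) :
    0 ≤ ψ := by
  have := h.prob
  obtain ⟨zQ, hz⟩ := h.cell
  have h1 := h.info j le_rfl zQ
  have h2 : μ {s | cid d j s = zQ} = 1 := by
    rw [← prob_compl_eq_zero_iff (measurableSet_cid d j zQ)]
    exact hz
  rw [h2, ← tw_zero, tw_le_iff] at h1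
  simpa using h1

theorem Node.center {j q κ : ℕ} {ψ : ℤ} {μ : Measure (Eu d)} (hd : 1 ≤ d) (h : Node d j q κ ψ μ) :
    ∃ sQ : Eu d, ∀ᵐ s ∂μ, ‖s - sQ‖ ≤ 2 * (1 / 2) ^ j := by
  have := h.prob
  obtain ⟨zQ, hz⟩ := h.cell
  have hboth : ∀ᵐ s ∂μ, ‖s‖ = 1 ∧ cid d j s = zQ := h.unit.and hz
  obtain ⟨s0, hs0⟩ := hboth.exists
  refine ⟨s0, ?_⟩
  filter_upwards [hboth] with s hs
  exact cid_diam hd hs.1 hs0.1 (hs.2.trans hs0.2.symm)

theorem induct [Fintype V] {m a' κ e w x ℓ i0 : ℕ} (nδ q J : ℕ) (Ptot : ℤ) (hd : 1 ≤ d)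
    (Φ : ℕ → V → (Fin B → Eu d) → (Fin B → ℤ) → V)
    (hΦ : ∀ n v y v', MeasurableSet {X | Φ n v X y = v'})
    (a : V → Eu d) (ε : ℝ)
    (hBq : B = q) (hB : 1 ≤ B) (he : 1 ≤ e) (hκ : κ = m + B + e)
    (hcard : (Fintype.card V : ℝ≥0∞) ≤ tw w)
    (hn1 : 2 * q + 1 + 8 * B + B * a' + x + 1 ≤ ℓ)
    (hn2 : 2 * q + 1 + 8 * B + B + 7 * m + 10 * d + q + 1 + x + 1 ≤ e * a')
    (hn3 : 2 * q + 1 + w ≤ x * m)
    (hJ : Ptot < q * (J + 1)) (hJδ : J ≤ nδ)
    (hε : ε ≤ 3 * (1 / 2) ^ (J + i0)) (hi0 : 10 * d + q + 3 ≤ κ * i0) :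
    ∀ (n : ℕ) (v : V) (μ : Measure (Eu d)) (j : ℕ) (ψ : ℤ), Node d j q κ ψ μ →
      ψ + q * j + n * (ℓ + 1 + q) ≤ Ptot →
      ∫⁻ s, U ((1 / 2) ^ nδ) Φ a ε n v s ∂μ ≤ tw (-3) + n * ((J + 9) * tw (-q)) := by
  classical
  have hq1 : 1 ≤ q := hBq ▸ hB
  have hjJ' : ∀ (n : ℕ) (j : ℕ) (ψ : ℤ), 0 ≤ ψ → ψ + q * j + n * (ℓ + 1 + q) ≤ Ptot → j ≤ J := by
    intro n j ψ hψ hP
    by_contra hc
    push Not at hc
    have h1 : (J : ℤ) + 1 ≤ j := by exact_mod_cast hc
    have h2 : (0 : ℤ) ≤ q * (j - (J + 1)) := by apply mul_nonneg (by positivity); linarith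
    have h3 : (0 : ℤ) ≤ n * (ℓ + 1 + q) := by positivity
    nlinarith
  intro n
  induction n with
  | zero =>
    intro v μ j ψ hN hP
    have := hN.prob
    have hjJ : j ≤ J := hjJ' 0 j ψ hN.psi_nonneg hP
    have hc : Continuous fun s : Eu d => ‖s - a v‖ := by fun_prop
    have e1 : ∫⁻ s, U ((1 / 2) ^ nδ) Φ a ε 0 v s ∂μ = μ {s | ‖s - a v‖ ≤ ε} := by
      unfold U
      rw [lintegral_indicator (measurableSet_le hc.measurable measurable_const)]
      simp
    rw [e1]
    have h1 := ball_bound (d := d) (i := J + i0) μ (tw (q - κ * ((J + i0 : ℕ) - j)))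
      (fun z => hN.frost (J + i0) (by omega) z) (a v)
    calc μ {s | ‖s - a v‖ ≤ ε} ≤ μ {s | ‖s - a v‖ ≤ 3 * (1 / 2) ^ (J + i0)} := by
          apply measure_mono
          intro s hs
          exact le_trans hs hε
      _ ≤ 2 ^ (10 * d) * tw (q - κ * ((J + i0 : ℕ) - j)) := h1
      _ = tw (10 * d + (q - κ * ((J + i0 : ℕ) - j))) := by
          rw [← tw_natCast, ← tw_add]; congr 1
      _ ≤ tw (-3) := by
          apply tw_mono
          have h2 : (10 * d + q + 3 : ℤ) ≤ κ * i0 := by exact_mod_cast hi0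
          have h3 : (j : ℤ) ≤ J := by exact_mod_cast hjJ
          have h4 : (0 : ℤ) ≤ κ * (J - j) := by apply mul_nonneg (by positivity); linarith
          push_cast
          nlinarith
      _ ≤ _ := le_self_add
  | succ n ih =>
    intro v μ j ψ hN hP
    have := hN.prob
    have hψ0 := hN.psi_nonneg
    have hjJ : j ≤ J := hjJ' (n + 1) j ψ hψ0 hP
    obtain ⟨sQ, hQ⟩ := hN.center hd
    obtain ⟨zQ, hzQ⟩ := hN.cell
    set δ : ℝ := (1 / 2) ^ nδ with hδ
    set g : V → Eu d → ℝ≥0∞ := fun v' => gk δ (Φ n v) v' with hg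
    have hgm : ∀ v', Measurable (g v') := fun v' => measurable_gk δ (Φ n v) (hΦ n v) v'
    set S : V → Set (Eu d) := fun v' => Sbad δ (Φ n v) μ ℓ v' with hS
    have hSm : ∀ v', MeasurableSet (S v') := fun v' => measurableSet_Sbad δ (Φ n v) (hΦ n v) μ ℓ v'
    set mv : V → ℝ≥0∞ := fun v' => ∫⁻ s, g v' s ∂μ with hmv
    set Lv : V → ℝ≥0∞ := fun v' => ∫⁻ s in S v', g v' s ∂μ with hLv
    set u := U δ Φ a ε with hu
    have hum : ∀ v', Measurable (u n v') := U_measurable δ Φ hΦ a ε n
    have hu1 : ∀ v' s, u n v' s ≤ 1 := U_le_one δ Φ hΦ a ε n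
    set β : ℝ≥0∞ := tw (-3) + n * ((J + 9) * tw (-q)) with hβ
    have hosl : ∑ v', Lv v' ≤ tw (2 - q) :=
      osl nδ j (hjJ.trans hJδ) sQ μ hQ q hBq (Φ n v) (hΦ n v) hN.frost hB he hκ hcard hn1 hn2 hn3
    have hsum : ∑ v', mv v' = 1 := sum_mv δ (Φ n v) (hΦ n v) μ
    have hmain : ∀ v', ∫⁻ s, g v' s * u n v' s ∂μ ≤
        2 * Lv v' + (β + (J + 1) * tw (-q)) * mv v' := by
      intro v'
      have hmvt : mv v' ≠ ⊤ := ne_top_of_le_ne_top (by simp) (mv_le_one δ (Φ n v) μ v')
      by_cases hbad : mv v' ≤ 2 * Lv v'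
      · apply le_add_right
        calc ∫⁻ s, g v' s * u n v' s ∂μ ≤ ∫⁻ s, g v' s * 1 ∂μ := by
              apply lintegral_mono; intro s; simp only; gcongr; exact hu1 v' s
          _ = mv v' := by simp_rw [mul_one]; rfl
          _ ≤ _ := hbad
      · push Not at hbad
        -- split off S
        set μ' : Measure (Eu d) := (μ.withDensity (g v')).restrict (S v')ᶜ with hμ'
        have hμ'ac : μ' ≪ μ :=
          Measure.restrict_le_self.absolutelyContinuous.trans (withDensity_absolutelyContinuous _ _)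
        have hLt : Lv v' ≠ ⊤ := ne_top_of_le_ne_top hmvt (setLIntegral_le_lintegral _ _)
        have hsplit : Lv v' + ∫⁻ s in (S v')ᶜ, g v' s ∂μ = mv v' :=
          lintegral_add_compl _ (hSm v')
        have hμ'univ : μ' Set.univ = ∫⁻ s in (S v')ᶜ, g v' s ∂μ := by
          rw [hμ', Measure.restrict_apply_univ, withDensity_apply _ (hSm v').compl]
        have hμ'fin : IsFiniteMeasure μ' := by
          constructor
          rw [hμ'univ]
          exact lt_of_le_of_lt (setLIntegral_le_lintegral _ _) (lt_top_iff_ne_top.mpr hmvt)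
        have hhalf : mv v' ≤ 2 * μ' Set.univ := by
          rw [hμ'univ]
          have h1 : Lv v' ≤ ∫⁻ s in (S v')ᶜ, g v' s ∂μ := by
            have h2 : 2 * Lv v' < Lv v' + ∫⁻ s in (S v')ᶜ, g v' s ∂μ := by rw [hsplit]; exact hbad
            rw [two_mul] at h2
            exact le_of_lt ((ENNReal.add_lt_add_iff_left hLt).mp h2)
          rw [← hsplit, two_mul]
          gcongr
        have hμ'0 : μ' Set.univ ≠ 0 := by
          intro h0
          rw [h0, mul_zero] at hhalf
          exact absurd (lt_of_le_of_lt zero_le hbad) (not_lt.mpr hhalf)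
        have hμ'le : μ' Set.univ ≤ mv v' := by rw [hμ'univ]; exact setLIntegral_le_lintegral _ _
        have hinfo : ∀ i ≥ j, ∀ z, μ' {s | cid d i s = z} ≤
            μ' Set.univ * tw (ψ + ℓ + 1 - (κ + q) * (i - j)) := by
          intro i hi z
          have hcm := measurableSet_cid d i z
          calc μ' {s | cid d i s = z}
              = ∫⁻ s in ({s | cid d i s = z} ∩ (S v')ᶜ), g v' s ∂μ := by
                rw [hμ', Measure.restrict_apply hcm, withDensity_apply _ (hcm.inter (hSm v').compl)]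
            _ ≤ ∫⁻ s in ({s | cid d i s = z} ∩ (S v')ᶜ), tw ℓ * mv v' ∂μ := by
                apply setLIntegral_mono' (hcm.inter (hSm v').compl)
                intro s hs
                have := hs.2
                simp only [hS, Sbad, Set.mem_compl_iff, Set.mem_ofPred_eq, not_lt] at this
                exact this
            _ = tw ℓ * mv v' * μ ({s | cid d i s = z} ∩ (S v')ᶜ) := by
                rw [lintegral_const, Measure.restrict_apply_univ]
            _ ≤ tw ℓ * (2 * μ' Set.univ) * tw (ψ - (κ + q) * (i - j)) := by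
                gcongr
                exact (measure_mono Set.inter_subset_left).trans (hN.info i hi z)
            _ = μ' Set.univ * tw (ψ + ℓ + 1 - (κ + q) * (i - j)) := by
                have : tw (ψ + ℓ + 1 - (κ + q) * (i - j)) =
                    tw ℓ * tw 1 * tw (ψ - (κ + q) * (i - j)) := by
                  rw [← tw_add, ← tw_add]; congr 1; ring
                rw [this, tw_one]; ring
        have hψ' : ψ + ℓ + 1 < q * (J + 1 - j) := by
          have h1 : (0 : ℤ) ≤ n * (ℓ + 1 + q) := by positivity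
          have h2 : (0 : ℤ) ≤ q := by positivity
          have h3 : ψ + q * j + (n + 1) * (ℓ + 1 + q) ≤ Ptot := by
            have := hP; push_cast at this; exact this
          nlinarith
        have hsel := select d j J q κ hjJ μ' hμ'0 (hμ'ac.ae_le hN.unit) zQ (hμ'ac.ae_le hzQ)
          (ψ + ℓ + 1) hinfo hψ' hq1 (u n v') (hum v') (hu1 v') β (by
            intro i hji hiJ ν hν
            apply ih v' ν i _ hν
            have h3 : ψ + q * j + (n + 1) * (ℓ + 1 + q) ≤ Ptot := by
              have := hP; push_cast at this; exact this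
            have : ψ + ℓ + 1 + q - q * ((i : ℤ) - j) + q * i + n * (ℓ + 1 + q) =
                ψ + q * j + (n + 1) * (ℓ + 1 + q) := by ring
            rw [this]; exact h3)
        have hdec : ∫⁻ s, g v' s * u n v' s ∂μ =
            ∫⁻ s in S v', g v' s * u n v' s ∂μ + ∫⁻ s, u n v' s ∂μ' := by
          rw [← lintegral_add_compl _ (hSm v')]
          congr 1
          rw [hμ', restrict_withDensity (hSm v').compl,
            lintegral_withDensity_eq_lintegral_mul _ (hgm v') (hum v')]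
          rfl
        rw [hdec]
        have hA : ∫⁻ s in S v', g v' s * u n v' s ∂μ ≤ Lv v' := by
          apply lintegral_mono
          intro s
          simp only
          calc g v' s * u n v' s ≤ g v' s * 1 := by gcongr; exact hu1 v' s
            _ = g v' s := mul_one _
        calc _ ≤ Lv v' + (β + (J + 1) * tw (-q)) * μ' Set.univ := add_le_add hA hsel
          _ ≤ 2 * Lv v' + (β + (J + 1) * tw (-q)) * mv v' := by
              gcongr
              rw [two_mul]; exact le_self_add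
    calc ∫⁻ s, U δ Φ a ε (n + 1) v s ∂μ = ∑ v', ∫⁻ s, g v' s * u n v' s ∂μ := by
          have : ∀ s, U δ Φ a ε (n + 1) v s = ∑ v', g v' s * u n v' s := fun s => rfl
          simp_rw [this]
          exact lintegral_finsetSum _ (fun v' _ => (hgm v').mul (hum v'))
      _ ≤ ∑ v', (2 * Lv v' + (β + (J + 1) * tw (-q)) * mv v') :=
          Finset.sum_le_sum fun v' _ => hmain v'
      _ = 2 * ∑ v', Lv v' + (β + (J + 1) * tw (-q)) * ∑ v', mv v' := by
          rw [Finset.sum_add_distrib, Finset.mul_sum, Finset.mul_sum]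
      _ ≤ 2 * tw (2 - q) + (β + (J + 1) * tw (-q)) * 1 := by
          gcongr
          exact hsum.le
      _ = tw (-3) + ((n + 1 : ℕ) : ℝ≥0∞) * ((J + 9) * tw (-q)) := by
          have e1 : tw (2 - q) = 2 * (2 * tw (-q)) := by
            rw [← tw_one, ← tw_add, ← tw_add]; congr 1; ring
          rw [e1, hβ]
          push_cast
          ring

end Crest.Agent.StreamLB
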