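import Crest.Agent.StreamLB.Defs
set_option autoImplicit false

open MeasureTheory ProbabilityTheory
open scoped ENNReal BigOperators

namespace Crest.Agent.StreamLB

/-- one-sided geometric sum over a finite set of integers above `a`. -/
theorem geom_int_aux (S : Finset ℤ) (a : ℤ) (hS : ∀ n ∈ S, a ≤ n) (ρ : ℝ) (h0 : 0 ≤ ρ) (h1 : ρ < 1) :
    ∑ n ∈ S, ρ ^ (n - a).toNat ≤ 1 / (1 - ρ) := by
  classical
  have hinj : Set.InjOn (fun n : ℤ => (n - a).toNat) (S : Set ℤ) := by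
    intro x hx y hy hxy
    have h1 := hS x hx
    have h2 := hS y hy
    simp only at hxy
    omega
  rw [← Finset.sum_image (f := fun k => ρ ^ k) (g := fun n : ℤ => (n - a).toNat) hinj]
  have hs : Summable (fun k : ℕ => ρ ^ k) := summable_geometric_of_lt_one h0 h1
  calc ∑ k ∈ S.image (fun n : ℤ => (n - a).toNat), ρ ^ k ≤ ∑' k : ℕ, ρ ^ k :=
        hs.sum_le_tsum _ (fun i _ => pow_nonneg h0 i)
    _ = 1 / (1 - ρ) := by rw [tsum_geometric_of_lt_one h0 h1, one_div]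

/-- two-sided exponential sum. -/
theorem exp_sum_int (S : Finset ℤ) (c R : ℝ) (hR : 1 ≤ R) :
    ∑ n ∈ S, Real.exp (-(|(n : ℝ) - c| / R)) ≤ 2 * (R + 1) := by
  classical
  have hR0 : 0 < R := by linarith
  set ρ := Real.exp (-(1 / R)) with hρ
  have hρ0 : 0 ≤ ρ := (Real.exp_pos _).le
  have hρ1 : ρ < 1 := by
    rw [hρ, ← Real.exp_zero]; apply Real.exp_lt_exp.mpr; simp [hR0]
  have hgeo : 1 / (1 - ρ) ≤ R + 1 := by
    -- 1 - ρ ≥ 1/(R+1)
    have h1 : 1 / R + 1 ≤ Real.exp (1 / R) := Real.add_one_le_exp _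
    have h2 : ρ ≤ 1 / (1 / R + 1) := by
      rw [hρ, Real.exp_neg, ← one_div]
      apply one_div_le_one_div_of_le _ h1
      positivity
    have h3 : 1 - 1 / (1 / R + 1) = 1 / (R + 1) := by field_simp; ring
    have h4 : 1 / (R + 1) ≤ 1 - ρ := by linarith
    rw [div_le_iff₀ (by linarith)]
    have h5 : (R + 1) * (1 / (R + 1)) = 1 := by field_simp
    nlinarith
  -- split
  have hsplit : ∑ n ∈ S, Real.exp (-(|(n : ℝ) - c| / R)) =
      ∑ n ∈ S.filter (fun n => ⌈c⌉ ≤ n), Real.exp (-(|(n : ℝ) - c| / R)) +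
      ∑ n ∈ S.filter (fun n => ¬ ⌈c⌉ ≤ n), Real.exp (-(|(n : ℝ) - c| / R)) := by
    rw [Finset.sum_filter_add_sum_filter_not]
  have hA : ∑ n ∈ S.filter (fun n => ⌈c⌉ ≤ n), Real.exp (-(|(n : ℝ) - c| / R)) ≤ 1 / (1 - ρ) := by
    refine le_trans (Finset.sum_le_sum ?_) (geom_int_aux (S.filter (fun n => ⌈c⌉ ≤ n)) ⌈c⌉ ?_ ρ hρ0 hρ1)
    · intro n hn
      have hn' : ⌈c⌉ ≤ n := (Finset.mem_filter.mp hn).2
      rw [hρ, ← Real.exp_nat_mul]
      apply Real.exp_le_exp.mpr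
      have e1 : ((n - ⌈c⌉).toNat : ℝ) = (n : ℝ) - ⌈c⌉ := by
        have : ((n - ⌈c⌉).toNat : ℤ) = n - ⌈c⌉ := Int.toNat_of_nonneg (by linarith)
        have h := congrArg (fun z : ℤ => (z : ℝ)) this
        push_cast at h
        exact_mod_cast h
      rw [e1]
      have h2 : c ≤ (⌈c⌉ : ℝ) := Int.le_ceil c
      have h3 : (⌈c⌉ : ℝ) ≤ n := by exact_mod_cast hn'
      have h4 : (n : ℝ) - ⌈c⌉ ≤ |(n : ℝ) - c| := le_trans (by linarith) (le_abs_self _)
      have h5 : ((n : ℝ) - ⌈c⌉) / R ≤ |(n : ℝ) - c| / R := by gcongr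
      have h6 : ((n : ℝ) - ⌈c⌉) * -(1 / R) = -(((n : ℝ) - ⌈c⌉) / R) := by ring
      rw [h6]; linarith
    · intro n hn; exact (Finset.mem_filter.mp hn).2
  have hB : ∑ n ∈ S.filter (fun n => ¬ ⌈c⌉ ≤ n), Real.exp (-(|(n : ℝ) - c| / R)) ≤ 1 / (1 - ρ) := by
    -- reflect
    have hinj : Set.InjOn (fun n : ℤ => -n) ((S.filter (fun n => ¬ ⌈c⌉ ≤ n) : Finset ℤ) : Set ℤ) := by
      intro x _ y _ hxy; simpa using hxy
    have e0 : ∑ n ∈ S.filter (fun n => ¬ ⌈c⌉ ≤ n), Real.exp (-(|(n : ℝ) - c| / R)) =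
        ∑ n ∈ (S.filter (fun n => ¬ ⌈c⌉ ≤ n)).image (fun n : ℤ => -n),
          Real.exp (-(|(-(n : ℝ)) - c| / R)) := by
      rw [Finset.sum_image hinj]
      apply Finset.sum_congr rfl
      intro n _
      push_cast; simp
    rw [e0]
    refine le_trans (Finset.sum_le_sum ?_) (geom_int_aux
      ((S.filter (fun n => ¬ ⌈c⌉ ≤ n)).image (fun n : ℤ => -n)) (-(⌈c⌉ - 1)) ?_ ρ hρ0 hρ1)
    · intro n hn
      rw [Finset.mem_image] at hn
      obtain ⟨k, hk, rfl⟩ := hn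
      have hk' : ¬ ⌈c⌉ ≤ k := (Finset.mem_filter.mp hk).2
      have hk2 : k ≤ ⌈c⌉ - 1 := by omega
      rw [hρ, ← Real.exp_nat_mul]
      apply Real.exp_le_exp.mpr
      have e1 : ((-k - -(⌈c⌉ - 1)).toNat : ℝ) = (⌈c⌉ : ℝ) - 1 - k := by
        have : ((-k - -(⌈c⌉ - 1)).toNat : ℤ) = -k - -(⌈c⌉ - 1) := Int.toNat_of_nonneg (by linarith)
        have h := congrArg (fun z : ℤ => (z : ℝ)) this
        push_cast at h
        rw [show ((-k - -(⌈c⌉ - 1)).toNat : ℝ) = (((-k - -(⌈c⌉ - 1)).toNat : ℤ) : ℝ) by norm_cast]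
        rw [this]; push_cast; ring
      rw [e1]
      have h2 : (⌈c⌉ : ℝ) - 1 < c := by linarith [Int.ceil_lt_add_one c]
      have h4 : (⌈c⌉ : ℝ) - 1 - k ≤ |(-((-k : ℤ) : ℝ)) - c| := by
        push_cast
        rw [neg_neg, abs_sub_comm]
        exact le_trans (by linarith) (le_abs_self _)
      have h5 : ((⌈c⌉ : ℝ) - 1 - k) / R ≤ |(-((-k : ℤ) : ℝ)) - c| / R := by gcongr
      have h6 : ((⌈c⌉ : ℝ) - 1 - k) * -(1 / R) = -(((⌈c⌉ : ℝ) - 1 - k) / R) := by ring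
      rw [h6]; linarith
    · intro n hn
      rw [Finset.mem_image] at hn
      obtain ⟨k, hk, rfl⟩ := hn
      have hk' : ¬ ⌈c⌉ ≤ k := (Finset.mem_filter.mp hk).2
      omega
  rw [hsplit]
  linarith

/-- Lemma A: lattice points in a ball. -/
theorem lattice_count (m : ℕ) (c : Fin m → ℝ) (R : ℝ) (hR : 0 ≤ R) :
    {z : Fin m → ℤ | ∑ i, ((z i : ℝ) - c i) ^ 2 ≤ m * R ^ 2}.Finite ∧
    ({z : Fin m → ℤ | ∑ i, ((z i : ℝ) - c i) ^ 2 ≤ m * R ^ 2}.ncard : ℝ) ≤ (16 * (R + 1)) ^ m := by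
  classical
  set Z : Set (Fin m → ℤ) := {z : Fin m → ℤ | ∑ i, ((z i : ℝ) - c i) ^ 2 ≤ m * R ^ 2} with hZ
  -- bounding box
  set L : ℝ := Real.sqrt (m * R ^ 2) with hL
  set t : Fin m → Finset ℤ := fun i => Finset.Icc ⌊c i - L⌋ ⌈c i + L⌉ with ht
  have hsub : Z ⊆ (Fintype.piFinset t : Set (Fin m → ℤ)) := by
    intro z hz
    rw [Finset.mem_coe, Fintype.mem_piFinset]
    intro i
    have h1 : ((z i : ℝ) - c i) ^ 2 ≤ m * R ^ 2 :=
      le_trans (Finset.single_le_sum (f := fun i => ((z i : ℝ) - c i) ^ 2)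
        (fun j _ => sq_nonneg _) (Finset.mem_univ i)) hz
    have h2 : |(z i : ℝ) - c i| ≤ L := by
      rw [hL]; exact Real.abs_le_sqrt h1
    rw [abs_le] at h2
    simp only [ht, Finset.mem_Icc]
    constructor
    · have : (⌊c i - L⌋ : ℝ) ≤ z i := le_trans (Int.floor_le _) (by linarith [h2.1])
      exact_mod_cast this
    · have : (z i : ℝ) ≤ ⌈c i + L⌉ := le_trans (by linarith [h2.2]) (Int.le_ceil _)
      exact_mod_cast this
  have hfin : Z.Finite := (Finset.finite_toSet _).subset hsub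
  refine ⟨hfin, ?_⟩
  set R' : ℝ := R + 1 with hR'
  have hR'1 : 1 ≤ R' := by linarith
  have hR'0 : 0 < R' := by linarith
  -- weight
  have hw : ∀ z ∈ Z, (1 : ℝ) ≤ Real.exp m * ∏ i, Real.exp (-(|(z i : ℝ) - c i| / R')) := by
    intro z hz
    rw [← Real.exp_sum, ← Real.exp_add]
    apply Real.one_le_exp
    have hcs : (∑ i, |(z i : ℝ) - c i|) ^ 2 ≤ (m : ℝ) * ∑ i, |(z i : ℝ) - c i| ^ 2 := by
      have := sq_sum_le_card_mul_sum_sq (s := (Finset.univ : Finset (Fin m)))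
        (f := fun i => |(z i : ℝ) - c i|)
      simpa using this
    have h1 : ∑ i, |(z i : ℝ) - c i| ^ 2 ≤ m * R ^ 2 := by
      simp only [sq_abs]; exact hz
    have hm : (0 : ℝ) ≤ m := Nat.cast_nonneg m
    have h2 : (∑ i, |(z i : ℝ) - c i|) ^ 2 ≤ (m * R) ^ 2 := by nlinarith
    have h3 : ∑ i, |(z i : ℝ) - c i| ≤ m * R := by
      apply le_of_sq_le_sq h2 |> fun h => h
      positivity
    have h4 : ∑ i, -(|(z i : ℝ) - c i| / R') = -((∑ i, |(z i : ℝ) - c i|) / R') := by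
      rw [Finset.sum_neg_distrib, Finset.sum_div]
    rw [h4]
    have h5 : (∑ i, |(z i : ℝ) - c i|) / R' ≤ m := by
      rw [div_le_iff₀ hR'0]
      nlinarith
    linarith
  have hcard : (Z.ncard : ℝ) = ∑ z ∈ hfin.toFinset, (1 : ℝ) := by
    rw [Finset.sum_const, nsmul_eq_mul, mul_one, Set.ncard_eq_toFinset_card Z hfin]
  rw [hcard]
  calc ∑ z ∈ hfin.toFinset, (1 : ℝ)
      ≤ ∑ z ∈ hfin.toFinset, Real.exp m * ∏ i, Real.exp (-(|(z i : ℝ) - c i| / R')) := by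
        apply Finset.sum_le_sum
        intro z hz
        exact hw z ((Set.Finite.mem_toFinset hfin).mp hz)
    _ ≤ ∑ z ∈ Fintype.piFinset t, Real.exp m * ∏ i, Real.exp (-(|(z i : ℝ) - c i| / R')) := by
        apply Finset.sum_le_sum_of_subset_of_nonneg
        · intro z hz
          exact hsub ((Set.Finite.mem_toFinset hfin).mp hz)
        · intros; positivity
    _ = Real.exp m * ∏ i, ∑ n ∈ t i, Real.exp (-(|(n : ℝ) - c i| / R')) := by
        rw [← Finset.mul_sum, Finset.prod_univ_sum]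
    _ ≤ Real.exp m * ∏ i : Fin m, (2 * (R' + 1)) := by
        gcongr with i _
        exact exp_sum_int (t i) (c i) R' hR'1
    _ = (Real.exp 1 * (2 * (R' + 1))) ^ m := by
        rw [Finset.prod_const, Finset.card_univ, Fintype.card_fin, mul_pow (Real.exp 1),
          ← Real.exp_nat_mul, mul_one]
    _ ≤ (16 * (R + 1)) ^ m := by
        have he : Real.exp 1 < 2.7182818286 := Real.exp_one_lt_d9
        apply pow_le_pow_left₀ (by positivity)
        nlinarith [Real.exp_pos 1]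

end Crest.Agent.StreamLB
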