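import Crest.Agent.StreamLB.Bound
set_option autoImplicit false

open MeasureTheory ProbabilityTheory
open scoped ENNReal BigOperators

namespace Crest.Agent.StreamLB

open Crest.StreamLearn (Sphere sphereUniform RLearner)

variable {d T M : ℕ}

/-- decode a stopping code -/
def decode (c : Fin (T + 2)) : Option ℕ := if c = 0 then none else some (c.val - 1)

/-- the machine attached to a learner and a seed -/
noncomputable def lstep (L : RLearner d T M) (ω : L.Ω) (t : Fin T) (v : L.St × Fin (T + 2))
    (x : Eu d) (y : ℝ) : L.St × Fin (T + 2) :=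
  if v.2 ≠ 0 then v else
    if (L.trans t ω v.1 x y).2 then ((L.trans t ω v.1 x y).1, ⟨t.val + 2, by omega⟩)
    else ((L.trans t ω v.1 x y).1, 0)

noncomputable def linit (L : RLearner d T M) (ω : L.Ω) : L.St × Fin (T + 2) :=
  (L.init ω, if L.stopFirst ω then ⟨1, by omega⟩ else 0)

noncomputable def lout (L : RLearner d T M) (ω : L.Ω) (v : L.St × Fin (T + 2)) : Eu d :=
  L.out ((decode v.2).getD T) ω v.1

theorem output_eq (L : RLearner d T M) (ω : L.Ω) (s : Eu d) (xs : Fin T → Eu d) :
    L.output ω s xs = lout L ω (rrun (lstep L ω) (linit L ω) xs fun t => inner ℝ (xs t) s) := by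
  have key : ∀ (l : List (Fin T)) (v : L.St × Fin (T + 2)),
      l.foldl (fun (st : L.St × Option ℕ) t => if st.2.isSome then st else
        if (L.trans t ω st.1 (xs t) (inner ℝ (xs t) s)).2
        then ((L.trans t ω st.1 (xs t) (inner ℝ (xs t) s)).1, some (t.val + 1))
        else ((L.trans t ω st.1 (xs t) (inner ℝ (xs t) s)).1, none)) (v.1, decode v.2) =
      ((l.foldl (fun v (t : Fin T) => lstep L ω t v (xs t) (inner ℝ (xs t) s)) v).1,
        decode (l.foldl (fun v (t : Fin T) => lstep L ω t v (xs t) (inner ℝ (xs t) s)) v).2) := by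
    intro l
    induction l with
    | nil => intro v; rfl
    | cons t l ih =>
      intro v
      rw [List.foldl_cons, List.foldl_cons, ← ih]
      congr 1
      by_cases hv : v.2 = 0
      · have h1 : decode v.2 = none := by simp [decode, hv]
        simp only [h1, Option.isSome_none, Bool.false_eq_true, if_false]
        by_cases h2 : (L.trans t ω v.1 (xs t) (inner ℝ (xs t) s)).2 = true
        · simp only [lstep, hv, ne_eq, not_true_eq_false, if_false, h2, if_true]
          simp only [decode]
          rw [if_neg]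
          · simp
          · intro h; have := congrArg Fin.val h; simp at this
        · simp only [lstep, hv, ne_eq, not_true_eq_false, if_false, h2]
          simp [decode]
      · have h1 : (decode v.2).isSome = true := by simp [decode, hv]
        simp only [h1, if_true, lstep, ne_eq, hv, not_false_eq_true]
  have hinit : (L.init ω, if L.stopFirst ω then some 0 else none) =
      ((linit L ω).1, decode (linit L ω).2) := by
    unfold linit
    by_cases h : L.stopFirst ω = true
    · simp only [h, if_true, decode]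
      rw [if_neg]
      intro h'; have := congrArg Fin.val h'; simp at this
    · simp [h, decode]
  unfold RLearner.output RLearner.run lout rrun
  rw [hinit, key]

theorem lstep_meas (L : RLearner d T M) (ω : L.Ω) (t : Fin T) (v v' : L.St × Fin (T + 2)) :
    MeasurableSet {p : Eu d × ℝ | lstep L ω t v p.1 p.2 = v'} := by
  letI := L.mΩ
  have hm : Measurable fun p : Eu d × ℝ => (ω, p) := measurable_const.prodMk measurable_id
  have h1 : ∀ q : L.St, MeasurableSet {p : Eu d × ℝ | (L.trans t ω v.1 p.1 p.2).1 = q} := by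
    intro q
    have := (L.trans_measurable t v.1).1
    have h2 : MeasurableSet {p : L.Ω × (Eu d × ℝ) | (L.trans t p.1 v.1 p.2.1 p.2.2).1 = q} :=
      @this {q} trivial
    exact hm h2
  have h2 : ∀ b : Bool, MeasurableSet {p : Eu d × ℝ | (L.trans t ω v.1 p.1 p.2).2 = b} := by
    intro b
    have := (L.trans_measurable t v.1).2
    have h2 : MeasurableSet {p : L.Ω × (Eu d × ℝ) | (L.trans t p.1 v.1 p.2.1 p.2.2).2 = b} :=
      this (measurableSet_singleton b)
    exact hm h2
  by_cases hv : v.2 ≠ 0
  · have : {p : Eu d × ℝ | lstep L ω t v p.1 p.2 = v'} = {_p | v = v'} := by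
      ext p; simp [lstep, hv]
    rw [this]
    by_cases hvv : v = v'
    · simp [hvv]
    · simp [hvv]
  · have : {p : Eu d × ℝ | lstep L ω t v p.1 p.2 = v'} =
        ({p : Eu d × ℝ | (L.trans t ω v.1 p.1 p.2).1 = v'.1} ∩
          {p | (L.trans t ω v.1 p.1 p.2).2 = true} ∩ {_p | (⟨t.val + 2, by omega⟩ : Fin (T + 2)) = v'.2}) ∪
        ({p : Eu d × ℝ | (L.trans t ω v.1 p.1 p.2).1 = v'.1} ∩
          {p | (L.trans t ω v.1 p.1 p.2).2 = false} ∩ {_p | (0 : Fin (T + 2)) = v'.2}) := by
      ext p
      simp only [lstep, hv, if_false, Set.mem_ofPred_eq, Set.mem_union, Set.mem_inter_iff]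
      by_cases hb : (L.trans t ω v.1 p.1 p.2).2 = true
      · simp [hb, Prod.ext_iff]
      · have hb' : (L.trans t ω v.1 p.1 p.2).2 = false := by simpa using hb
        simp [hb', Prod.ext_iff]
    rw [this]
    refine (((h1 _).inter (h2 _)).inter ?_).union (((h1 _).inter (h2 _)).inter ?_)
    · by_cases h : (⟨t.val + 2, by omega⟩ : Fin (T + 2)) = v'.2
      · simp [h]
      · simp [h]
    · by_cases h : (0 : Fin (T + 2)) = v'.2
      · simp [h]
      · simp [h]

/-- joint discrete measurability of the run -/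
theorem lrun_meas (L : RLearner d T M) (l : List (Fin T)) :
    letI := L.mΩ
    ∀ (r : Sphere d × (L.Ω × (Fin T → Eu d)) → L.St × Fin (T + 2)),
      (∀ c, MeasurableSet {p | r p = c}) →
      ∀ c, MeasurableSet {p | l.foldl (fun v (t : Fin T) => lstep L p.2.1 t v (p.2.2 t)
        (inner ℝ (p.2.2 t) (p.1 : Eu d))) (r p) = c} := by
  letI := L.mΩ
  letI := L.fin
  have hcount : Countable (L.St × Fin (T + 2)) := inferInstance
  induction l with
  | nil => intro r hr c; exact hr c
  | cons t l ih =>
    intro r hr c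
    apply ih (fun p => lstep L p.2.1 t (r p) (p.2.2 t) (inner ℝ (p.2.2 t) (p.1 : Eu d)))
    intro c'
    have : {p : Sphere d × (L.Ω × (Fin T → Eu d)) | lstep L p.2.1 t (r p) (p.2.2 t)
        (inner ℝ (p.2.2 t) (p.1 : Eu d)) = c'} = ⋃ c1 : L.St × Fin (T + 2), {p | r p = c1} ∩
        {p | lstep L p.2.1 t c1 (p.2.2 t) (inner ℝ (p.2.2 t) (p.1 : Eu d)) = c'} := by
      ext p
      simp only [Set.mem_ofPred_eq, Set.mem_iUnion, Set.mem_inter_iff]
      constructor
      · intro h; exact ⟨_, rfl, h⟩
      · rintro ⟨c1, rfl, h⟩; exact h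
    rw [this]
    refine MeasurableSet.iUnion fun c1 => (hr c1).inter ?_
    have hm : Measurable fun p : Sphere d × (L.Ω × (Fin T → Eu d)) =>
        (p.2.1, (p.2.2 t, (inner ℝ (p.2.2 t) (p.1 : Eu d) : ℝ))) := by
      have hx : Measurable fun p : Sphere d × (L.Ω × (Fin T → Eu d)) => p.2.2 t :=
        (measurable_pi_apply t).comp (measurable_snd.comp measurable_snd)
      have hs : Measurable fun p : Sphere d × (L.Ω × (Fin T → Eu d)) => (p.1 : Eu d) :=
        measurable_subtype_coe.comp measurable_fst
      exact (measurable_fst.comp measurable_snd).prodMk (hx.prodMk (hx.inner hs))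
    have h1 : ∀ q : L.St, MeasurableSet {p : L.Ω × (Eu d × ℝ) |
        (L.trans t p.1 c1.1 p.2.1 p.2.2).1 = q} := by
      intro q
      have := (L.trans_measurable t c1.1).1
      exact @this {q} trivial
    have h2 : ∀ b : Bool, MeasurableSet {p : L.Ω × (Eu d × ℝ) |
        (L.trans t p.1 c1.1 p.2.1 p.2.2).2 = b} := by
      intro b
      exact (L.trans_measurable t c1.1).2 (measurableSet_singleton b)
    have hset : MeasurableSet {p : L.Ω × (Eu d × ℝ) | lstep L p.1 t c1 p.2.1 p.2.2 = c'} := by
      by_cases hv : c1.2 ≠ 0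
      · have : {p : L.Ω × (Eu d × ℝ) | lstep L p.1 t c1 p.2.1 p.2.2 = c'} = {_p | c1 = c'} := by
          ext p; simp [lstep, hv]
        rw [this]
        by_cases hvv : c1 = c'
        · simp [hvv]
        · simp [hvv]
      · have : {p : L.Ω × (Eu d × ℝ) | lstep L p.1 t c1 p.2.1 p.2.2 = c'} =
            ({p | (L.trans t p.1 c1.1 p.2.1 p.2.2).1 = c'.1} ∩
              {p | (L.trans t p.1 c1.1 p.2.1 p.2.2).2 = true} ∩
              {_p | (⟨t.val + 2, by omega⟩ : Fin (T + 2)) = c'.2}) ∪
            ({p | (L.trans t p.1 c1.1 p.2.1 p.2.2).1 = c'.1} ∩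
              {p | (L.trans t p.1 c1.1 p.2.1 p.2.2).2 = false} ∩ {_p | (0 : Fin (T + 2)) = c'.2}) := by
          ext p
          simp only [lstep, hv, if_false, Set.mem_ofPred_eq, Set.mem_union, Set.mem_inter_iff]
          by_cases hb : (L.trans t p.1 c1.1 p.2.1 p.2.2).2 = true
          · simp [hb, Prod.ext_iff]
          · have hb' : (L.trans t p.1 c1.1 p.2.1 p.2.2).2 = false := by simpa using hb
            simp [hb', Prod.ext_iff]
        rw [this]
        refine (((h1 _).inter (h2 _)).inter ?_).union (((h1 _).inter (h2 _)).inter ?_)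
        · by_cases h : (⟨t.val + 2, by omega⟩ : Fin (T + 2)) = c'.2
          · simp [h]
          · simp [h]
        · by_cases h : (0 : Fin (T + 2)) = c'.2
          · simp [h]
          · simp [h]
    exact hm hset

/-- the success set -/
def succSet (L : RLearner d T M) (ε : ℝ) : Set (Sphere d × (L.Ω × (Fin T → Eu d))) :=
  {p | Real.arccos (inner ℝ (L.output p.2.1 p.1 p.2.2) (p.1 : Eu d)) ≤ ε}

theorem succSet_meas (L : RLearner d T M) (ε : ℝ) :
    letI := L.mΩ
    MeasurableSet (succSet L ε) := by
  letI := L.mΩ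
  letI := L.fin
  have hcount : Countable (L.St × Fin (T + 2)) := inferInstance
  have hinit : ∀ c, MeasurableSet {p : Sphere d × (L.Ω × (Fin T → Eu d)) | linit L p.2.1 = c} := by
    intro c
    have h1 : MeasurableSet {ω : L.Ω | L.init ω = c.1} := @L.init_measurable {c.1} trivial
    have h2 : ∀ b : Bool, MeasurableSet {ω : L.Ω | L.stopFirst ω = b} := fun b =>
      L.stopFirst_measurable (measurableSet_singleton b)
    have h3 : {ω : L.Ω | linit L ω = c} =
        ({ω | L.init ω = c.1} ∩ {ω | L.stopFirst ω = true} ∩ {_ω | (⟨1, by omega⟩ : Fin (T + 2)) = c.2}) ∪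
        ({ω | L.init ω = c.1} ∩ {ω | L.stopFirst ω = false} ∩ {_ω | (0 : Fin (T + 2)) = c.2}) := by
      ext ω
      simp only [linit, Set.mem_ofPred_eq, Set.mem_union, Set.mem_inter_iff]
      by_cases hb : L.stopFirst ω = true
      · simp [hb, Prod.ext_iff]
      · have hb' : L.stopFirst ω = false := by simpa using hb
        simp [hb', Prod.ext_iff]
    have h4 : MeasurableSet {ω : L.Ω | linit L ω = c} := by
      rw [h3]
      refine ((h1.inter (h2 _)).inter ?_).union ((h1.inter (h2 _)).inter ?_)
      · by_cases h : (⟨1, by omega⟩ : Fin (T + 2)) = c.2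
        · simp [h]
        · simp [h]
      · by_cases h : (0 : Fin (T + 2)) = c.2
        · simp [h]
        · simp [h]
    exact (measurable_fst.comp measurable_snd) h4
  have hrun := lrun_meas L (List.finRange T) (fun p => linit L p.2.1) hinit
  have : succSet L ε = ⋃ c : L.St × Fin (T + 2),
      {p : Sphere d × (L.Ω × (Fin T → Eu d)) | (List.finRange T).foldl
        (fun v (t : Fin T) => lstep L p.2.1 t v (p.2.2 t) (inner ℝ (p.2.2 t) (p.1 : Eu d)))
        (linit L p.2.1) = c} ∩
      {p | Real.arccos (inner ℝ (lout L p.2.1 c) (p.1 : Eu d)) ≤ ε} := by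
    ext p
    simp only [succSet, Set.mem_ofPred_eq, Set.mem_iUnion, Set.mem_inter_iff]
    rw [output_eq]
    constructor
    · intro h; exact ⟨_, rfl, h⟩
    · rintro ⟨c1, rfl, h⟩; exact h
  rw [this]
  refine MeasurableSet.iUnion fun c => (hrun c).inter ?_
  have hs : Measurable fun p : Sphere d × (L.Ω × (Fin T → Eu d)) => (p.1 : Eu d) :=
    measurable_subtype_coe.comp measurable_fst
  have ho : Measurable fun p : Sphere d × (L.Ω × (Fin T → Eu d)) => lout L p.2.1 c :=
    (L.out_measurable _ c.1).comp (measurable_fst.comp measurable_snd)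
  exact measurableSet_le (Real.measurable_arccos.comp (ho.inner hs)) measurable_const

/-- Fubini: a bound uniform in the seed bounds the success probability. -/
theorem successProb_le (hd : 1 ≤ d) (L : RLearner d T M) (ε : ℝ) (c : ℝ≥0∞) (hc : c ≠ ⊤)
    (h : ∀ ω : L.Ω, ∫⁻ s, (gamB d T) {xs | Real.arccos (inner ℝ (L.output ω s xs) (s : Eu d)) ≤ ε}
      ∂(sphereUniform d) ≤ c) : L.successProb ε ≤ c.toReal := by
  letI := L.mΩ
  have hp1 := L.prob
  have hp2 := sphereUniform_isProb d hd
  have hS := succSet_meas L ε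
  unfold RLearner.successProb
  have e0 : {p : Sphere d × (L.Ω × (Fin T → Eu d)) |
      Real.arccos (inner ℝ (L.output p.2.1 p.1 p.2.2) (p.1 : Eu d)) ≤ ε} = succSet L ε := rfl
  have hmain : ((sphereUniform d).prod (L.ρ.prod
      (Measure.pi fun _ : Fin T => stdGaussian (Eu d)))) (succSet L ε) ≤ c := by
    rw [Measure.prod_apply hS]
    have hS2 : ∀ s : Sphere d, MeasurableSet (Prod.mk s ⁻¹' succSet L ε) := fun s =>
      measurable_prodMk_left hS
    have e1 : ∀ s : Sphere d, (L.ρ.prod (Measure.pi fun _ : Fin T => stdGaussian (Eu d)))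
        (Prod.mk s ⁻¹' succSet L ε) = ∫⁻ ω, (gamB d T)
          {xs | Real.arccos (inner ℝ (L.output ω s xs) (s : Eu d)) ≤ ε} ∂L.ρ := by
      intro s
      rw [Measure.prod_apply (hS2 s)]
      rfl
    simp_rw [e1]
    have hassoc : MeasurableSet {p : (Sphere d × L.Ω) × (Fin T → Eu d) |
        (p.1.1, (p.1.2, p.2)) ∈ succSet L ε} := by
      have hm : Measurable fun p : (Sphere d × L.Ω) × (Fin T → Eu d) => (p.1.1, (p.1.2, p.2)) := by
        fun_prop
      exact hm hS
    have hmeas : Measurable fun p : Sphere d × L.Ω => (gamB d T)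
        {xs | Real.arccos (inner ℝ (L.output p.2 p.1 xs) (p.1 : Eu d)) ≤ ε} :=
      measurable_measure_prodMk_left hassoc
    rw [lintegral_lintegral_swap hmeas.aemeasurable]
    calc _ ≤ ∫⁻ _ : L.Ω, c ∂L.ρ := lintegral_mono fun ω => h ω
      _ = c := by rw [lintegral_const, measure_univ, mul_one]
  rw [e0]
  exact ENNReal.toReal_mono hc hmain

end Crest.Agent.StreamLB
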