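import Crest.Agent.StreamLB.Defs
set_option autoImplicit false

open MeasureTheory ProbabilityTheory
open scoped ENNReal BigOperators Pointwise

namespace Crest.Agent.StreamLB

open Crest.StreamLearn (Sphere sphereUniform)

theorem toSphere_univ_ne_zero (d : ℕ) (hd : 1 ≤ d) :
    (volume : Measure (Eu d)).toSphere Set.univ ≠ 0 := by
  have : Nontrivial (Eu d) := by
    have : 0 < Module.finrank ℝ (Eu d) := by simp; omega
    exact Module.nontrivial_of_finrank_pos this
  intro h
  exact Measure.toSphere_ne_zero (volume : Measure (Eu d)) (Measure.measure_univ_eq_zero.mp h)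

/-- Lemma D1 -/
theorem sphereUniform_isProb (d : ℕ) (hd : 1 ≤ d) : IsProbabilityMeasure (sphereUniform d) := by
  constructor
  unfold Crest.StreamLearn.sphereUniform
  rw [Measure.smul_apply, smul_eq_mul]
  exact ENNReal.inv_mul_cancel (toSphere_univ_ne_zero d hd) (measure_ne_top _ _)

/-- Lemma D2: cap bound. -/
theorem sphereUniform_cap (d : ℕ) (hd : 1 ≤ d) (a : Eu d) (ha : ‖a‖ = 1) (r : ℝ) (hr : 0 < r) :
    sphereUniform d {s | ‖(s : Eu d) - a‖ ≤ r} ≤
      ENNReal.ofReal ((1 / r + 1) * (2 * r) ^ d) := by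
  have hA : MeasurableSet {s : Sphere d | ‖(s : Eu d) - a‖ ≤ r} := by
    have : Continuous fun s : Sphere d => ‖(s : Eu d) - a‖ := by fun_prop
    exact measurableSet_le this.measurable measurable_const
  set A := {s : Sphere d | ‖(s : Eu d) - a‖ ≤ r} with hAdef
  set L := ⌈1 / r⌉₊ with hL
  have hcov : Set.Ioo (0 : ℝ) 1 • ((↑) '' A : Set (Eu d)) ⊆
      ⋃ l ∈ Finset.range L, Metric.closedBall ((l * r : ℝ) • a) (2 * r) := by
    rintro x ⟨t, ht, y, ⟨s, hs, rfl⟩, rfl⟩
    set l := ⌊t / r⌋₊ with hl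
    have ht0 : 0 ≤ t / r := by have := ht.1; positivity
    have h1 : (l : ℝ) ≤ t / r := Nat.floor_le ht0
    have h2 : t / r < l + 1 := Nat.lt_floor_add_one _
    have hlL : l < L := by
      have : (l : ℝ) < L := by
        calc (l : ℝ) ≤ t / r := h1
          _ < 1 / r := by gcongr; exact ht.2
          _ ≤ L := Nat.le_ceil _
      exact_mod_cast this
    refine Set.mem_iUnion₂.mpr ⟨l, Finset.mem_range.mpr hlL, ?_⟩
    rw [Metric.mem_closedBall, dist_eq_norm]
    have h3 : |t - l * r| ≤ r := by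
      rw [le_div_iff₀ hr] at h1
      rw [div_lt_iff₀ hr] at h2
      rw [abs_le]; constructor <;> nlinarith
    calc ‖t • (s : Eu d) - (l * r : ℝ) • a‖ = ‖t • ((s : Eu d) - a) + (t - l * r) • a‖ := by
          congr 1; module
      _ ≤ ‖t • ((s : Eu d) - a)‖ + ‖(t - l * r) • a‖ := norm_add_le _ _
      _ = |t| * ‖(s : Eu d) - a‖ + |t - l * r| * ‖a‖ := by rw [norm_smul, norm_smul]; rfl
      _ ≤ 1 * r + r * 1 := by
          have : |t| ≤ 1 := by rw [abs_of_pos ht.1]; exact ht.2.le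
          have hs' : ‖(s : Eu d) - a‖ ≤ r := hs
          rw [ha]
          gcongr
      _ = 2 * r := by ring
  have hball : ∀ c : Eu d, (volume : Measure (Eu d)) (Metric.closedBall c (2 * r)) =
      ENNReal.ofReal ((2 * r) ^ d) * (volume : Measure (Eu d)) (Metric.ball 0 1) := by
    intro c
    rw [Measure.addHaar_closedBall _ c (by positivity)]
    simp
  have hne : Nonempty (Fin d) := ⟨⟨0, by omega⟩⟩
  have hv0 : (volume : Measure (Eu d)) (Metric.ball 0 1) ≠ 0 :=
    (Metric.measure_ball_pos _ _ one_pos).ne'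
  have hvt : (volume : Measure (Eu d)) (Metric.ball 0 1) ≠ ⊤ := measure_ball_lt_top.ne
  have hd0 : (d : ℝ≥0∞) ≠ 0 := by
    simp; omega
  unfold Crest.StreamLearn.sphereUniform
  rw [Measure.smul_apply, smul_eq_mul, Measure.toSphere_apply_univ, Measure.toSphere_apply' _ hA]
  have hfr : (Module.finrank ℝ (Eu d) : ℝ≥0∞) = d := by simp
  rw [hfr]
  set v := (volume : Measure (Eu d)) (Metric.ball 0 1) with hv
  have hvol : (volume : Measure (Eu d)) (Set.Ioo (0 : ℝ) 1 • ((↑) '' A : Set (Eu d))) ≤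
      L * (ENNReal.ofReal ((2 * r) ^ d) * v) := by
    calc _ ≤ (volume : Measure (Eu d)) (⋃ l ∈ Finset.range L,
          Metric.closedBall ((l * r : ℝ) • a) (2 * r)) := measure_mono hcov
      _ ≤ ∑ l ∈ Finset.range L, (volume : Measure (Eu d))
          (Metric.closedBall ((l * r : ℝ) • a) (2 * r)) := measure_biUnion_finset_le _ _
      _ = ∑ l ∈ Finset.range L, (ENNReal.ofReal ((2 * r) ^ d) * v) := by
          apply Finset.sum_congr rfl; intro l _; exact hball _
      _ = L * (ENNReal.ofReal ((2 * r) ^ d) * v) := by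
          rw [Finset.sum_const, Finset.card_range, nsmul_eq_mul]
  calc (↑d * v)⁻¹ * (↑d * (volume : Measure (Eu d)) (Set.Ioo (0 : ℝ) 1 • ((↑) '' A : Set (Eu d))))
      ≤ (↑d * v)⁻¹ * (↑d * (L * (ENNReal.ofReal ((2 * r) ^ d) * v))) := by gcongr
    _ = ((↑d * v)⁻¹ * (↑d * v)) * (L * ENNReal.ofReal ((2 * r) ^ d)) := by ring
    _ = L * ENNReal.ofReal ((2 * r) ^ d) := by
        rw [ENNReal.inv_mul_cancel (mul_ne_zero hd0 hv0) (ENNReal.mul_ne_top (by simp) hvt), one_mul]
    _ = ENNReal.ofReal (L * (2 * r) ^ d) := by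
        rw [ENNReal.ofReal_mul (by positivity), ENNReal.ofReal_natCast]
    _ ≤ ENNReal.ofReal ((1 / r + 1) * (2 * r) ^ d) := by
        apply ENNReal.ofReal_le_ofReal
        gcongr
        exact (Nat.ceil_lt_add_one (by positivity)).le

/-- the action of a linear isometry on the sphere -/
noncomputable def sphMap {d : ℕ} (R : Eu d ≃ₗᵢ[ℝ] Eu d) (s : Sphere d) : Sphere d :=
  ⟨R s, by simp⟩

theorem measurable_sphMap {d : ℕ} (R : Eu d ≃ₗᵢ[ℝ] Eu d) : Measurable (sphMap R) := by
  apply Measurable.subtype_mk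
  have : Continuous fun s : Sphere d => R (s : Eu d) := by fun_prop
  exact this.measurable

/-- Lemma D3: invariance under linear isometries. -/
theorem sphereUniform_isometry (d : ℕ) (R : Eu d ≃ₗᵢ[ℝ] Eu d) :
    (sphereUniform d).map (sphMap R) = sphereUniform d := by
  ext A hA
  rw [Measure.map_apply (measurable_sphMap R) hA]
  unfold Crest.StreamLearn.sphereUniform
  rw [Measure.smul_apply, Measure.smul_apply, Measure.toSphere_apply' _ hA,
    Measure.toSphere_apply' _ (measurable_sphMap R hA)]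
  congr 2
  have : Set.Ioo (0 : ℝ) 1 • ((↑) '' (sphMap R ⁻¹' A) : Set (Eu d)) =
      R ⁻¹' (Set.Ioo (0 : ℝ) 1 • ((↑) '' A : Set (Eu d))) := by
    ext x
    constructor
    · rintro ⟨t, ht, y, ⟨s, hs, rfl⟩, rfl⟩
      exact ⟨t, ht, R s, ⟨sphMap R s, hs, rfl⟩, by simp⟩
    · rintro ⟨t, ht, y, ⟨s, hs, rfl⟩, hx⟩
      refine ⟨t, ht, R.symm s, ⟨⟨R.symm s, by simp⟩, ?_, rfl⟩, ?_⟩
      · simp only [Set.mem_preimage, sphMap]
        convert hs
        simp
      · apply R.injective
        simp only [map_smul, LinearIsometryEquiv.apply_symm_apply]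
        exact hx
  rw [this]
  have hmp := R.measurePreserving
  have hm : MeasurableSet (Set.Ioo (0 : ℝ) 1 • ((↑) '' A : Set (Eu d))) ∨ True := Or.inr trivial
  exact hmp.measure_preimage_equiv (f := R.toHomeomorph.toMeasurableEquiv) _

theorem lintegral_sphMap {d : ℕ} (R : Eu d ≃ₗᵢ[ℝ] Eu d) (f : Sphere d → ℝ≥0∞) (hf : Measurable f) :
    ∫⁻ s, f (sphMap R s) ∂(sphereUniform d) = ∫⁻ s, f s ∂(sphereUniform d) := by
  conv_rhs => rw [← sphereUniform_isometry d R]
  rw [lintegral_map hf (measurable_sphMap R)]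

theorem measurable_sq_inner {d : ℕ} (b : Eu d) :
    Measurable fun s : Sphere d => ENNReal.ofReal ((inner ℝ b (s : Eu d) : ℝ) ^ 2) := by
  have : Continuous fun s : Sphere d => (inner ℝ b (s : Eu d) : ℝ) ^ 2 := by fun_prop
  exact this.measurable.ennreal_ofReal

theorem second_moment_eq {d : ℕ} (b b' : Eu d) (hb : ‖b‖ = 1) (hb' : ‖b'‖ = 1) :
    ∫⁻ s, ENNReal.ofReal ((inner ℝ b (s : Eu d) : ℝ) ^ 2) ∂(sphereUniform d) =
      ∫⁻ s, ENNReal.ofReal ((inner ℝ b' (s : Eu d) : ℝ) ^ 2) ∂(sphereUniform d) := by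
  set R := (Submodule.span ℝ {b - b'})ᗮ.reflection with hR
  have hRb : R b = b' := Submodule.reflection_sub (by rw [hb, hb'])
  rw [← lintegral_sphMap R _ (measurable_sq_inner b')]
  apply lintegral_congr
  intro s
  have : (inner ℝ b' (sphMap R s : Eu d) : ℝ) = inner ℝ b (s : Eu d) := by
    rw [← hRb]
    exact R.inner_map_map b s
  rw [this]

theorem second_moment {d : ℕ} (hd : 1 ≤ d) (b : Eu d) (hb : ‖b‖ = 1) :
    ∫⁻ s, ENNReal.ofReal ((inner ℝ b (s : Eu d) : ℝ) ^ 2) ∂(sphereUniform d) = (d : ℝ≥0∞)⁻¹ := by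
  have := sphereUniform_isProb d hd
  set c := ∫⁻ s, ENNReal.ofReal ((inner ℝ b (s : Eu d) : ℝ) ^ 2) ∂(sphereUniform d) with hc
  set e := EuclideanSpace.basisFun (Fin d) ℝ with he
  have h1 : ∑ i : Fin d, ∫⁻ s, ENNReal.ofReal ((inner ℝ (e i) (s : Eu d) : ℝ) ^ 2)
      ∂(sphereUniform d) = 1 := by
    rw [← lintegral_finsetSum _ (fun i _ => measurable_sq_inner (e i))]
    have : ∀ s : Sphere d, ∑ i, ENNReal.ofReal ((inner ℝ (e i) (s : Eu d) : ℝ) ^ 2) = 1 := by
      intro s
      rw [← ENNReal.ofReal_sum_of_nonneg (fun _ _ => sq_nonneg _)]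
      have h2 := e.sum_sq_norm_inner_right (s : Eu d)
      have h3 : ‖(s : Eu d)‖ = 1 := by simp
      simp only [Real.norm_eq_abs, sq_abs] at h2
      rw [h2, h3]; simp
    simp_rw [this]; simp
  have h2 : ∀ i : Fin d, ∫⁻ s, ENNReal.ofReal ((inner ℝ (e i) (s : Eu d) : ℝ) ^ 2)
      ∂(sphereUniform d) = c := fun i => second_moment_eq (e i) b (e.norm_eq_one i) hb
  simp_rw [h2] at h1
  rw [Finset.sum_const, Finset.card_univ, Fintype.card_fin, nsmul_eq_mul] at h1
  exact ENNReal.eq_inv_of_mul_eq_one_left (by rw [mul_comm]; exact h1)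

/-- Lemma D4: second moment of the projection onto a subspace. -/
theorem sphereUniform_proj (d : ℕ) (hd : 1 ≤ d) (W : Submodule ℝ (Eu d)) :
    ∫⁻ s, ENNReal.ofReal (‖W.starProjection (s : Eu d)‖ ^ 2) ∂(sphereUniform d) =
      (Module.finrank ℝ W : ℝ≥0∞) / d := by
  set b := stdOrthonormalBasis ℝ W with hb
  have h1 : ∀ s : Sphere d, ENNReal.ofReal (‖W.starProjection (s : Eu d)‖ ^ 2) =
      ∑ l, ENNReal.ofReal ((inner ℝ (b l : Eu d) (s : Eu d) : ℝ) ^ 2) := by
    intro s
    rw [← ENNReal.ofReal_sum_of_nonneg (fun _ _ => sq_nonneg _)]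
    congr 1
    have h1 := b.sum_sq_norm_inner_right (W.orthogonalProjectionOnto (s : Eu d))
    have h2 : ‖W.starProjection (s : Eu d)‖ = ‖W.orthogonalProjectionOnto (s : Eu d)‖ := rfl
    rw [h2, ← h1]
    apply Finset.sum_congr rfl
    intro l _
    rw [Real.norm_eq_abs, sq_abs]
    simp
  simp_rw [h1]
  rw [lintegral_finsetSum _ (fun l _ => measurable_sq_inner (b l : Eu d))]
  have h2 : ∀ l, ∫⁻ s, ENNReal.ofReal ((inner ℝ (b l : Eu d) (s : Eu d) : ℝ) ^ 2)
      ∂(sphereUniform d) = (d : ℝ≥0∞)⁻¹ := by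
    intro l
    apply second_moment hd
    exact b.norm_eq_one l
  simp_rw [h2]
  rw [Finset.sum_const, Finset.card_univ, Fintype.card_fin, nsmul_eq_mul, div_eq_mul_inv]

theorem norm_sub_le_of_arccos {d : ℕ} (o s : Eu d) (ho : ‖o‖ = 1) (hs : ‖s‖ = 1) (ε : ℝ)
    (hε : 0 ≤ ε) (hε1 : ε ≤ 1 / 10) (h : Real.arccos (inner ℝ o s) ≤ ε) : ‖s - o‖ ≤ ε := by
  have h1 : (inner ℝ o s : ℝ) ≤ 1 := by
    have := real_inner_le_norm o s
    rw [ho, hs] at this; simpa using this
  have h2 : -1 ≤ (inner ℝ o s : ℝ) := by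
    have := abs_real_inner_le_norm o s
    rw [ho, hs, mul_one, abs_le] at this; exact this.1
  have h3 : Real.cos ε ≤ inner ℝ o s := by
    rw [← Real.cos_arccos h2 h1]
    apply Real.cos_le_cos_of_nonneg_of_le_pi (Real.arccos_nonneg _) _ h
    linarith [Real.pi_gt_three]
  have h4 := Real.one_sub_sq_div_two_le_cos (x := ε)
  have h5 : ‖s - o‖ ^ 2 ≤ ε ^ 2 := by
    rw [@norm_sub_sq_real, hs, ho, real_inner_comm]
    nlinarith
  exact (pow_le_pow_iff_left₀ (norm_nonneg _) hε (by norm_num)).mp h5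

/-- Lemma F (few samples): for fixed samples `xs`, an output depending only on the measurements
errs with constant probability (reflect `s` in the span of `xs`). -/
theorem few_samples {d T : ℕ} (hd : 1 ≤ d) (xs : Fin T → Eu d) (O : (Fin T → ℝ) → Eu d)
    (hO : ∀ y, ‖O y‖ = 1) (ε : ℝ) (hε : 0 < ε) (hε1 : ε ≤ 1 / 10) (hT : (T : ℝ) ≤ 3 / 10 * d)
    (hmeas : MeasurableSet {s : Sphere d |
      Real.arccos (inner ℝ (O (fun t => inner ℝ (xs t) (s : Eu d))) (s : Eu d)) ≤ ε}) :
    sphereUniform d {s |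
      Real.arccos (inner ℝ (O (fun t => inner ℝ (xs t) (s : Eu d))) (s : Eu d)) ≤ ε} ≤
      ENNReal.ofReal (66 / 100) := by
  have := sphereUniform_isProb d hd
  set A := {s : Sphere d |
      Real.arccos (inner ℝ (O (fun t => inner ℝ (xs t) (s : Eu d))) (s : Eu d)) ≤ ε} with hA
  set W := Submodule.span ℝ (Set.range xs) with hW
  set R := W.reflection with hR
  have hRA : sphereUniform d (sphMap R ⁻¹' A) = sphereUniform d A := by
    conv_rhs => rw [← sphereUniform_isometry d R]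
    rw [Measure.map_apply (measurable_sphMap R) hmeas]
  have hRm : MeasurableSet (sphMap R ⁻¹' A) := measurable_sphMap R hmeas
  have hy : ∀ s : Sphere d, (fun t => (inner ℝ (xs t) (sphMap R s : Eu d) : ℝ)) =
      fun t => inner ℝ (xs t) (s : Eu d) := by
    intro s
    funext t
    have h1 : R (xs t) = xs t :=
      Submodule.reflection_mem_subspace_eq_self (Submodule.subset_span (Set.mem_range_self t))
    calc (inner ℝ (xs t) (sphMap R s : Eu d) : ℝ) = inner ℝ (R (xs t)) (R (s : Eu d)) := by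
          rw [h1]; rfl
      _ = _ := R.inner_map_map _ _
  have hinter : A ∩ (sphMap R ⁻¹' A) ⊆ {s | ENNReal.ofReal (99 / 100) ≤
      ENNReal.ofReal (‖W.starProjection (s : Eu d)‖ ^ 2)} := by
    rintro s ⟨hs1, hs2⟩
    simp only [hA, Set.mem_preimage, Set.mem_ofPred_eq] at hs1 hs2 ⊢
    rw [hy] at hs2
    have hsn : ‖(s : Eu d)‖ = 1 := by simp
    have hsn' : ‖(sphMap R s : Eu d)‖ = 1 := by simp
    have n1 := norm_sub_le_of_arccos _ _ (hO _) hsn ε hε.le hε1 hs1
    have n2 := norm_sub_le_of_arccos _ _ (hO _) hsn' ε hε.le hε1 hs2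
    have n3 : ‖(s : Eu d) - R (s : Eu d)‖ ≤ 2 * ε := by
      set o := O (fun t => inner ℝ (xs t) (s : Eu d)) with ho
      have : (s : Eu d) - R (s : Eu d) = ((s : Eu d) - o) - (R (s : Eu d) - o) := by abel
      rw [this]
      calc _ ≤ ‖(s : Eu d) - o‖ + ‖R (s : Eu d) - o‖ := norm_sub_le _ _
        _ ≤ ε + ε := add_le_add n1 n2
        _ = 2 * ε := by ring
    have n4 : (s : Eu d) - R (s : Eu d) = (2 : ℝ) • Wᗮ.starProjection (s : Eu d) := by
      rw [hR, Submodule.reflection_apply]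
      have : Wᗮ.starProjection (s : Eu d) = s - W.starProjection (s : Eu d) := by
        rw [Submodule.starProjection_orthogonal_val]
      rw [this]
      module
    rw [n4, norm_smul] at n3
    have n5 : ‖Wᗮ.starProjection (s : Eu d)‖ ≤ ε := by
      have : ‖(2 : ℝ)‖ = 2 := by simp
      rw [this] at n3; linarith
    have n6 := W.norm_sq_eq_add_norm_sq_starProjection (s : Eu d)
    apply ENNReal.ofReal_le_ofReal
    rw [hsn] at n6
    have : ‖Wᗮ.starProjection (s : Eu d)‖ ^ 2 ≤ (1 / 10) ^ 2 :=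
      pow_le_pow_left₀ (norm_nonneg _) (n5.trans hε1) 2
    nlinarith
  have hdpos : (0 : ℝ) < d := by exact_mod_cast hd
  have hmark : sphereUniform d (A ∩ (sphMap R ⁻¹' A)) ≤ ENNReal.ofReal (31 / 100) := by
    have hPm : Measurable fun s : Sphere d => ENNReal.ofReal (‖W.starProjection (s : Eu d)‖ ^ 2) := by
      have : Continuous fun s : Sphere d => ‖W.starProjection (s : Eu d)‖ ^ 2 := by fun_prop
      exact this.measurable.ennreal_ofReal
    have h1 := mul_meas_ge_le_lintegral (μ := sphereUniform d) hPm (ENNReal.ofReal (99 / 100))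
    rw [sphereUniform_proj d hd W] at h1
    have hfr : Module.finrank ℝ W ≤ T := by
      have := finrank_range_le_card (R := ℝ) xs
      simpa [Set.finrank] using this
    have h2 : ENNReal.ofReal (99 / 100) * sphereUniform d (A ∩ (sphMap R ⁻¹' A)) ≤
        ENNReal.ofReal (3 / 10) := by
      calc _ ≤ ENNReal.ofReal (99 / 100) * sphereUniform d {s | ENNReal.ofReal (99 / 100) ≤
              ENNReal.ofReal (‖W.starProjection (s : Eu d)‖ ^ 2)} := by gcongr
        _ ≤ _ := h1
        _ ≤ (T : ℝ≥0∞) / d := by gcongr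
        _ = ENNReal.ofReal (T / d) := by
            rw [ENNReal.ofReal_div_of_pos hdpos, ENNReal.ofReal_natCast, ENNReal.ofReal_natCast]
        _ ≤ ENNReal.ofReal (3 / 10) := by
            apply ENNReal.ofReal_le_ofReal
            rw [div_le_iff₀ hdpos]; exact hT
    have h3 : sphereUniform d (A ∩ (sphMap R ⁻¹' A)) ≤
        ENNReal.ofReal (3 / 10) / ENNReal.ofReal (99 / 100) := by
      rw [ENNReal.le_div_iff_mul_le (Or.inl (by simp)) (Or.inl (by simp)), mul_comm]
      exact h2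
    refine h3.trans ?_
    rw [← ENNReal.ofReal_div_of_pos (by norm_num)]
    apply ENNReal.ofReal_le_ofReal
    norm_num
  have hsum : sphereUniform d A + sphereUniform d A ≤ 1 + ENNReal.ofReal (31 / 100) := by
    calc sphereUniform d A + sphereUniform d A
        = sphereUniform d A + sphereUniform d (sphMap R ⁻¹' A) := by rw [hRA]
      _ = sphereUniform d (A ∪ sphMap R ⁻¹' A) + sphereUniform d (A ∩ sphMap R ⁻¹' A) :=
          (measure_union_add_inter A hRm).symm
      _ ≤ 1 + ENNReal.ofReal (31 / 100) := add_le_add prob_le_one hmark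
  have hfin : sphereUniform d A ≠ ⊤ := measure_ne_top _ _
  rw [← ENNReal.ofReal_toReal hfin, ← ENNReal.ofReal_add (by positivity) (by positivity),
    ← ENNReal.ofReal_one, ← ENNReal.ofReal_add (by norm_num) (by norm_num),
    ENNReal.ofReal_le_ofReal_iff (by norm_num)] at hsum
  rw [← ENNReal.ofReal_toReal hfin]
  apply ENNReal.ofReal_le_ofReal
  linarith

end Crest.Agent.StreamLB
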