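import Crest.Agent.StreamLB.Induct
import Crest.Agent.StreamLB.Approx
import Crest.Agent.StreamLB.SphereFacts
set_option autoImplicit false

open MeasureTheory ProbabilityTheory
open scoped ENNReal BigOperators

namespace Crest.Agent.StreamLB

open Crest.StreamLearn (Sphere sphereUniform)

variable {d : ℕ} {V : Type}

theorem cid_diam' {i : ℕ} (hd : 1 ≤ d) (hi : i ≠ 0) {s s' : Eu d}
    (hc : cid d i s = cid d i s') : ‖s - s'‖ ≤ (1 / 2) ^ (i + 3) := by
  have hd0 : (0 : ℝ) < Real.sqrt d := Real.sqrt_pos.mpr (by exact_mod_cast hd)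
  have hlam : (0 : ℝ) < 2 ^ (i + 3) * Real.sqrt d := by positivity
  unfold cid at hc
  simp only [hi, if_false] at hc
  have hcoord : ∀ a, (s a - s' a) ^ 2 ≤ (1 / (2 ^ (i + 3) * Real.sqrt d)) ^ 2 := by
    intro a
    have ha := abs_sub_lt_one_of_floor_eq (congrFun hc a)
    rw [← sub_mul, abs_mul, abs_of_pos hlam] at ha
    have h1 : |s a - s' a| ≤ 1 / (2 ^ (i + 3) * Real.sqrt d) := by
      rw [le_div_iff₀ hlam]; exact ha.le
    rw [← sq_abs]
    exact pow_le_pow_left₀ (abs_nonneg _) h1 2
  have hnorm : ‖s - s'‖ ^ 2 ≤ ((1 / 2) ^ (i + 3)) ^ 2 := by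
    rw [EuclideanSpace.norm_sq_eq]
    calc ∑ a, ‖(s - s') a‖ ^ 2 ≤ ∑ a : Fin d, (1 / (2 ^ (i + 3) * Real.sqrt d)) ^ 2 := by
          apply Finset.sum_le_sum
          intro a _
          rw [Real.norm_eq_abs, sq_abs]
          exact hcoord a
      _ = d * (1 / (2 ^ (i + 3) * Real.sqrt d)) ^ 2 := by
          rw [Finset.sum_const, Finset.card_univ, Fintype.card_fin, nsmul_eq_mul]
      _ = ((1 / 2) ^ (i + 3)) ^ 2 := by
          have hsq : Real.sqrt d ^ 2 = d := Real.sq_sqrt (by positivity)
          have hd0' : (d : ℝ) ≠ 0 := by positivity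
          rw [div_pow, mul_pow, hsq, one_div_pow]
          field_simp
  exact (pow_le_pow_iff_left₀ (norm_nonneg _) (by positivity) (by norm_num)).mp hnorm

/-- the uniform law on the sphere, as a measure on Euclidean space -/
noncomputable def sigE (d : ℕ) : Measure (Eu d) := (sphereUniform d).map Subtype.val

theorem sigE_cell (hd : 2 ≤ d) (i : ℕ) (z : Fin d → ℤ) :
    sigE d {s | cid d i s = z} ≤ tw (-((d - 1 : ℤ) * i)) := by
  have hp := sphereUniform_isProb d (by omega)
  unfold sigE
  rw [Measure.map_apply measurable_subtype_coe (measurableSet_cid d i z)]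
  by_cases hi : i = 0
  · subst hi
    simp only [Nat.cast_zero, mul_zero, neg_zero, tw_zero]
    exact prob_le_one
  · by_cases hne : ∃ s0 : Sphere d, cid d i (s0 : Eu d) = z
    · obtain ⟨s0, hs0⟩ := hne
      have hr : (0 : ℝ) < (1 / 2) ^ (i + 3) := by positivity
      calc sphereUniform d (Subtype.val ⁻¹' {s | cid d i s = z})
          ≤ sphereUniform d {s | ‖(s : Eu d) - s0‖ ≤ (1 / 2) ^ (i + 3)} := by
            apply measure_mono
            intro s hs
            exact cid_diam' (by omega) hi (hs.trans hs0.symm)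
        _ ≤ ENNReal.ofReal ((1 / (1 / 2) ^ (i + 3) + 1) * (2 * (1 / 2) ^ (i + 3)) ^ d) :=
            sphereUniform_cap d (by omega) s0 (by simp) _ hr
        _ ≤ ENNReal.ofReal (2 ^ (i + 4) * ((1 / 2) ^ (i + 2)) ^ d) := by
            apply ENNReal.ofReal_le_ofReal
            have e1 : (1 : ℝ) / (1 / 2) ^ (i + 3) = 2 ^ (i + 3) := by
              rw [one_div_pow]; field_simp
            have e2 : (2 : ℝ) * (1 / 2) ^ (i + 3) = (1 / 2) ^ (i + 2) := by
              rw [show i + 3 = (i + 2) + 1 by ring, pow_succ]; ring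
            rw [e1, e2]
            gcongr
            have : (1 : ℝ) ≤ 2 ^ (i + 3) := one_le_pow₀ (by norm_num)
            rw [show i + 4 = (i + 3) + 1 by ring, pow_succ (2:ℝ) (i+3)]
            linarith
        _ = tw ((i + 4) - (i + 2) * d) := by
            rw [ENNReal.ofReal_mul (by positivity), ENNReal.ofReal_pow (by norm_num),
              ENNReal.ofReal_pow (by positivity), ofReal_half_pow, tw_pow]
            have : (ENNReal.ofReal 2) ^ (i + 4) = tw (i + 4) := by
              rw [show (i + 4 : ℤ) = ((i + 4 : ℕ) : ℤ) by push_cast; ring, tw_natCast]; simp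
            rw [this, ← tw_add]
            congr 1
        _ ≤ tw (-((d - 1 : ℤ) * i)) := by
            apply tw_mono
            have : (2 : ℤ) ≤ d := by exact_mod_cast hd
            nlinarith
    · have : (Subtype.val ⁻¹' {s | cid d i s = z} : Set (Sphere d)) = ∅ := by
        ext s
        simp only [Set.mem_preimage, Set.mem_ofPred_eq, Set.mem_empty_iff_false, iff_false]
        intro h; exact hne ⟨s, h⟩
      rw [this]; simp

theorem node_sigE (hd : 2 ≤ d) (q κ : ℕ) (hκ : κ + q + 1 = d) : Node d 0 q κ 0 (sigE d) := by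
  have hp := sphereUniform_isProb d (by omega)
  have hκ' : (κ : ℤ) + q = d - 1 := by
    have : ((κ + q + 1 : ℕ) : ℤ) = d := by exact_mod_cast hκ
    push_cast at this; linarith
  refine ⟨?_, ?_, ⟨0, ?_⟩, ?_, ?_⟩
  · unfold sigE
    exact Measure.isProbabilityMeasure_map measurable_subtype_coe.aemeasurable
  · unfold sigE
    have hm : MeasurableSet {s : Eu d | ‖s‖ = 1} :=
      measurableSet_eq_fun (by fun_prop) measurable_const
    rw [ae_map_iff measurable_subtype_coe.aemeasurable hm]
    exact Filter.Eventually.of_forall fun s => by simp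
  · exact Filter.Eventually.of_forall fun s => cid_zero d s
  · intro i _ z
    refine (sigE_cell hd i z).trans (tw_mono ?_)
    rw [← hκ']
    have h1 : (0 : ℤ) ≤ q * i := by positivity
    have h2 : (0 : ℤ) ≤ q := by positivity
    push_cast
    nlinarith
  · intro i _ z
    refine (sigE_cell hd i z).trans (tw_mono ?_)
    rw [← hκ']
    push_cast
    nlinarith

/-! ### the recursion over samples -/

/-- success probability from time `k` with `r` samples remaining -/
noncomputable def Wr (stp : ℕ → V → Eu d → ℤ → V) (δ : ℝ) (a : V → Eu d) (ε : ℝ) :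
    ℕ → ℕ → V → Eu d → ℝ≥0∞
  | _, 0, v, s => Set.indicator {s | ‖s - a v‖ ≤ ε} (fun _ => 1) s
  | k, r + 1, v, s => ∫⁻ x, Wr stp δ a ε (k + 1) r (stp k v x ⌊(inner ℝ x s : ℝ) / δ⌋) s
      ∂(stdGaussian (Eu d))

/-- run of a block starting at time `k` -/
def brun (stp : ℕ → V → Eu d → ℤ → V) (k : ℕ) {r : ℕ} (v : V) (X : Fin r → Eu d)
    (y : Fin r → ℤ) : V :=
  (List.finRange r).foldl (fun v (t : Fin r) => stp (k + t.val) v (X t) (y t)) v

theorem brun_zero (stp : ℕ → V → Eu d → ℤ → V) (k : ℕ) (v : V) (X : Fin 0 → Eu d)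
    (y : Fin 0 → ℤ) : brun stp k v X y = v := rfl

theorem brun_succ (stp : ℕ → V → Eu d → ℤ → V) (k r : ℕ) (v : V) (X : Fin (r + 1) → Eu d)
    (y : Fin (r + 1) → ℤ) : brun stp k v X y =
      brun stp (k + 1) (stp k v (X 0) (y 0)) (fun t => X t.succ) (fun t => y t.succ) := by
  unfold brun
  rw [List.finRange_succ, List.foldl_cons, List.foldl_map]
  congr 1
  funext v t
  congr 1
  simp only [Fin.val_succ]; omega

/-- discrete measurability of the steps -/
def StepMeas (stp : ℕ → V → Eu d → ℤ → V) : Prop :=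
  ∀ k v z v', MeasurableSet {x | stp k v x z = v'}

theorem brun_meas [Fintype V] (stp : ℕ → V → Eu d → ℤ → V) (h : StepMeas stp) :
    ∀ (r k : ℕ) (v : V) (y : Fin r → ℤ) (v' : V), MeasurableSet {X : Fin r → Eu d |
      brun stp k v X y = v'} := by
  intro r
  induction r with
  | zero =>
    intro k v y v'
    simp only [brun_zero]
    by_cases hv : v = v'
    · simp [hv]
    · simp [hv]
  | succ r ih =>
    intro k v y v'
    have : {X : Fin (r + 1) → Eu d | brun stp k v X y = v'} =
        ⋃ v1 : V, ((fun X : Fin (r + 1) → Eu d => X 0) ⁻¹' {x | stp k v x (y 0) = v1}) ∩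
          ((fun (X : Fin (r + 1) → Eu d) (t : Fin r) => X t.succ) ⁻¹'
            {X' | brun stp (k + 1) v1 X' (fun t => y t.succ) = v'}) := by
      ext X
      simp only [Set.mem_ofPred_eq, Set.mem_iUnion, Set.mem_inter_iff, Set.mem_preimage]
      rw [brun_succ]
      constructor
      · intro hX; exact ⟨_, rfl, hX⟩
      · rintro ⟨v1, rfl, hX⟩; exact hX
    rw [this]
    refine MeasurableSet.iUnion fun v1 => ?_
    refine MeasurableSet.inter ?_ ?_
    · exact (measurable_pi_apply 0) (h k v (y 0) v1)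
    · have hm : Measurable (fun (X : Fin (r + 1) → Eu d) (t : Fin r) => X t.succ) :=
        measurable_pi_lambda _ fun t => measurable_pi_apply _
      exact hm (ih (k + 1) v1 _ v')

/-- Fubini over a block -/
theorem Wr_block [Fintype V] (stp : ℕ → V → Eu d → ℤ → V) (h : StepMeas stp) (δ : ℝ)
    (a : V → Eu d) (ε : ℝ) (s : Eu d) : ∀ (B' k r : ℕ) (v : V),
    Wr stp δ a ε k (B' + r) v s =
      ∑ v', (gamB d B') {X | brun stp k v X (yb δ X s) = v'} * Wr stp δ a ε (k + B') r v' s := by
  classical
  intro B'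
  induction B' with
  | zero =>
    intro k r v
    rw [Finset.sum_eq_single v]
    · simp [brun_zero]
    · intro v' _ hv
      have : {X : Fin 0 → Eu d | brun stp k v X (yb δ X s) = v'} = ∅ := by
        ext X; simp [brun_zero, hv.symm]
      rw [this]; simp
    · intro hv; exact absurd (Finset.mem_univ v) hv
  | succ B' ih =>
    intro k r v
    have e0 : B' + 1 + r = (B' + r) + 1 := by ring
    rw [e0]
    have e1 : Wr stp δ a ε k ((B' + r) + 1) v s =
        ∫⁻ x, Wr stp δ a ε (k + 1) (B' + r) (stp k v x ⌊(inner ℝ x s : ℝ) / δ⌋) s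
          ∂(stdGaussian (Eu d)) := rfl
    rw [e1]
    simp_rw [ih]
    -- measurability
    have hfl : Measurable fun x : Eu d => ⌊(inner ℝ x s : ℝ) / δ⌋ :=
      Int.measurable_floor.comp (by fun_prop)
    have hst : ∀ v1 : V, MeasurableSet {x : Eu d | stp k v x ⌊(inner ℝ x s : ℝ) / δ⌋ = v1} := by
      intro v1
      have : {x : Eu d | stp k v x ⌊(inner ℝ x s : ℝ) / δ⌋ = v1} =
          ⋃ z : ℤ, ((fun x : Eu d => ⌊(inner ℝ x s : ℝ) / δ⌋) ⁻¹' {z}) ∩ {x | stp k v x z = v1} := by
        ext x
        simp only [Set.mem_ofPred_eq, Set.mem_iUnion, Set.mem_inter_iff, Set.mem_preimage,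
          Set.mem_singleton_iff]
        constructor
        · intro hx; exact ⟨_, rfl, hx⟩
        · rintro ⟨z, rfl, hx⟩; exact hx
      rw [this]
      exact MeasurableSet.iUnion fun z => (hfl (measurableSet_singleton z)).inter (h k v z v1)
    have hmeasf : ∀ g : V → ℝ≥0∞,
        Measurable fun x : Eu d => g (stp k v x ⌊(inner ℝ x s : ℝ) / δ⌋) := by
      intro g
      have : (fun x : Eu d => g (stp k v x ⌊(inner ℝ x s : ℝ) / δ⌋)) = fun x =>
          ∑ v1 : V, Set.indicator {x : Eu d | stp k v x ⌊(inner ℝ x s : ℝ) / δ⌋ = v1}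
            (fun _ => g v1) x := by
        funext x
        rw [Finset.sum_eq_single (stp k v x ⌊(inner ℝ x s : ℝ) / δ⌋)]
        · rw [Set.indicator_of_mem]; rfl
        · intro v1 _ hv1
          rw [Set.indicator_of_notMem]
          exact fun hx => hv1 hx.symm
        · intro hv; exact absurd (Finset.mem_univ _) hv
      rw [this]
      exact Finset.measurable_sum _ fun v1 _ => measurable_const.indicator (hst v1)
    rw [lintegral_finsetSum _ (fun v' _ => (hmeasf (fun v1 => (gamB d B') {X | brun stp (k + 1) v1 X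
      (yb δ X s) = v'} * Wr stp δ a ε (k + 1 + B') r v' s)))]
    apply Finset.sum_congr rfl
    intro v' _
    have e2 : k + 1 + B' = k + (B' + 1) := by ring
    rw [lintegral_mul_const _ (hmeasf (fun v1 => (gamB d B') {X | brun stp (k + 1) v1 X
      (yb δ X s) = v'})), e2]
    congr 1
    -- measure of the big block
    have hmp := measurePreserving_piFinSuccAbove (fun _ : Fin (B' + 1) => stdGaussian (Eu d)) 0
    have hybm : ∀ r' : ℕ, Measurable fun X : Fin r' → Eu d => yb δ X s := by
      intro r'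
      unfold yb
      apply measurable_pi_lambda
      intro t
      apply Int.measurable_floor.comp
      have : Continuous fun X : Fin r' → Eu d => (inner ℝ (X t) s : ℝ) / δ := by fun_prop
      exact this.measurable
    have hset : MeasurableSet {X : Fin (B' + 1) → Eu d | brun stp k v X (yb δ X s) = v'} := by
      have : {X : Fin (B' + 1) → Eu d | brun stp k v X (yb δ X s) = v'} =
          ⋃ y : Fin (B' + 1) → ℤ, ((fun X => yb δ X s) ⁻¹' {y}) ∩ {X | brun stp k v X y = v'} := by
        ext X
        simp only [Set.mem_ofPred_eq, Set.mem_iUnion, Set.mem_inter_iff, Set.mem_preimage,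
          Set.mem_singleton_iff]
        constructor
        · intro hx; exact ⟨_, rfl, hx⟩
        · rintro ⟨z, rfl, hx⟩; exact hx
      rw [this]
      exact MeasurableSet.iUnion fun y => ((hybm _) (measurableSet_singleton y)).inter
        (brun_meas stp h _ k v y v')
    rw [show (gamB d (B' + 1)) {X | brun stp k v X (yb δ X s) = v'} =
      (Measure.pi fun _ : Fin (B' + 1) => stdGaussian (Eu d)) {X | brun stp k v X (yb δ X s) = v'}
      from rfl]
    rw [← hmp.symm.measure_preimage hset.nullMeasurableSet]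
    rw [Measure.prod_apply ((MeasurableEquiv.measurable _) hset)]
    apply lintegral_congr
    intro x
    congr 1
    ext X'
    simp only [Set.mem_preimage, Set.mem_ofPred_eq]
    rw [brun_succ]
    have f0 : (MeasurableEquiv.piFinSuccAbove (fun _ : Fin (B' + 1) => Eu d) 0).symm (x, X') 0 = x := by
      simp [MeasurableEquiv.piFinSuccAbove, Fin.insertNthEquiv]
    have f1 : (fun t : Fin B' => (MeasurableEquiv.piFinSuccAbove (fun _ : Fin (B' + 1) => Eu d) 0).symm
        (x, X') t.succ) = X' := by
      funext t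
      simp [MeasurableEquiv.piFinSuccAbove, Fin.insertNthEquiv]
    have f2 : yb δ ((MeasurableEquiv.piFinSuccAbove (fun _ : Fin (B' + 1) => Eu d) 0).symm (x, X')) s 0 =
        ⌊(inner ℝ x s : ℝ) / δ⌋ := by
      simp only [yb, f0]
    have f3 : (fun t : Fin B' => yb δ ((MeasurableEquiv.piFinSuccAbove
        (fun _ : Fin (B' + 1) => Eu d) 0).symm (x, X')) s t.succ) = yb δ X' s := by
      funext t
      have := congrFun f1 t
      simp only [yb] at this ⊢
      rw [this]
    rw [f0, f1, f2, f3]

/-- idle steps do nothing -/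
theorem Wr_idle (stp : ℕ → V → Eu d → ℤ → V) (δ : ℝ) (a : V → Eu d) (ε : ℝ) (T : ℕ)
    (hid : ∀ k ≥ T, ∀ v x z, stp k v x z = v) (s : Eu d) : ∀ (r k : ℕ) (v : V), T ≤ k →
    Wr stp δ a ε k r v s = Set.indicator {s | ‖s - a v‖ ≤ ε} (fun _ => 1) s := by
  intro r
  induction r with
  | zero => intro k v _; rfl
  | succ r ih =>
    intro k v hk
    have e1 : Wr stp δ a ε k (r + 1) v s =
        ∫⁻ x, Wr stp δ a ε (k + 1) r (stp k v x ⌊(inner ℝ x s : ℝ) / δ⌋) s
          ∂(stdGaussian (Eu d)) := rfl
    rw [e1]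
    simp_rw [hid k hk, ih (k + 1) v (by omega)]
    simp

end Crest.Agent.StreamLB
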