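import Crest.Agent.StreamLB.IBound
set_option autoImplicit false

open MeasureTheory ProbabilityTheory
open scoped ENNReal BigOperators

namespace Crest.Agent.StreamLB

variable {d B : ℕ} {V : Type}

/-- probability of message `v` given `s` -/
noncomputable def gk (δ : ℝ) (Φ : (Fin B → Eu d) → (Fin B → ℤ) → V) (v : V) (s : Eu d) : ℝ≥0∞ :=
  (gamB d B) {X | Φ X (yb δ X s) = v}

theorem measurableSet_yb (δ : ℝ) (y : Fin B → ℤ) :
    MeasurableSet {p : (Fin B → Eu d) × Eu d | yb δ p.1 p.2 = y} :=
  measurable_yb δ (measurableSet_singleton y)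

theorem measurableSet_T (δ : ℝ) (Φ : (Fin B → Eu d) → (Fin B → ℤ) → V)
    (hΦ : ∀ y v, MeasurableSet {X | Φ X y = v}) (v : V) :
    MeasurableSet {p : (Fin B → Eu d) × Eu d | Φ p.1 (yb δ p.1 p.2) = v} := by
  have : {p : (Fin B → Eu d) × Eu d | Φ p.1 (yb δ p.1 p.2) = v} =
      ⋃ y : Fin B → ℤ, ({p : (Fin B → Eu d) × Eu d | yb δ p.1 p.2 = y} ∩
        Prod.fst ⁻¹' {X | Φ X y = v}) := by
    ext p
    simp only [Set.mem_ofPred_eq, Set.mem_iUnion, Set.mem_inter_iff, Set.mem_preimage]
    constructor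
    · intro h; exact ⟨_, rfl, h⟩
    · rintro ⟨y, rfl, h⟩; exact h
  rw [this]
  refine MeasurableSet.iUnion fun y => ?_
  exact (measurableSet_yb δ y).inter (measurable_fst (hΦ y v))

theorem measurable_gk (δ : ℝ) (Φ : (Fin B → Eu d) → (Fin B → ℤ) → V)
    (hΦ : ∀ y v, MeasurableSet {X | Φ X y = v}) (v : V) : Measurable (gk δ Φ v) := by
  unfold gk
  exact measurable_measure_prodMk_right (measurableSet_T δ Φ hΦ v)

theorem sum_gk [Fintype V] (δ : ℝ) (Φ : (Fin B → Eu d) → (Fin B → ℤ) → V)
    (hΦ : ∀ y v, MeasurableSet {X | Φ X y = v}) (s : Eu d) : ∑ v, gk δ Φ v s = 1 := by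
  classical
  unfold gk
  rw [← measure_biUnion_finset]
  · have : (⋃ v ∈ (Finset.univ : Finset V), {X : Fin B → Eu d | Φ X (yb δ X s) = v}) = Set.univ := by
      ext X; simp
    rw [this]; simp
  · intro v _ v' _ hvv
    rw [Function.onFun, Set.disjoint_left]
    rintro X hX hX'
    exact hvv (hX.symm.trans hX')
  · intro v _
    exact (measurable_prodMk_right (y := s)) (measurableSet_T δ Φ hΦ v)

theorem gk_le_one (δ : ℝ) (Φ : (Fin B → Eu d) → (Fin B → ℤ) → V) (v : V) (s : Eu d) :
    gk δ Φ v s ≤ 1 := prob_le_one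

/-- indicator of message `v` -/
noncomputable def indV (Φ : (Fin B → Eu d) → (Fin B → ℤ) → V) (v : V)
    (X : Fin B → Eu d) (y : Fin B → ℤ) : ℝ≥0∞ :=
  Set.indicator {X | Φ X y = v} (fun _ => 1) X

theorem measurable_indV (Φ : (Fin B → Eu d) → (Fin B → ℤ) → V)
    (hΦ : ∀ y v, MeasurableSet {X | Φ X y = v}) (v : V) (y : Fin B → ℤ) :
    Measurable fun X => indV Φ v X y :=
  measurable_const.indicator (hΦ y v)

theorem measurable_hX (δ : ℝ) (μ : Measure (Eu d)) [IsFiniteMeasure μ] (y : Fin B → ℤ) :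
    Measurable fun X : Fin B → Eu d => μ {s | yb δ X s = y} :=
  measurable_measure_prodMk_left (measurableSet_yb δ y)

/-- Tonelli identity. -/
theorem lintegral_gk (δ : ℝ) (Φ : (Fin B → Eu d) → (Fin B → ℤ) → V)
    (hΦ : ∀ y v, MeasurableSet {X | Φ X y = v}) (v : V) (μ : Measure (Eu d)) [IsFiniteMeasure μ] :
    ∫⁻ s, gk δ Φ v s ∂μ =
      ∫⁻ X, ∑' y : Fin B → ℤ, indV Φ v X y * μ {s | yb δ X s = y} ∂(gamB d B) := by
  have hT := measurableSet_T δ Φ hΦ v
  have e1 : ∫⁻ s, gk δ Φ v s ∂μ = ((gamB d B).prod μ)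
      {p : (Fin B → Eu d) × Eu d | Φ p.1 (yb δ p.1 p.2) = v} := by
    rw [Measure.prod_apply_symm hT]; rfl
  rw [e1, Measure.prod_apply hT]
  apply lintegral_congr
  intro X
  have hm := measurable_yb_right δ X
  have e2 : (Prod.mk X ⁻¹' {p : (Fin B → Eu d) × Eu d | Φ p.1 (yb δ p.1 p.2) = v}) =
      (fun s => yb δ X s) ⁻¹' {y | Φ X y = v} := rfl
  rw [e2, ← Measure.map_apply hm (Set.to_countable _).measurableSet,
    ← Measure.tsum_indicator_apply_singleton _ _ (Set.to_countable _).measurableSet]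
  apply tsum_congr
  intro y
  unfold indV
  by_cases hy : Φ X y = v
  · rw [Set.indicator_of_mem (by exact hy), Set.indicator_of_mem (by exact hy), one_mul,
      Measure.map_apply hm (measurableSet_singleton y)]
    rfl
  · rw [Set.indicator_of_notMem (by exact hy), Set.indicator_of_notMem (by exact hy), zero_mul]

/-- the ball of lattice points compatible with a localisation of `s` -/
def BallX (n j : ℕ) (sQ : Eu d) (X : Fin B → Eu d) : Set (Fin B → ℤ) :=
  {y | ∑ t, ((y t : ℝ) - (inner ℝ (X t) sQ : ℝ) / (1 / 2) ^ n) ^ 2 ≤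
    (B : ℝ) * (9 * (2 : ℝ) ^ (n - j)) ^ 2}

/-- good pairs -/
def GoodXY (n j : ℕ) (sQ : Eu d) (μ : Measure (Eu d)) (τ : ℝ≥0∞) (X : Fin B → Eu d)
    (y : Fin B → ℤ) : Prop :=
  y ∈ BallX n j sQ X ∧ τ ≤ μ {s | yb ((1 / 2) ^ n) X s = y}

theorem measurableSet_BallX (n j : ℕ) (sQ : Eu d) (y : Fin B → ℤ) :
    MeasurableSet {X : Fin B → Eu d | y ∈ BallX n j sQ X} := by
  unfold BallX
  simp only [Set.mem_ofPred_eq]
  apply measurableSet_le
  · fun_prop
  · exact measurable_const

theorem measurableSet_GoodXY (n j : ℕ) (sQ : Eu d) (μ : Measure (Eu d)) [IsFiniteMeasure μ]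
    (τ : ℝ≥0∞) (y : Fin B → ℤ) :
    MeasurableSet {X : Fin B → Eu d | GoodXY n j sQ μ τ X y} := by
  have : {X : Fin B → Eu d | GoodXY n j sQ μ τ X y} =
      {X | y ∈ BallX n j sQ X} ∩ {X | τ ≤ μ {s | yb ((1 / 2) ^ n) X s = y}} := rfl
  rw [this]
  exact (measurableSet_BallX n j sQ y).inter
    (measurableSet_le measurable_const (measurable_hX _ μ y))

/-- indicator of the complement of the good set -/
noncomputable def indBad (n j : ℕ) (sQ : Eu d) (μ : Measure (Eu d)) (τ : ℝ≥0∞)
    (X : Fin B → Eu d) (y : Fin B → ℤ) : ℝ≥0∞ :=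
  Set.indicator {X | ¬ GoodXY n j sQ μ τ X y} (fun _ => 1) X

theorem measurable_indBad (n j : ℕ) (sQ : Eu d) (μ : Measure (Eu d)) [IsFiniteMeasure μ]
    (τ : ℝ≥0∞) (y : Fin B → ℤ) : Measurable fun X => indBad (B := B) n j sQ μ τ X y :=
  measurable_const.indicator (measurableSet_GoodXY n j sQ μ τ y).compl

/-- the bad part of message `v` -/
noncomputable def lossV (n j : ℕ) (sQ : Eu d) (μ : Measure (Eu d)) (τ : ℝ≥0∞)
    (Φ : (Fin B → Eu d) → (Fin B → ℤ) → V) (v : V) : ℝ≥0∞ :=
  ∫⁻ X, ∑' y : Fin B → ℤ, indV Φ v X y * (indBad n j sQ μ τ X y *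
    μ {s | yb ((1 / 2) ^ n) X s = y}) ∂(gamB d B)

theorem sum_indV [Fintype V] (Φ : (Fin B → Eu d) → (Fin B → ℤ) → V) (X : Fin B → Eu d)
    (y : Fin B → ℤ) : ∑ v, indV Φ v X y = 1 := by
  classical
  unfold indV
  rw [Finset.sum_eq_single (Φ X y)]
  · rw [Set.indicator_of_mem]; rfl
  · intro v _ hv
    rw [Set.indicator_of_notMem]
    exact fun h => hv h.symm
  · intro h; exact absurd (Finset.mem_univ _) h

theorem sum_lossV [Fintype V] (n j : ℕ) (hjn : j ≤ n) (sQ : Eu d) (μ : Measure (Eu d))
    [IsProbabilityMeasure μ] (hQ : ∀ᵐ s ∂μ, ‖s - sQ‖ ≤ 2 * (1 / 2) ^ j) (q : ℤ)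
    (Φ : (Fin B → Eu d) → (Fin B → ℤ) → V)
    (hΦ : ∀ y v, MeasurableSet {X | Φ X y = v}) :
    ∑ v, lossV n j sQ μ (tw (-q - (8 + (n - j : ℕ)) * B)) Φ v ≤ tw (-q) + tw (-(B : ℤ)) := by
  classical
  set τ := tw (-q - (8 + (n - j : ℕ)) * B) with hτ
  set δ : ℝ := (1 / 2) ^ n with hδ
  have hδ0 : 0 < δ := by positivity
  have e1 : ∑ v, lossV n j sQ μ τ Φ v =
      ∫⁻ X, ∑' y : Fin B → ℤ, indBad n j sQ μ τ X y * μ {s | yb δ X s = y} ∂(gamB d B) := by
    unfold lossV
    rw [← lintegral_finsetSum]
    · apply lintegral_congr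
      intro X
      rw [← (Summable.tsum_finsetSum (fun _ _ => ENNReal.summable))]
      apply tsum_congr
      intro y
      rw [← Finset.sum_mul, sum_indV, one_mul]
    · intro v _
      apply Measurable.tsum
      intro y
      exact (measurable_indV Φ hΦ v y).mul ((measurable_indBad n j sQ μ τ y).mul
        (measurable_hX _ μ y))
  rw [e1]
  -- split the bad indicator
  have hpt : ∀ X : Fin B → Eu d, ∑' y : Fin B → ℤ, indBad n j sQ μ τ X y * μ {s | yb δ X s = y} ≤
      tw (-q) + μ {s | yb δ X s ∉ BallX n j sQ X} := by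
    intro X
    obtain ⟨hfin, hcard⟩ := lattice_count B (fun t => (inner ℝ (X t) sQ : ℝ) / (1 / 2) ^ n)
      (9 * 2 ^ (n - j)) (by positivity)
    have hb : ∀ y : Fin B → ℤ, indBad n j sQ μ τ X y * μ {s | yb δ X s = y} ≤
        (if y ∈ hfin.toFinset then τ else 0) +
          Set.indicator (BallX n j sQ X)ᶜ (fun y => μ {s | yb δ X s = y}) y := by
      intro y
      unfold indBad
      by_cases hg : GoodXY n j sQ μ τ X y
      · rw [Set.indicator_of_notMem (by simpa using hg)]; simp
      · rw [Set.indicator_of_mem (by exact hg), one_mul]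
        by_cases hy : y ∈ BallX n j sQ X
        · have h1 : ¬ τ ≤ μ {s | yb ((1 / 2) ^ n) X s = y} := fun h => hg ⟨hy, h⟩
          push Not at h1
          have hy' : y ∈ hfin.toFinset := by
            rw [Set.Finite.mem_toFinset]; exact hy
          rw [if_pos hy']
          exact le_add_right h1.le
        · rw [Set.indicator_of_mem (by exact hy)]
          exact le_add_left le_rfl
    have hm := measurable_yb_right δ X
    calc _ ≤ ∑' y : Fin B → ℤ, ((if y ∈ hfin.toFinset then τ else 0) +
          Set.indicator (BallX n j sQ X)ᶜ (fun y => μ {s | yb δ X s = y}) y) :=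
          ENNReal.tsum_le_tsum hb
      _ = ∑' y : Fin B → ℤ, (if y ∈ hfin.toFinset then τ else 0) +
          ∑' y : Fin B → ℤ, Set.indicator (BallX n j sQ X)ᶜ (fun y => μ {s | yb δ X s = y}) y :=
          ENNReal.tsum_add
      _ ≤ tw (-q) + μ {s | yb δ X s ∉ BallX n j sQ X} := by
          gcongr
          · rw [tsum_eq_sum (s := hfin.toFinset) (by intro y hy; rw [if_neg hy]),
              Finset.sum_ite_mem, Finset.inter_self, Finset.sum_const, nsmul_eq_mul]
            have hc : ((hfin.toFinset.card : ℕ) : ℝ≥0∞) ≤ tw ((8 + (n - j : ℕ)) * B) := by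
              have h1 : hfin.toFinset.card ≤ 2 ^ ((8 + (n - j)) * B) := by
                rw [← Set.ncard_eq_toFinset_card _ hfin]
                have : ((_ : ℕ) : ℝ) ≤ ((2 ^ ((8 + (n - j)) * B) : ℕ) : ℝ) := hcard.trans (by
                  push_cast
                  rw [pow_mul]
                  apply pow_le_pow_left₀ (by positivity)
                  rw [pow_add]
                  have : (1:ℝ) ≤ 2 ^ (n - j) := one_le_pow₀ (by norm_num)
                  nlinarith)
                exact_mod_cast this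
              have h2 : ((8 + (n - j : ℕ)) * B : ℤ) = (((8 + (n - j)) * B : ℕ) : ℤ) := by push_cast; ring
              rw [h2, tw_natCast]
              exact_mod_cast h1
            calc (hfin.toFinset.card : ℝ≥0∞) * τ ≤ tw ((8 + (n - j : ℕ)) * B) * τ := by gcongr
              _ = tw (-q) := by rw [hτ, ← tw_add]; congr 1; ring
          · have e3 : {s | yb δ X s ∉ BallX n j sQ X} = (fun s => yb δ X s) ⁻¹' (BallX n j sQ X)ᶜ := rfl
            rw [e3, ← Measure.map_apply hm (Set.to_countable _).measurableSet,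
              ← Measure.tsum_indicator_apply_singleton _ _ (Set.to_countable _).measurableSet]
            apply ENNReal.tsum_le_tsum
            intro y
            by_cases hy : y ∈ (BallX n j sQ X)ᶜ
            · rw [Set.indicator_of_mem hy, Set.indicator_of_mem hy,
                Measure.map_apply hm (measurableSet_singleton y)]
              rfl
            · rw [Set.indicator_of_notMem hy]; positivity
  have hT2 : MeasurableSet {p : (Fin B → Eu d) × Eu d | yb δ p.1 p.2 ∉ BallX n j sQ p.1} := by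
    have : {p : (Fin B → Eu d) × Eu d | yb δ p.1 p.2 ∉ BallX n j sQ p.1} =
        ⋃ y : Fin B → ℤ, ({p : (Fin B → Eu d) × Eu d | yb δ p.1 p.2 = y} ∩
          Prod.fst ⁻¹' {X | y ∈ BallX n j sQ X}ᶜ) := by
      ext p
      simp only [Set.mem_ofPred_eq, Set.mem_iUnion, Set.mem_inter_iff, Set.mem_preimage,
        Set.mem_compl_iff]
      constructor
      · intro h; exact ⟨_, rfl, h⟩
      · rintro ⟨y, rfl, h⟩; exact h
    rw [this]
    refine MeasurableSet.iUnion fun y => ?_
    exact (measurableSet_yb δ y).inter (measurable_fst (measurableSet_BallX n j sQ y).compl)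
  calc ∫⁻ X, ∑' y : Fin B → ℤ, indBad n j sQ μ τ X y * μ {s | yb δ X s = y} ∂(gamB d B)
      ≤ ∫⁻ X, (tw (-q) + μ {s | yb δ X s ∉ BallX n j sQ X}) ∂(gamB d B) := lintegral_mono hpt
    _ = tw (-q) + ∫⁻ X, μ {s | yb δ X s ∉ BallX n j sQ X} ∂(gamB d B) := by
        rw [lintegral_add_left measurable_const, lintegral_const, measure_univ, mul_one]
    _ ≤ tw (-q) + tw (-(B : ℤ)) := by
        gcongr
        have e4 : ∫⁻ X, μ {s | yb δ X s ∉ BallX n j sQ X} ∂(gamB d B) =
            ∫⁻ s, (gamB d B) {X | yb δ X s ∉ BallX n j sQ X} ∂μ := by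
          have h1 : ∫⁻ X, μ {s | yb δ X s ∉ BallX n j sQ X} ∂(gamB d B) = ((gamB d B).prod μ)
              {p : (Fin B → Eu d) × Eu d | yb δ p.1 p.2 ∉ BallX n j sQ p.1} := by
            rw [Measure.prod_apply hT2]; rfl
          rw [h1, Measure.prod_apply_symm hT2]; rfl
        rw [e4]
        calc ∫⁻ s, (gamB d B) {X | yb δ X s ∉ BallX n j sQ X} ∂μ
            ≤ ∫⁻ s, tw (-(B : ℤ)) ∂μ := by
              apply lintegral_mono_ae
              filter_upwards [hQ] with s hs
              have hr : (0 : ℝ) < 2 * (1 / 2) ^ j := by positivity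
              refine le_trans (measure_mono ?_) ((chi_tail (B := B) (s - sQ) (2 * (1 / 2) ^ j) hs hr).trans
                (le_of_eq (tw_neg_natCast B).symm))
              intro X hX
              simp only [Set.mem_ofPred_eq] at hX ⊢
              by_contra hcon
              push Not at hcon
              apply hX
              -- show membership in the ball
              simp only [BallX, Set.mem_ofPred_eq]
              have hterm : ∀ t, ((yb δ X s t : ℝ) - (inner ℝ (X t) sQ : ℝ) / (1 / 2) ^ n) ^ 2 ≤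
                  2 * ((inner ℝ (X t) (s - sQ) : ℝ) ^ 2 * (2 ^ n) ^ 2) + 2 := by
                intro t
                simp only [yb]
                rw [inner_sub_right]
                set x : ℝ := inner ℝ (X t) s
                set x' : ℝ := inner ℝ (X t) sQ
                have hδ' : ∀ z : ℝ, z / δ = z * 2 ^ n := by
                  intro z; rw [hδ, one_div_pow]; field_simp
                rw [← hδ, hδ', hδ']
                have h1 := Int.floor_le (x * 2 ^ n)
                have h2 := Int.lt_floor_add_one (x * 2 ^ n)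
                set f : ℝ := (⌊x * 2 ^ n⌋ : ℝ)
                have e : f - x' * 2 ^ n = (x - x') * 2 ^ n - (x * 2 ^ n - f) := by ring
                rw [e]
                have h3 : 0 ≤ x * 2 ^ n - f := by linarith
                have h4 : x * 2 ^ n - f ≤ 1 := by linarith
                nlinarith [sq_nonneg ((x - x') * 2 ^ n + (x * 2 ^ n - f))]
              calc ∑ t, ((yb δ X s t : ℝ) - (inner ℝ (X t) sQ : ℝ) / (1 / 2) ^ n) ^ 2
                  ≤ ∑ t, (2 * ((inner ℝ (X t) (s - sQ) : ℝ) ^ 2 * (2 ^ n) ^ 2) + 2) :=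
                    Finset.sum_le_sum fun t _ => hterm t
                _ = 2 * (2 ^ n) ^ 2 * (∑ t, (inner ℝ (X t) (s - sQ) : ℝ) ^ 2) + 2 * B := by
                    rw [Finset.sum_add_distrib, Finset.mul_sum]
                    simp only [Finset.sum_const, Finset.card_univ, Fintype.card_fin, nsmul_eq_mul]
                    congr 1
                    · apply Finset.sum_congr rfl
                      intro t _
                      ring
                    · ring
                _ ≤ 2 * (2 ^ n) ^ 2 * (8 * B * (2 * (1 / 2) ^ j) ^ 2) + 2 * B := by gcongr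
                _ = B * (64 * (2 ^ (n - j)) ^ 2 + 2) := by
                    obtain ⟨l, rfl⟩ := Nat.exists_eq_add_of_le hjn
                    rw [Nat.add_sub_cancel_left, one_div_pow, pow_add]
                    have : (0:ℝ) < 2 ^ j := by positivity
                    field_simp
                    ring
                _ ≤ B * (9 * 2 ^ (n - j)) ^ 2 := by
                    gcongr
                    have : (1:ℝ) ≤ 2 ^ (n - j) := one_le_pow₀ (by norm_num)
                    nlinarith
          _ = tw (-(B : ℤ)) := by rw [lintegral_const, measure_univ, mul_one]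

end Crest.Agent.StreamLB
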