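import Crest.Agent.StreamLB.OneStep
set_option autoImplicit false

open MeasureTheory ProbabilityTheory
open scoped ENNReal BigOperators

namespace Crest.Agent.StreamLB

variable {d B : ℕ} {V : Type}

theorem main_ineq (n j : ℕ) (hjn : j ≤ n) (sQ : Eu d) (μ : Measure (Eu d))
    [IsProbabilityMeasure μ] (q : ℕ)
    (Φ : (Fin B → Eu d) → (Fin B → ℤ) → V)
    (hΦ : ∀ y v, MeasurableSet {X | Φ X y = v}) (v : V) (S : Set (Eu d))
    (m : ℕ) (I : ℝ≥0∞)
    (hI : ∀ (s1 : Eu d) (W : Submodule ℝ (Eu d)), Module.finrank ℝ W ≤ m →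
      ∫⁻ s in S, (ENNReal.ofReal ‖Wᗮ.starProjection (s - s1)‖)⁻¹ ^ B ∂μ ≤ I) :
    ∫⁻ s in S, gk ((1 / 2) ^ n) Φ v s ∂μ ≤
      tw (-q - 1) * ∫⁻ s, gk ((1 / 2) ^ n) Φ v s ∂μ +
        (tw (2 * q + 1 + 8 * B - B * j) * I) ^ m * μ S +
        lossV n j sQ μ (tw (-q - (8 + (n - j : ℕ)) * B)) Φ v := by
  set τ := tw (-q - (8 + (n - j : ℕ)) * B) with hτ
  set δ : ℝ := (1 / 2) ^ n with hδ
  have hδ0 : 0 < δ := by positivity
  set c := tw (2 * q + 1 + (8 + (n - j : ℕ)) * B) with hc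
  have hcτ : c * (tw (-q - 1) * τ) = 1 := by
    rw [hc, hτ, ← tw_add, ← tw_add, ← tw_zero]; congr 1; ring
  -- pointwise
  have hpt : ∀ (X : Fin B → Eu d) (y : Fin B → ℤ),
      indV Φ v X y * (μ.restrict S) {s | yb δ X s = y} ≤
      tw (-q - 1) * (indV Φ v X y * μ {s | yb δ X s = y}) +
        c ^ m * ((μ.restrict S) {s | yb δ X s = y}) ^ (m + 1) +
        indV Φ v X y * (indBad n j sQ μ τ X y * μ {s | yb δ X s = y}) := by
    intro X y
    set h := μ {s | yb δ X s = y} with hh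
    set hS := (μ.restrict S) {s | yb δ X s = y} with hhS
    have hle : hS ≤ h := Measure.restrict_apply_le _ _
    have hi1 : indV Φ v X y ≤ 1 := by
      unfold indV
      exact Set.indicator_le_self' (fun _ _ => by simp) _ |>.trans (by simp)
    by_cases hg : GoodXY n j sQ μ τ X y
    · by_cases hsmall : hS ≤ tw (-q - 1) * h
      · calc indV Φ v X y * hS ≤ indV Φ v X y * (tw (-q - 1) * h) := by gcongr
          _ = tw (-q - 1) * (indV Φ v X y * h) := by ring
          _ ≤ _ := by rw [add_assoc]; exact le_self_add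
      · push Not at hsmall
        have h1 : 1 ≤ c * hS := by
          rw [← hcτ]
          gcongr
          refine le_trans ?_ hsmall.le
          gcongr
          exact hg.2
        have h2 : 1 ≤ (c * hS) ^ m := one_le_pow₀ h1
        calc indV Φ v X y * hS ≤ 1 * hS := by gcongr
          _ ≤ (c * hS) ^ m * hS := by gcongr
          _ = c ^ m * hS ^ (m + 1) := by rw [mul_pow, pow_succ]; ring
          _ ≤ _ := by
              rw [add_assoc, add_left_comm]; exact le_self_add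
    · have hb : indBad n j sQ μ τ X y = 1 := by
        unfold indBad
        rw [Set.indicator_of_mem (by exact hg)]
      rw [hb, one_mul]
      calc indV Φ v X y * hS ≤ indV Φ v X y * h := by gcongr
        _ ≤ _ := le_add_self
  have hmI : Measurable fun X : Fin B → Eu d =>
      ∑' y : Fin B → ℤ, indV Φ v X y * μ {s | yb δ X s = y} :=
    Measurable.tsum fun y => (measurable_indV Φ hΦ v y).mul (measurable_hX _ μ y)
  have hm2 : Measurable fun X : Fin B → Eu d =>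
      ∑' y : Fin B → ℤ, ((μ.restrict S) {s | yb δ X s = y}) ^ (m + 1) :=
    Measurable.tsum fun y => (measurable_hX _ (μ.restrict S) y).pow_const _
  rw [lintegral_gk δ Φ hΦ v (μ.restrict S), lintegral_gk δ Φ hΦ v μ]
  calc ∫⁻ X, ∑' y : Fin B → ℤ, indV Φ v X y * (μ.restrict S) {s | yb δ X s = y} ∂(gamB d B)
      ≤ ∫⁻ X, (tw (-q - 1) * (∑' y : Fin B → ℤ, indV Φ v X y * μ {s | yb δ X s = y}) +
          c ^ m * (∑' y : Fin B → ℤ, ((μ.restrict S) {s | yb δ X s = y}) ^ (m + 1)) +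
          ∑' y : Fin B → ℤ, indV Φ v X y * (indBad n j sQ μ τ X y * μ {s | yb δ X s = y}))
          ∂(gamB d B) := by
        apply lintegral_mono
        intro X
        simp only
        rw [← ENNReal.tsum_mul_left, ← ENNReal.tsum_mul_left, ← ENNReal.tsum_add,
          ← ENNReal.tsum_add]
        exact ENNReal.tsum_le_tsum fun y => hpt X y
    _ = tw (-q - 1) * (∫⁻ X, ∑' y : Fin B → ℤ, indV Φ v X y * μ {s | yb δ X s = y} ∂(gamB d B)) +
          c ^ m * (∫⁻ X, ∑' y : Fin B → ℤ, ((μ.restrict S) {s | yb δ X s = y}) ^ (m + 1)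
            ∂(gamB d B)) + lossV n j sQ μ τ Φ v := by
        have hA : Measurable fun X : Fin B → Eu d => tw (-q - 1) *
            (∑' y : Fin B → ℤ, indV Φ v X y * μ {s | yb δ X s = y}) := hmI.const_mul _
        have hB' : Measurable fun X : Fin B → Eu d => c ^ m *
            (∑' y : Fin B → ℤ, ((μ.restrict S) {s | yb δ X s = y}) ^ (m + 1)) := hm2.const_mul _
        have hAB : Measurable fun X : Fin B → Eu d => tw (-q - 1) *
            (∑' y : Fin B → ℤ, indV Φ v X y * μ {s | yb δ X s = y}) + c ^ m *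
            (∑' y : Fin B → ℤ, ((μ.restrict S) {s | yb δ X s = y}) ^ (m + 1)) := hA.add hB'
        rw [lintegral_add_left hAB, lintegral_add_left hA, lintegral_const_mul _ hmI,
          lintegral_const_mul _ hm2]
        rfl
    _ ≤ _ := by
        refine add_le_add (add_le_add le_rfl ?_) le_rfl
        have hmom := moment_bound (B := B) (m := m) δ hδ0 (μ.restrict S) I hI
        rw [Measure.restrict_apply_univ] at hmom
        calc c ^ m * (∫⁻ X, ∑' y : Fin B → ℤ, ((μ.restrict S) {s | yb δ X s = y}) ^ (m + 1)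
            ∂(gamB d B)) ≤ c ^ m * (μ S * (ENNReal.ofReal δ ^ B * I) ^ m) := by gcongr
          _ = (c * (ENNReal.ofReal δ ^ B) * I) ^ m * μ S := by
              rw [mul_pow, mul_pow, mul_pow]; ring
          _ = (tw (2 * q + 1 + 8 * B - B * j) * I) ^ m * μ S := by
              congr 3
              rw [hδ, ofReal_half_pow, tw_pow, hc, ← tw_add]
              congr 1
              have : ((n - j : ℕ) : ℤ) = n - j := by push_cast [hjn]; ring
              rw [this]; ring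

/-- the set where the message `v` is much more likely than on average -/
def Sbad (δ : ℝ) (Φ : (Fin B → Eu d) → (Fin B → ℤ) → V) (μ : Measure (Eu d)) (ℓ : ℤ) (v : V) :
    Set (Eu d) :=
  {s | tw ℓ * (∫⁻ s', gk δ Φ v s' ∂μ) < gk δ Φ v s}

theorem measurableSet_Sbad (δ : ℝ) (Φ : (Fin B → Eu d) → (Fin B → ℤ) → V)
    (hΦ : ∀ y v, MeasurableSet {X | Φ X y = v}) (μ : Measure (Eu d)) (ℓ : ℤ) (v : V) :
    MeasurableSet (Sbad δ Φ μ ℓ v) :=
  measurableSet_lt measurable_const (measurable_gk δ Φ hΦ v)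

theorem mv_le_one (δ : ℝ) (Φ : (Fin B → Eu d) → (Fin B → ℤ) → V) (μ : Measure (Eu d))
    [IsProbabilityMeasure μ] (v : V) : ∫⁻ s, gk δ Φ v s ∂μ ≤ 1 := by
  calc ∫⁻ s, gk δ Φ v s ∂μ ≤ ∫⁻ _, 1 ∂μ := lintegral_mono fun s => gk_le_one δ Φ v s
    _ = 1 := by simp

theorem sum_mv [Fintype V] (δ : ℝ) (Φ : (Fin B → Eu d) → (Fin B → ℤ) → V)
    (hΦ : ∀ y v, MeasurableSet {X | Φ X y = v}) (μ : Measure (Eu d))
    [IsProbabilityMeasure μ] : ∑ v, ∫⁻ s, gk δ Φ v s ∂μ = 1 := by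
  rw [← lintegral_finsetSum _ (fun v _ => measurable_gk δ Φ hΦ v)]
  simp_rw [sum_gk δ Φ hΦ]
  simp

theorem Sbad_measure_le (δ : ℝ) (Φ : (Fin B → Eu d) → (Fin B → ℤ) → V)
    (hΦ : ∀ y v, MeasurableSet {X | Φ X y = v}) (μ : Measure (Eu d))
    [IsProbabilityMeasure μ] (ℓ : ℤ) (v : V) (hm : ∫⁻ s, gk δ Φ v s ∂μ ≠ 0) :
    μ (Sbad δ Φ μ ℓ v) ≤ tw (-ℓ) := by
  set mv := ∫⁻ s, gk δ Φ v s ∂μ with hmv
  have hmt : mv ≠ ⊤ := ne_top_of_le_ne_top (by simp) (mv_le_one δ Φ μ v)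
  have h1 := mul_meas_ge_le_lintegral (μ := μ) (measurable_gk δ Φ hΦ v) (tw ℓ * mv)
  have h2 : μ (Sbad δ Φ μ ℓ v) ≤ μ {s | tw ℓ * mv ≤ gk δ Φ v s} :=
    measure_mono (by intro s hs; simp only [Sbad, Set.mem_ofPred_eq] at hs ⊢; exact hs.le)
  have h3 : tw ℓ * mv * μ (Sbad δ Φ μ ℓ v) ≤ mv := le_trans (by gcongr) h1
  have h4 : mv * (tw ℓ * μ (Sbad δ Φ μ ℓ v)) ≤ mv * 1 := by
    calc mv * (tw ℓ * μ (Sbad δ Φ μ ℓ v)) = tw ℓ * mv * μ (Sbad δ Φ μ ℓ v) := by ring
      _ ≤ mv := h3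
      _ = mv * 1 := by ring
  have h5 : tw ℓ * μ (Sbad δ Φ μ ℓ v) ≤ 1 := (ENNReal.mul_le_mul_iff_right hm hmt).mp h4
  calc μ (Sbad δ Φ μ ℓ v) = tw (-ℓ) * (tw ℓ * μ (Sbad δ Φ μ ℓ v)) := by
        rw [← mul_assoc, mul_comm (tw (-ℓ)), tw_mul_neg, one_mul]
    _ ≤ tw (-ℓ) * 1 := by gcongr
    _ = tw (-ℓ) := mul_one _

/-- The one-step lemma. -/
theorem osl [Fintype V] {m a κ e w x ℓ : ℕ} (n j : ℕ) (hjn : j ≤ n) (sQ : Eu d)
    (μ : Measure (Eu d)) [IsProbabilityMeasure μ]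
    (hQ : ∀ᵐ s ∂μ, ‖s - sQ‖ ≤ 2 * (1 / 2) ^ j) (q : ℕ) (hBq : B = q)
    (Φ : (Fin B → Eu d) → (Fin B → ℤ) → V)
    (hΦ : ∀ y v, MeasurableSet {X | Φ X y = v})
    (hfrost : ∀ i ≥ j, ∀ z, μ {s | cid d i s = z} ≤ tw (q - κ * (i - j)))
    (hB : 1 ≤ B) (he : 1 ≤ e) (hκ : κ = m + B + e)
    (hcard : (Fintype.card V : ℝ≥0∞) ≤ tw w)
    (hn1 : 2 * q + 1 + 8 * B + B * a + x + 1 ≤ ℓ)
    (hn2 : 2 * q + 1 + 8 * B + B + 7 * m + 10 * d + q + 1 + x + 1 ≤ e * a)
    (hn3 : 2 * q + 1 + w ≤ x * m) :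
    ∑ v, ∫⁻ s in Sbad ((1 / 2) ^ n) Φ μ ℓ v, gk ((1 / 2) ^ n) Φ v s ∂μ ≤ tw (2 - q) := by
  classical
  set δ : ℝ := (1 / 2) ^ n with hδ
  set τ := tw (-q - (8 + (n - j : ℕ)) * B) with hτ
  set mv : V → ℝ≥0∞ := fun v => ∫⁻ s, gk δ Φ v s ∂μ with hmv
  have hkey : ∀ v, ∫⁻ s in Sbad δ Φ μ ℓ v, gk δ Φ v s ∂μ ≤
      tw (-q - w) + (tw (-q) * mv v + lossV n j sQ μ τ Φ v) := by
    intro v
    by_cases hsm : mv v < tw (-q - w)
    · calc ∫⁻ s in Sbad δ Φ μ ℓ v, gk δ Φ v s ∂μ ≤ mv v := setLIntegral_le_lintegral _ _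
        _ ≤ tw (-q - w) := hsm.le
        _ ≤ _ := le_self_add
    · push Not at hsm
      apply le_add_left
      have hm0 : mv v ≠ 0 := (lt_of_lt_of_le (tw_pos _) hsm).ne'
      have hμS := Sbad_measure_le δ Φ hΦ μ ℓ v hm0
      set S := Sbad δ Φ μ ℓ v with hS
      have hSm : MeasurableSet S := measurableSet_Sbad δ Φ hΦ μ ℓ v
      set I : ℝ≥0∞ := tw (B * j - (2 * q + 1 + 8 * B) - x) with hI
      have hI' : ∀ (s1 : Eu d) (W : Submodule ℝ (Eu d)), Module.finrank ℝ W ≤ m →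
          ∫⁻ s in S, (ENNReal.ofReal ‖Wᗮ.starProjection (s - s1)‖)⁻¹ ^ B ∂μ ≤ I := by
        intro s1 W hW
        refine (I_bound (a := a) (e := e) (κ := κ) (k := m) μ S hSm q hfrost sQ hQ s1 W hW hB he hκ).trans ?_
        have t1 : tw (B * (j + a)) * μ S ≤ tw (B * j - (2 * q + 1 + 8 * B) - x - 1) := by
          calc tw (B * (j + a)) * μ S ≤ tw (B * (j + a)) * tw (-ℓ) := by gcongr
            _ = tw (B * (j + a) - ℓ) := by rw [← tw_add]; congr 1
            _ ≤ _ := by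
                apply tw_mono
                have : (2 * q + 1 + 8 * B + B * a + x + 1 : ℤ) ≤ ℓ := by exact_mod_cast hn1
                linarith
        have t2 : tw (B * j + B + 7 * m + 10 * d + q + 1 - e * a) ≤
            tw (B * j - (2 * q + 1 + 8 * B) - x - 1) := by
          apply tw_mono
          have : (2 * q + 1 + 8 * B + B + 7 * m + 10 * d + q + 1 + x + 1 : ℤ) ≤ e * a := by
            exact_mod_cast hn2
          linarith
        calc _ ≤ tw (B * j - (2 * q + 1 + 8 * B) - x - 1) +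
              tw (B * j - (2 * q + 1 + 8 * B) - x - 1) := add_le_add t1 t2
          _ = 2 * tw (B * j - (2 * q + 1 + 8 * B) - x - 1) := by ring
          _ = tw (1 + (B * j - (2 * q + 1 + 8 * B) - x - 1)) := by
              rw [tw_add 1, tw_one]
          _ = I := by rw [hI]; congr 1; ring
      refine (main_ineq n j hjn sQ μ q Φ hΦ v S m I hI').trans ?_
      refine add_le_add ?_ le_rfl
      have t3 : tw (2 * q + 1 + 8 * B - B * j) * I = tw (-x) := by
        rw [hI, ← tw_add]; congr 1; ring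
      rw [t3, tw_pow]
      have t4 : tw (-x * m) * μ S ≤ tw (-q - 1) * mv v := by
        calc tw (-x * m) * μ S ≤ tw (-x * m) * 1 := by gcongr; exact prob_le_one
          _ = tw (-x * m) := mul_one _
          _ ≤ tw (-q - 1 + (-q - w)) := by
              apply tw_mono
              have : (2 * q + 1 + w : ℤ) ≤ x * m := by exact_mod_cast hn3
              linarith
          _ = tw (-q - 1) * tw (-q - w) := tw_add _ _
          _ ≤ tw (-q - 1) * mv v := by gcongr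
      calc tw (-q - 1) * mv v + tw (-x * m) * μ S ≤ tw (-q - 1) * mv v + tw (-q - 1) * mv v := by
            gcongr
        _ = tw (-q) * mv v := by
            have : tw (-q) = tw 1 * tw (-q - 1) := by rw [← tw_add]; congr 1; ring
            rw [this, tw_one]; ring
  calc ∑ v, ∫⁻ s in Sbad δ Φ μ ℓ v, gk δ Φ v s ∂μ
      ≤ ∑ v, (tw (-q - w) + (tw (-q) * mv v + lossV n j sQ μ τ Φ v)) :=
        Finset.sum_le_sum fun v _ => hkey v
    _ = Fintype.card V * tw (-q - w) + (tw (-q) * ∑ v, mv v + ∑ v, lossV n j sQ μ τ Φ v) := by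
        rw [Finset.sum_add_distrib, Finset.sum_add_distrib, Finset.sum_const, Finset.card_univ,
          nsmul_eq_mul, Finset.mul_sum]
    _ ≤ tw w * tw (-q - w) + (tw (-q) * 1 + (tw (-q) + tw (-(B : ℤ)))) := by
        gcongr
        · exact (sum_mv δ Φ hΦ μ).le
        · exact sum_lossV n j hjn sQ μ hQ q Φ hΦ
    _ = tw (2 - q) := by
        rw [← tw_add, mul_one, hBq]
        have e1 : (w : ℤ) + (-q - w) = -q := by ring
        rw [e1]
        have e2 : tw (2 - q) = tw 1 * (tw 1 * tw (-q)) := by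
          rw [← tw_add, ← tw_add]; congr 1; ring
        rw [e2, tw_one]
        ring

end Crest.Agent.StreamLB
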