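import Crest.Agent.StreamLB.Osl
set_option autoImplicit false

open MeasureTheory ProbabilityTheory
open scoped ENNReal BigOperators

namespace Crest.Agent.StreamLB

/-- regular distributions at level `j` -/
structure Node (d j q κ : ℕ) (ψ : ℤ) (μ : Measure (Eu d)) : Prop where
  prob : IsProbabilityMeasure μ
  unit : ∀ᵐ s ∂μ, ‖s‖ = 1
  cell : ∃ zQ, ∀ᵐ s ∂μ, cid d j s = zQ
  frost : ∀ i ≥ j, ∀ z, μ {s | cid d i s = z} ≤ tw (q - κ * (i - j))
  info : ∀ i ≥ j, ∀ z, μ {s | cid d i s = z} ≤ tw (ψ - (κ + q) * (i - j))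

theorem tw_lt_iff {a b : ℤ} : tw a < tw b ↔ a < b := by
  constructor
  · intro h
    by_contra hc
    push Not at hc
    exact absurd (tw_mono hc) (not_le.mpr h)
  · intro h
    have h1 : tw (a + 1) ≤ tw b := tw_mono (by omega)
    refine lt_of_lt_of_le ?_ h1
    rw [tw_add, tw_one, mul_two]
    exact ENNReal.lt_add_right (tw_ne_top _) (tw_ne_zero _)

theorem tw_le_iff {a b : ℤ} : tw a ≤ tw b ↔ a ≤ b := by
  rw [← not_lt, tw_lt_iff, not_lt]

variable {d : ℕ}

/-- normalised cell mass -/
noncomputable def Fi (κ j : ℕ) (μ : Measure (Eu d)) (i : ℕ) (s : Eu d) : ℝ≥0∞ :=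
  μ {s' | cid d i s' = cid d i s} * tw (κ * ((i : ℤ) - j))

theorem measurable_Fi (κ j : ℕ) (μ : Measure (Eu d)) (i : ℕ) : Measurable (Fi κ j μ i) := by
  have : Fi κ j μ i = (fun z => μ {s' | cid d i s' = z} * tw (κ * ((i : ℤ) - j))) ∘ cid d i := rfl
  rw [this]
  exact (measurable_of_countable _).comp (measurable_cid d i)

/-- last level at which the normalised cell mass is at least the total mass -/
def Ei (κ j J : ℕ) (μ : Measure (Eu d)) (i : ℕ) : Set (Eu d) :=
  {s | μ Set.univ ≤ Fi κ j μ i s ∧ ∀ i' ∈ Finset.Ioc i J, Fi κ j μ i' s < μ Set.univ}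

theorem measurableSet_Ei (κ j J : ℕ) (μ : Measure (Eu d)) (i : ℕ) :
    MeasurableSet (Ei κ j J μ i) := by
  have : Ei κ j J μ i = {s | μ Set.univ ≤ Fi κ j μ i s} ∩
      ⋂ i' ∈ Finset.Ioc i J, {s | Fi κ j μ i' s < μ Set.univ} := by
    ext s; simp [Ei]
  rw [this]
  refine (measurableSet_le measurable_const (measurable_Fi κ j μ i)).inter ?_
  exact Finset.measurableSet_biInter _ fun i' _ =>
    measurableSet_lt (measurable_Fi κ j μ i') measurable_const

/-- Selection lemma. -/
theorem select (d j J q κ : ℕ) (hjJ : j ≤ J) (μ : Measure (Eu d)) [IsFiniteMeasure μ]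
    (h0 : μ Set.univ ≠ 0) (hunit : ∀ᵐ s ∂μ, ‖s‖ = 1) (zQ : Fin d → ℤ)
    (hcell : ∀ᵐ s ∂μ, cid d j s = zQ) (ψ' : ℤ)
    (hinfo : ∀ i ≥ j, ∀ z, μ {s | cid d i s = z} ≤ μ Set.univ * tw (ψ' - (κ + q) * (i - j)))
    (hψ' : ψ' < q * (J + 1 - j)) (hq : 1 ≤ q)
    (f : Eu d → ℝ≥0∞) (hf : Measurable f) (hf1 : ∀ s, f s ≤ 1) (β : ℝ≥0∞)
    (hβ : ∀ i, j ≤ i → i ≤ J → ∀ ν : Measure (Eu d), Node d i q κ (ψ' + q - q * (i - j)) ν →
      ∫⁻ s, f s ∂ν ≤ β) :
    ∫⁻ s, f s ∂μ ≤ (β + (J + 1) * tw (-q)) * μ Set.univ := by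
  classical
  set m := μ Set.univ with hm
  have hmt : m ≠ ⊤ := measure_ne_top _ _
  -- levels beyond J
  have hbeyond : ∀ i, J < i → ∀ s, Fi κ j μ i s < m := by
    intro i hi s
    have h1 := hinfo i (by omega) (cid d i s)
    have hi' : (J : ℤ) + 1 ≤ i := by exact_mod_cast hi
    have h2 : ψ' - q * (i - j) < 0 := by
      have : (0 : ℤ) ≤ q * (i - (J + 1)) := by
        apply mul_nonneg (by positivity); linarith
      nlinarith
    calc Fi κ j μ i s ≤ m * tw (ψ' - (κ + q) * (i - j)) * tw (κ * ((i : ℤ) - j)) := by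
          unfold Fi; gcongr
      _ = m * tw (ψ' - q * (i - j)) := by
          rw [mul_assoc, ← tw_add]; congr 2; ring
      _ < m * 1 := by
          apply ENNReal.mul_lt_mul_right h0 hmt
          rw [← tw_zero, tw_lt_iff]; exact h2
      _ = m := mul_one _
  -- cover
  have hcover : ∀ᵐ s ∂μ, s ∈ ⋃ i ∈ Finset.Icc j J, Ei κ j J μ i := by
    filter_upwards [hcell] with s hs
    have hj : m ≤ Fi κ j μ j s := by
      have : μ {s' | cid d j s' = cid d j s} = m := by
        rw [hm]
        apply measure_congr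
        filter_upwards [hcell] with s' hs'
        have : cid d j s' = cid d j s := hs'.trans hs.symm
        exact propext ⟨fun _ => trivial, fun _ => this⟩
      unfold Fi
      rw [this]; simp [tw_zero]
    set A := (Finset.Icc j J).filter (fun i => m ≤ Fi κ j μ i s) with hA
    have hAne : A.Nonempty := ⟨j, by
      rw [hA, Finset.mem_filter, Finset.mem_Icc]; exact ⟨⟨le_rfl, hjJ⟩, hj⟩⟩
    set i := A.max' hAne with hi
    have hiA : i ∈ A := A.max'_mem hAne
    rw [hA, Finset.mem_filter, Finset.mem_Icc] at hiA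
    refine Set.mem_iUnion₂.mpr ⟨i, Finset.mem_Icc.mpr hiA.1, hiA.2, ?_⟩
    intro i' hi'
    rw [Finset.mem_Ioc] at hi'
    by_contra hc
    push Not at hc
    have : i' ∈ A := by
      rw [hA, Finset.mem_filter, Finset.mem_Icc]; exact ⟨⟨by omega, hi'.2⟩, hc⟩
    have := A.le_max' i' this
    omega
  -- disjointness
  have hdisj : Set.PairwiseDisjoint (↑(Finset.Icc j J)) (Ei κ j J μ) := by
    intro i hi i' hi' hii
    rw [Finset.coe_Icc, Set.mem_Icc] at hi hi'
    rw [Function.onFun, Set.disjoint_left]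
    rintro s hs hs'
    rcases lt_or_gt_of_ne hii with h | h
    · exact absurd hs'.1 (not_le.mpr (hs.2 i' (Finset.mem_Ioc.mpr ⟨h, hi'.2⟩)))
    · exact absurd hs.1 (not_le.mpr (hs'.2 i (Finset.mem_Ioc.mpr ⟨h, hi.2⟩)))
  -- per cell estimate
  have hpiece : ∀ i, j ≤ i → i ≤ J → ∀ z : Fin d → ℤ,
      ∫⁻ s in Ei κ j J μ i ∩ {s | cid d i s = z}, f s ∂μ ≤
        β * μ (Ei κ j J μ i ∩ {s | cid d i s = z}) + tw (-q) * μ {s | cid d i s = z} := by
    intro i hji hiJ z
    set T := Ei κ j J μ i ∩ {s | cid d i s = z} with hT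
    have hTm : MeasurableSet T := (measurableSet_Ei κ j J μ i).inter (measurableSet_cid d i z)
    set C := μ {s | cid d i s = z} with hC
    by_cases hsm : μ T ≤ tw (-q) * C
    · apply le_add_left
      calc ∫⁻ s in T, f s ∂μ ≤ ∫⁻ s in T, 1 ∂μ := lintegral_mono fun s => hf1 s
        _ = μ T := by simp
        _ ≤ _ := hsm
    · push Not at hsm
      apply le_add_right
      have hT0 : μ T ≠ 0 := (lt_of_le_of_lt zero_le hsm).ne'
      have hTt : μ T ≠ ⊤ := measure_ne_top _ _
      have hCT : (μ T)⁻¹ * C ≤ tw q := by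
        have h1 : C ≤ tw q * μ T := by
          calc C = tw q * (tw (-q) * C) := by rw [← mul_assoc, tw_mul_neg, one_mul]
            _ ≤ tw q * μ T := by gcongr
        calc (μ T)⁻¹ * C ≤ (μ T)⁻¹ * (tw q * μ T) := by gcongr
          _ = tw q * ((μ T)⁻¹ * μ T) := by ring
          _ = tw q := by rw [ENNReal.inv_mul_cancel hT0 hTt, mul_one]
      set ν : Measure (Eu d) := (μ T)⁻¹ • μ.restrict T with hν
      have hac : ν ≪ μ := by
        rw [hν]
        exact (Measure.smul_absolutelyContinuous).trans Measure.restrict_le_self.absolutelyContinuous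
      have hTne : T.Nonempty := by
        rw [Set.nonempty_iff_ne_empty]
        intro h; rw [h] at hT0; simp at hT0
      have hcellbound : ∀ (X : ℝ≥0∞) (i' : ℕ) (z' : Fin d → ℤ),
          (∀ s ∈ T, cid d i' s = z' → μ {s' | cid d i' s' = z'} ≤ C * X) →
          ν {s | cid d i' s = z'} ≤ tw q * X := by
        intro X i' z' h
        rw [hν, Measure.smul_apply, smul_eq_mul, Measure.restrict_apply (measurableSet_cid d i' z')]
        by_cases hne : ∃ s ∈ T, cid d i' s = z'
        · obtain ⟨s, hs, hsz⟩ := hne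
          calc (μ T)⁻¹ * μ ({s | cid d i' s = z'} ∩ T) ≤ (μ T)⁻¹ * μ {s | cid d i' s = z'} := by
                gcongr; exact Set.inter_subset_left
            _ ≤ (μ T)⁻¹ * (C * X) := by gcongr; exact h s hs hsz
            _ = (μ T)⁻¹ * C * X := by ring
            _ ≤ tw q * X := by gcongr
        · have : {s | cid d i' s = z'} ∩ T = ∅ := by
            ext s
            simp only [Set.mem_inter_iff, Set.mem_ofPred_eq, Set.mem_empty_iff_false, iff_false]
            rintro ⟨h1, h2⟩; exact hne ⟨s, h2, h1⟩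
          rw [this]; simp
      have hi_info : ∀ s ∈ T, m ≤ C * tw (κ * ((i : ℤ) - j)) := by
        intro s hs
        have := hs.1.1
        unfold Fi at this
        have hz : cid d i s = z := hs.2
        rw [hz] at this
        exact this
      have hnode : Node d i q κ (ψ' + q - q * (i - j)) ν := by
        refine ⟨⟨?_⟩, ?_, ⟨z, ?_⟩, ?_, ?_⟩
        · rw [hν, Measure.smul_apply, smul_eq_mul, Measure.restrict_apply_univ,
            ENNReal.inv_mul_cancel hT0 hTt]
        · exact hac.ae_le hunit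
        · have h1 : ∀ᵐ s ∂(μ.restrict T), cid d i s = z := by
            rw [ae_restrict_iff' hTm]
            exact Filter.Eventually.of_forall fun s hs => hs.2
          exact (Measure.smul_absolutelyContinuous).ae_le h1
        · intro i' hi' z'
          have key : ∀ s ∈ T, cid d i' s = z' →
              μ {s' | cid d i' s' = z'} ≤ C * tw (-(κ * ((i' : ℤ) - i))) := by
            intro s hs hsz
            rcases eq_or_lt_of_le hi' with h | h
            · subst h
              have : z' = z := hsz.symm.trans hs.2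
              rw [this]; simp [tw_zero, hC]
            · have h1 : Fi κ j μ i' s < m := by
                by_cases hJ : i' ≤ J
                · exact hs.1.2 i' (Finset.mem_Ioc.mpr ⟨h, hJ⟩)
                · exact hbeyond i' (by omega) s
              have h2 : μ {s' | cid d i' s' = z'} * tw (κ * ((i' : ℤ) - j)) ≤
                  C * tw (κ * ((i : ℤ) - j)) := by
                rw [← hsz]
                exact h1.le.trans (hi_info s hs)
              calc μ {s' | cid d i' s' = z'}
                  = μ {s' | cid d i' s' = z'} * tw (κ * ((i' : ℤ) - j)) *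
                    tw (-(κ * ((i' : ℤ) - j))) := by
                    rw [mul_assoc, tw_mul_neg, mul_one]
                _ ≤ C * tw (κ * ((i : ℤ) - j)) * tw (-(κ * ((i' : ℤ) - j))) := by gcongr
                _ = C * tw (-(κ * ((i' : ℤ) - i))) := by
                    rw [mul_assoc, ← tw_add]; congr 2; ring
          refine (hcellbound _ i' z' key).trans (le_of_eq ?_)
          rw [← tw_add]; congr 1
        · intro i' hi' z'
          have key : ∀ s ∈ T, cid d i' s = z' →
              μ {s' | cid d i' s' = z'} ≤ C * tw (ψ' - q * (i - j) - (κ + q) * ((i' : ℤ) - i)) := by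
            intro s hs _
            calc μ {s' | cid d i' s' = z'} ≤ m * tw (ψ' - (κ + q) * (i' - j)) :=
                  hinfo i' (le_trans hji hi') z'
              _ ≤ C * tw (κ * ((i : ℤ) - j)) * tw (ψ' - (κ + q) * (i' - j)) := by
                  gcongr; exact hi_info s hs
              _ = C * tw (ψ' - q * (i - j) - (κ + q) * ((i' : ℤ) - i)) := by
                  rw [mul_assoc, ← tw_add]; congr 2; ring
          refine (hcellbound _ i' z' key).trans (le_of_eq ?_)
          rw [← tw_add]; congr 1; ring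
      have h1 := hβ i hji hiJ ν hnode
      rw [hν, lintegral_smul_measure, smul_eq_mul] at h1
      calc ∫⁻ s in T, f s ∂μ = μ T * ((μ T)⁻¹ * ∫⁻ s in T, f s ∂μ) := by
            rw [← mul_assoc, ENNReal.mul_inv_cancel hT0 hTt, one_mul]
        _ ≤ μ T * β := by gcongr
        _ = β * μ T := mul_comm _ _
  -- per level estimate
  have hcells_univ : ∀ i, ∑' z : Fin d → ℤ, μ {s | cid d i s = z} = m := by
    intro i
    rw [← measure_iUnion]
    · rw [hm]; congr 1
      ext s; simp
    · intro z z' hzz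
      rw [Function.onFun, Set.disjoint_left]
      rintro s hs hs'
      exact hzz (hs.symm.trans hs')
    · intro z; exact measurableSet_cid d i z
  have hlevel : ∀ i, j ≤ i → i ≤ J → ∫⁻ s in Ei κ j J μ i, f s ∂μ ≤
      β * μ (Ei κ j J μ i) + tw (-q) * m := by
    intro i hji hiJ
    have hU : Ei κ j J μ i = ⋃ z : Fin d → ℤ, (Ei κ j J μ i ∩ {s | cid d i s = z}) := by
      ext s; simp
    have hmeas : ∀ z : Fin d → ℤ, MeasurableSet (Ei κ j J μ i ∩ {s | cid d i s = z}) := fun z =>
      (measurableSet_Ei κ j J μ i).inter (measurableSet_cid d i z)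
    have hdj : Pairwise (Function.onFun Disjoint fun z : Fin d → ℤ => Ei κ j J μ i ∩ {s | cid d i s = z}) := by
      intro z z' hzz
      rw [Function.onFun, Set.disjoint_left]
      rintro s hs hs'
      exact hzz (hs.2.symm.trans hs'.2)
    calc ∫⁻ s in Ei κ j J μ i, f s ∂μ
        = ∫⁻ s in ⋃ z : Fin d → ℤ, (Ei κ j J μ i ∩ {s | cid d i s = z}), f s ∂μ := by rw [← hU]
      _ = ∑' z : Fin d → ℤ, ∫⁻ s in Ei κ j J μ i ∩ {s | cid d i s = z}, f s ∂μ :=
          lintegral_iUnion hmeas hdj _
      _ ≤ ∑' z : Fin d → ℤ, (β * μ (Ei κ j J μ i ∩ {s | cid d i s = z}) +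
            tw (-q) * μ {s | cid d i s = z}) := ENNReal.tsum_le_tsum fun z => hpiece i hji hiJ z
      _ = β * (∑' z : Fin d → ℤ, μ (Ei κ j J μ i ∩ {s | cid d i s = z})) +
            tw (-q) * ∑' z : Fin d → ℤ, μ {s | cid d i s = z} := by
          rw [ENNReal.tsum_add, ENNReal.tsum_mul_left, ENNReal.tsum_mul_left]
      _ = β * μ (Ei κ j J μ i) + tw (-q) * m := by
          rw [← measure_iUnion hdj hmeas, ← hU, hcells_univ]
  calc ∫⁻ s, f s ∂μ = ∫⁻ s in ⋃ i ∈ Finset.Icc j J, Ei κ j J μ i, f s ∂μ := by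
        rw [Measure.restrict_eq_self_of_ae_mem hcover]
    _ = ∑ i ∈ Finset.Icc j J, ∫⁻ s in Ei κ j J μ i, f s ∂μ := by
        rw [lintegral_biUnion_finset hdisj (fun i _ => measurableSet_Ei κ j J μ i)]
    _ ≤ ∑ i ∈ Finset.Icc j J, (β * μ (Ei κ j J μ i) + tw (-q) * m) := by
        apply Finset.sum_le_sum
        intro i hi
        rw [Finset.mem_Icc] at hi
        exact hlevel i hi.1 hi.2
    _ = β * (∑ i ∈ Finset.Icc j J, μ (Ei κ j J μ i)) + (Finset.Icc j J).card * (tw (-q) * m) := by
        rw [Finset.sum_add_distrib, Finset.mul_sum, Finset.sum_const, nsmul_eq_mul]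
    _ ≤ β * m + (J + 1) * (tw (-q) * m) := by
        gcongr
        · rw [← measure_biUnion_finset hdisj (fun i _ => measurableSet_Ei κ j J μ i)]
          exact measure_mono (Set.subset_univ _)
        · have : (Finset.Icc j J).card ≤ J + 1 := by rw [Nat.card_Icc]; omega
          exact_mod_cast this
    _ = (β + (J + 1) * tw (-q)) * m := by ring

end Crest.Agent.StreamLB
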